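import Crest.Agent.R231.Alg.Rd

/-!
# R231/Alg: graded pieces, the Tate complex of a pair `(U,V)` (definitions and elementary lemmas)

`PP U e` = homogeneous sequences in `U` supported in the degrees `i ≡ e (mod 2)`, `Dl` = Tate differential,
`TC/TB` = relative Tate cycles / boundaries of parity `e`, `Bo/Zz/Ld` = leading terms.
-/

set_option autoImplicit false
open Submodule

noncomputable section
namespace Crest.Agent.R231.Alg

/-- sum over the degrees `i < N` with `i ≡ e (mod 2)` -/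
def sm (e N : ℕ) (f : ℕ → ℕ∞) : ℕ∞ := ∑ i ∈ (Finset.range N).filter (fun i => (i + e) % 2 = 0), f i

section
variable {M : Type} [AddCommGroup M] [Module F2 M]

/-- sequences `y i ∈ S i` supported in the degrees `≡ e (mod 2)` -/
def PS (S : ℕ → Submodule F2 M) (e : ℕ) : Submodule F2 (ℕ → M) where
  carrier := {y | ∀ i, y i ∈ S i ∧ ((i + e) % 2 = 1 → y i = 0)}
  add_mem' := fun ha hb i => ⟨(S i).add_mem (ha i).1 (hb i).1, fun h => by simp [(ha i).2 h, (hb i).2 h]⟩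
  zero_mem' := fun i => ⟨(S i).zero_mem, fun _ => rfl⟩
  smul_mem' := fun c _ hx i => ⟨(S i).smul_mem c (hx i).1, fun h => by simp [(hx i).2 h]⟩

theorem mem_PS {S : ℕ → Submodule F2 M} {e : ℕ} {y : ℕ → M} :
    y ∈ PS S e ↔ ∀ i, y i ∈ S i ∧ ((i + e) % 2 = 1 → y i = 0) := Iff.rfl

theorem PS_congr (S : ℕ → Submodule F2 M) {e e' : ℕ} (h : e % 2 = e' % 2) : PS S e = PS S e' := by
  ext y
  simp only [mem_PS]
  refine forall_congr' fun i => and_congr_right fun _ => ?_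
  rw [show ((i + e) % 2 = 1) ↔ ((i + e') % 2 = 1) by omega]

theorem PS_mono {S S' : ℕ → Submodule F2 M} (h : ∀ i, S i ≤ S' i) (e : ℕ) : PS S e ≤ PS S' e :=
  fun _ hy i => ⟨h i (hy i).1, (hy i).2⟩

theorem PS_sup (S S' : ℕ → Submodule F2 M) (e : ℕ) : PS (fun i => S i ⊔ S' i) e ≤ PS S e ⊔ PS S' e := by
  intro y hy
  have h : ∀ i, ∃ a b, a ∈ S i ∧ b ∈ S' i ∧ a + b = y i ∧ ((i + e) % 2 = 1 → a = 0 ∧ b = 0) := by
    intro i
    by_cases hi : (i + e) % 2 = 1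
    · exact ⟨0, 0, zero_mem _, zero_mem _, by simp [(hy i).2 hi], fun _ => ⟨rfl, rfl⟩⟩
    · obtain ⟨a, ha, b, hb, h⟩ := Submodule.mem_sup.1 (hy i).1
      exact ⟨a, b, ha, hb, h, fun h => absurd h hi⟩
  choose a b ha hb hab h0 using h
  have e1 : y = a + b := funext fun i => (hab i).symm
  rw [e1]
  exact Submodule.add_mem_sup (fun i => ⟨ha i, fun h => (h0 i h).1⟩) (fun i => ⟨hb i, fun h => (h0 i h).2⟩)

theorem single_mem_PS {S : ℕ → Submodule F2 M} {e i : ℕ} {w : M} (hw : w ∈ S i) (hi : (i + e) % 2 = 0) :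
    (Pi.single i w : ℕ → M) ∈ PS S e := by
  intro k
  by_cases hk : k = i
  · subst hk
    exact ⟨by simpa using hw, fun h => by omega⟩
  · simp [Pi.single_eq_of_ne hk]

theorem single_mem_Fl (V : Submodule F2 M) (i : ℕ) (w : M) : (Pi.single i w : ℕ → M) ∈ Fl V i := by
  intro k hk
  simp [Pi.single_eq_of_ne hk.ne]

theorem Fl_succ {V : Submodule F2 M} {i : ℕ} {z : ℕ → M} (hz : z ∈ Fl V i) (h : z i ∈ V) : z ∈ Fl V (i + 1) := by
  intro k hk
  rcases Nat.lt_succ_iff_lt_or_eq.1 hk with hk | rfl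
  · exact hz k hk
  · exact h

theorem Fl_mono {V V' : Submodule F2 M} (h : V ≤ V') (i : ℕ) : Fl V i ≤ Fl V' i := fun _ hz k hk => h (hz k hk)

end

theorem sm_congr {e N : ℕ} {f g : ℕ → ℕ∞} (h : ∀ i < N, (i + e) % 2 = 0 → f i = g i) : sm e N f = sm e N g :=
  Finset.sum_congr rfl fun i hi => by
    simp only [Finset.mem_filter, Finset.mem_range] at hi
    exact h i hi.1 hi.2

theorem sm_le {e N : ℕ} {f g : ℕ → ℕ∞} (h : ∀ i < N, (i + e) % 2 = 0 → f i ≤ g i) : sm e N f ≤ sm e N g :=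
  Finset.sum_le_sum fun i hi => by
    simp only [Finset.mem_filter, Finset.mem_range] at hi
    exact h i hi.1 hi.2

theorem sm_add (e N : ℕ) (f g : ℕ → ℕ∞) : sm e N (fun i => f i + g i) = sm e N f + sm e N g :=
  Finset.sum_add_distrib

theorem sm_par {e e' : ℕ} (h : e % 2 = e' % 2) (N : ℕ) (f : ℕ → ℕ∞) : sm e N f = sm e' N f := by
  unfold sm
  congr 1
  exact Finset.filter_congr fun i _ => by omega

theorem sm_eq_ite (e N : ℕ) (f : ℕ → ℕ∞) :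
    sm e N f = ∑ i ∈ Finset.range N, if (i + e) % 2 = 0 then f i else 0 := Finset.sum_filter _ _

theorem sm_succ (e N : ℕ) (f : ℕ → ℕ∞) : sm e (N + 1) f = sm e N f + if (N + e) % 2 = 0 then f N else 0 := by
  rw [sm_eq_ite, sm_eq_ite, Finset.sum_range_succ]

theorem sm_add_sm (e N : ℕ) (f : ℕ → ℕ∞) : sm e N f + sm (e + 1) N f = ∑ i ∈ Finset.range N, f i := by
  rw [sm_eq_ite, sm_eq_ite, ← Finset.sum_add_distrib]
  refine Finset.sum_congr rfl fun i _ => ?_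
  by_cases h : (i + e) % 2 = 0
  · rw [if_pos h, if_neg (by omega), add_zero]
  · rw [if_neg h, if_pos (by omega), zero_add]

theorem le_sm {e N i : ℕ} (f : ℕ → ℕ∞) (hi : i < N) (he : (i + e) % 2 = 0) : f i ≤ sm e N f :=
  Finset.single_le_sum (f := f) (fun _ _ => zero_le) (by simp [hi, he])

theorem sm_stable {e N N' : ℕ} {f : ℕ → ℕ∞} (hN : N ≤ N') (h : ∀ i, N ≤ i → (i + e) % 2 = 0 → f i = 0) :
    sm e N' f = sm e N f := by
  induction N', hN using Nat.le_induction with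
  | base => rfl
  | succ k hk ih =>
    rw [sm_succ, ih]
    split_ifs with h1
    · rw [h k hk h1, add_zero]
    · rw [add_zero]

/-- termwise `≤` and equal finite sums give termwise equality -/
theorem eq_of_sm_le {e N : ℕ} {f g : ℕ → ℕ∞} (h : ∀ i < N, (i + e) % 2 = 0 → f i ≤ g i) (hs : sm e N g ≤ sm e N f)
    (hfin : sm e N f ≠ ⊤) : ∀ i < N, (i + e) % 2 = 0 → g i ≤ f i := by
  intro i hi he
  have hm : i ∈ (Finset.range N).filter (fun i => (i + e) % 2 = 0) := by simp [hi, he]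
  unfold sm at hs hfin
  rw [← Finset.add_sum_erase _ _ hm] at hfin
  rw [← Finset.add_sum_erase _ _ hm, ← Finset.add_sum_erase _ _ hm] at hs
  have h1 : ∑ x ∈ ((Finset.range N).filter (fun i => (i + e) % 2 = 0)).erase i, f x ≤
      ∑ x ∈ ((Finset.range N).filter (fun i => (i + e) % 2 = 0)).erase i, g x :=
    Finset.sum_le_sum fun k hk => by
      have := Finset.mem_of_mem_erase hk
      simp only [Finset.mem_filter, Finset.mem_range] at this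
      exact h k this.1 this.2
  have h2 := (add_le_add le_rfl h1).trans hs
  exact (ENat.add_le_add_iff_right (WithTop.add_ne_top.1 hfin).2).1 h2

variable {n : ℕ} (A : Alg n)

/-- homogeneous elements of degree `i` -/
def Hm (i : ℕ) : Submodule F2 A.C where
  carrier := {c | A.p i c = c}
  add_mem' := fun {a b} ha hb => by
    simp only [Set.mem_ofPred_eq] at *
    rw [map_add, ha, hb]
  zero_mem' := map_zero _
  smul_mem' := fun c x hx => by
    simp only [Set.mem_ofPred_eq] at *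
    rw [map_smul, hx]

/-- homogeneous relative cycles -/
def cy (U V : Submodule F2 A.C) (i : ℕ) : Submodule F2 A.C := A.Hm i ⊓ Cy A.d U V

/-- graded, `d`- and `sig`-stable submodules -/
structure Good (U : Submodule F2 A.C) : Prop where
  p : ∀ i c, c ∈ U → A.p i c ∈ U
  d : ∀ c, c ∈ U → A.d c ∈ U
  sig : ∀ k c, c ∈ U → A.sig k c ∈ U

/-- a good pair -/
structure GP (U V : Submodule F2 A.C) : Prop where
  gU : A.Good U
  gV : A.Good V
  le : V ≤ U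

/-- `H_i(U,V) = 0` for `i ≥ N` -/
def Top (U V : Submodule F2 A.C) (N : ℕ) : Prop := ∀ i, N ≤ i → A.cy U V i ≤ Bd A.d U V

def PP (U : Submodule F2 A.C) (e : ℕ) : Submodule F2 (ℕ → A.C) := PS (fun i => A.Hm i ⊓ U) e

/-- the Tate differential -/
def Dl : (ℕ → A.C) →ₗ[F2] (ℕ → A.C) where
  toFun := DD A.d A.sig
  map_add' := fun a b => by
    funext i
    simp only [DD, Pi.add_apply, map_add, Finset.sum_add_distrib]
    abel
  map_smul' := fun c a => by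
    funext i
    simp only [DD, Pi.smul_apply, map_smul, RingHom.id_apply, smul_add, Finset.smul_sum]

def jj : (ℕ → A.C) →ₗ[F2] (ℕ → A.C) := A.j.compLeft ℕ

/-- relative Tate boundaries of parity `e` -/
def TB (U V : Submodule F2 A.C) (e : ℕ) : Submodule F2 (ℕ → A.C) := (A.PP U (e + 1)).map A.Dl ⊔ A.PP V e
/-- relative Tate cycles of parity `e` -/
def TC (U V : Submodule F2 A.C) (e : ℕ) : Submodule F2 (ℕ → A.C) := A.PP U e ⊓ (A.PP V (e + 1)).comap A.Dl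
/-- the Tate classes `j y`, `y i ∈ S i` -/
def WS (S : ℕ → Submodule F2 A.C) (U V : Submodule F2 A.C) (e : ℕ) : Submodule F2 (ℕ → A.C) :=
  (PS S e).map A.jj ⊔ A.TB U V e
/-- leading terms of boundaries -/
def Bo (U V : Submodule F2 A.C) (i : ℕ) : Submodule F2 A.C := Lam V (A.TB U V i) i
/-- leading terms of cycles -/
def Zz (U V : Submodule F2 A.C) (i : ℕ) : Submodule F2 A.C := Lam V (A.TC U V i) i
/-- leading terms of `j S` -/
def Ld (S : ℕ → Submodule F2 A.C) (U V : Submodule F2 A.C) (i : ℕ) : Submodule F2 A.C := Lam V (A.WS S U V i) i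
/-- `dim H_i(U,V)` -/
def hd (U V : Submodule F2 A.C) (i : ℕ) : ℕ∞ := rd (A.cy U V i) (Bd A.d U V)
/-- dimension of the leading terms of boundaries in `H_i(U,V)` -/
def bo (U V : Submodule F2 A.C) (i : ℕ) : ℕ∞ := rd (A.Bo U V i) (Bd A.d U V)

/-- the norm `1 + τ` -/
def NN : A.C →ₗ[F2] A.C := LinearMap.id + A.τ

variable {A}

theorem mem_Hm {i : ℕ} {c : A.C} : c ∈ A.Hm i ↔ A.p i c = c := Iff.rfl

theorem mem_cy {U V : Submodule F2 A.C} {i : ℕ} {c : A.C} : c ∈ A.cy U V i ↔ c ∈ A.Hm i ∧ c ∈ U ∧ A.d c ∈ V := Iff.rfl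

theorem mem_PP {U : Submodule F2 A.C} {e : ℕ} {y : ℕ → A.C} :
    y ∈ A.PP U e ↔ ∀ i, (y i ∈ A.Hm i ∧ y i ∈ U) ∧ ((i + e) % 2 = 1 → y i = 0) := Iff.rfl

theorem p_mem_Hm (i : ℕ) (c : A.C) : A.p i c ∈ A.Hm i := by
  rw [mem_Hm, A.p_p, if_pos rfl]

theorem p_of_Hm_ne {i k : ℕ} {c : A.C} (hc : c ∈ A.Hm i) (h : k ≠ i) : A.p k c = 0 := by
  rw [← mem_Hm.1 hc, A.p_p, if_neg h]

theorem d_mem_Hm {i : ℕ} {c : A.C} (hc : c ∈ A.Hm (i + 1)) : A.d c ∈ A.Hm i := by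
  rw [mem_Hm, ← A.d_p, mem_Hm.1 hc]

theorem d_Hm_zero {c : A.C} (hc : c ∈ A.Hm 0) : A.d c = 0 := by
  rw [← mem_Hm.1 hc, A.d_p0]

theorem sig_mem_Hm {i : ℕ} (k : ℕ) {c : A.C} (hc : c ∈ A.Hm i) : A.sig k c ∈ A.Hm (i + (2 * k + 1)) := by
  rw [mem_Hm, ← A.sig_p, mem_Hm.1 hc]

theorem j_mem_Hm {i : ℕ} {c : A.C} (hc : c ∈ A.Hm i) : A.j c ∈ A.Hm i := by
  rw [mem_Hm, ← A.j_p, mem_Hm.1 hc]

theorem τ_mem_Hm {i : ℕ} {c : A.C} (hc : c ∈ A.Hm i) : A.τ c ∈ A.Hm i := by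
  rw [mem_Hm, ← A.τ_p, mem_Hm.1 hc]

theorem B_mem_Hm {i : ℕ} {c : A.C} (hc : c ∈ A.Hm i) : A.B c ∈ A.Hm (i + 1) := by
  rw [mem_Hm, ← A.B_p, mem_Hm.1 hc]

theorem NN_apply (c : A.C) : A.NN c = c + A.τ c := rfl

theorem NN_NN (c : A.C) : A.NN (A.NN c) = 0 := by
  rw [NN_apply, NN_apply, map_add, A.τ_τ]
  linear_combination (norm := abel1) two c + two (A.τ c)

theorem d_NN (c : A.C) : A.d (A.NN c) = A.NN (A.d c) := by
  rw [NN_apply, NN_apply, map_add, A.τ_d]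

/-- `d (p i c) ∈ V` if `d c ∈ V` and `V` is graded -/
theorem d_p_mem {V : Submodule F2 A.C} (hV : ∀ i c, c ∈ V → A.p i c ∈ V) {c : A.C} (hc : A.d c ∈ V) (i : ℕ) :
    A.d (A.p i c) ∈ V := by
  cases i with
  | zero => rw [A.d_p0]; exact V.zero_mem
  | succ i => rw [A.d_p]; exact hV _ _ hc

theorem good_F (l : ℝ) : A.Good (A.F l) := ⟨A.F_p l, A.F_d l, fun k => A.sig_F k l⟩
theorem good_bot : A.Good ⊥ :=
  ⟨fun _ _ h => by simp [(mem_bot F2).1 h], fun _ h => by simp [(mem_bot F2).1 h], fun _ _ h => by simp [(mem_bot F2).1 h]⟩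
theorem good_top : A.Good ⊤ := ⟨fun _ _ _ => trivial, fun _ _ => trivial, fun _ _ _ => trivial⟩
theorem good_O (l : ℝ) (b : Bool) (r : ℝ) : A.Good (A.O l b r) := ⟨A.O_p l b r, A.O_d l b r, A.O_sig l b r⟩
theorem Good.inf {U V : Submodule F2 A.C} (hU : A.Good U) (hV : A.Good V) : A.Good (U ⊓ V) :=
  ⟨fun i c h => ⟨hU.p i c h.1, hV.p i c h.2⟩, fun c h => ⟨hU.d c h.1, hV.d c h.2⟩,
    fun k c h => ⟨hU.sig k c h.1, hV.sig k c h.2⟩⟩
theorem gp_abs (l : ℝ) : A.GP (A.F l) ⊥ := ⟨good_F l, good_bot, bot_le⟩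
theorem gp_pair {l l' : ℝ} (h : l ≤ l') : A.GP (A.F l') (A.F l) := ⟨good_F l', good_F l, A.F_mono h⟩

theorem GP.p_cy {U V : Submodule F2 A.C} (h : A.GP U V) {c : A.C} (hc : c ∈ Cy A.d U V) (i : ℕ) :
    A.p i c ∈ A.cy U V i := ⟨p_mem_Hm i c, h.gU.p i c hc.1, d_p_mem h.gV.p hc.2 i⟩

/-- homogeneous boundaries have homogeneous primitives -/
theorem hom_Bd {U V : Submodule F2 A.C} (hU : A.Good U) (hV : A.Good V) {i : ℕ} {x : A.C} (hx : x ∈ A.Hm i)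
    (hb : x ∈ Bd A.d U V) : ∃ w, w ∈ A.Hm (i + 1) ∧ w ∈ U ∧ x + A.d w ∈ V := by
  obtain ⟨w, hw, h⟩ := mem_Bd.1 hb
  refine ⟨A.p (i + 1) w, p_mem_Hm _ _, hU.p _ _ hw, ?_⟩
  have := hV.p i _ h
  rwa [map_add, mem_Hm.1 hx, ← A.d_p] at this

theorem p_Bd {U V : Submodule F2 A.C} (hU : A.Good U) (hV : A.Good V) (i : ℕ) {x : A.C}
    (hb : x ∈ Bd A.d U V) : A.p i x ∈ Bd A.d U V := by
  obtain ⟨w, hw, h⟩ := mem_Bd.1 hb
  refine mem_Bd.2 ⟨A.p (i + 1) w, hU.p _ _ hw, ?_⟩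
  have := hV.p i _ h
  rwa [map_add, ← A.d_p] at this

theorem p_range (i : ℕ) {x : A.C} (hb : x ∈ LinearMap.range A.d) : A.p i x ∈ LinearMap.range A.d := by
  obtain ⟨w, rfl⟩ := hb
  exact ⟨A.p (i + 1) w, A.d_p i w⟩

theorem d_mem_Bd {U : Submodule F2 A.C} (V : Submodule F2 A.C) {w : A.C} (hw : w ∈ U) : A.d w ∈ Bd A.d U V :=
  Submodule.mem_sup_left ⟨w, hw, rfl⟩

theorem le_Bd (U V : Submodule F2 A.C) : V ≤ Bd A.d U V := le_sup_right

theorem Bd_mono {U V U' V' : Submodule F2 A.C} (hU : U ≤ U') (hV : V ≤ V') : Bd A.d U V ≤ Bd A.d U' V' :=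
  sup_le_sup (Submodule.map_mono hU) hV

theorem cy_mono {U V U' V' : Submodule F2 A.C} (hU : U ≤ U') (hV : V ≤ V') (i : ℕ) : A.cy U V i ≤ A.cy U' V' i :=
  fun _ h => ⟨h.1, hU h.2.1, hV h.2.2⟩

theorem Bd_bot_le_range (U : Submodule F2 A.C) : Bd A.d U ⊥ ≤ LinearMap.range A.d :=
  sup_le LinearMap.map_le_range bot_le

theorem GP.Bd_le_Cy {U V : Submodule F2 A.C} (h : A.GP U V) : Bd A.d U V ≤ Cy A.d U V := by
  refine sup_le ?_ fun x hx => ⟨h.le hx, h.gV.d x hx⟩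
  rintro _ ⟨w, hw, rfl⟩
  refine ⟨h.gU.d w hw, ?_⟩
  change A.d (A.d w) ∈ V
  rw [A.d_d]
  exact V.zero_mem

theorem τ_Bd {U V : Submodule F2 A.C} (hU : ∀ c ∈ U, A.τ c ∈ U) (hV : ∀ c ∈ V, A.τ c ∈ V) {x : A.C}
    (hx : x ∈ Bd A.d U V) : A.τ x ∈ Bd A.d U V := by
  obtain ⟨w, hw, h⟩ := mem_Bd.1 hx
  refine mem_Bd.2 ⟨A.τ w, hU w hw, ?_⟩
  rw [A.τ_d, ← map_add]
  exact hV _ h

theorem τ_cy {U V : Submodule F2 A.C} (hU : ∀ c ∈ U, A.τ c ∈ U) (hV : ∀ c ∈ V, A.τ c ∈ V) {i : ℕ} {x : A.C}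
    (hx : x ∈ A.cy U V i) : A.τ x ∈ A.cy U V i := by
  refine ⟨τ_mem_Hm hx.1, hU _ hx.2.1, ?_⟩
  change A.d (A.τ x) ∈ V
  rw [A.τ_d]
  exact hV _ hx.2.2

theorem τ_range {x : A.C} (hx : x ∈ LinearMap.range A.d) : A.τ x ∈ LinearMap.range A.d := by
  obtain ⟨w, rfl⟩ := hx
  exact ⟨A.τ w, A.τ_d w⟩

theorem τ_bot : ∀ c ∈ (⊥ : Submodule F2 A.C), A.τ c ∈ (⊥ : Submodule F2 A.C) := fun c h => by simp [(mem_bot F2).1 h]

theorem NN_mem {S : Submodule F2 A.C} (h : ∀ c ∈ S, A.τ c ∈ S) : ∀ c ∈ S, A.NN c ∈ S :=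
  fun c hc => S.add_mem hc (h c hc)

/-! ### the Tate differential -/

theorem Dl_apply (z : ℕ → A.C) (i : ℕ) : A.Dl z i =
    A.d (z (i + 1)) + ∑ k ∈ (Finset.range i).filter (fun k => 2 * k + 1 ≤ i), A.sig k (z (i - (2 * k + 1))) := rfl

theorem jj_apply (y : ℕ → A.C) (i : ℕ) : A.jj y i = A.j (y i) := rfl

theorem Dl_jj (y : ℕ → A.C) (i : ℕ) : A.Dl (A.jj y) i = A.j (A.d (y (i + 1))) := by
  rw [Dl_apply]
  simp only [jj_apply, A.sig_j, Finset.sum_const_zero, add_zero, A.j_d]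

theorem PP_congr (U : Submodule F2 A.C) {e e' : ℕ} (h : e % 2 = e' % 2) : A.PP U e = A.PP U e' := PS_congr _ h

theorem TB_congr (U V : Submodule F2 A.C) {e e' : ℕ} (h : e % 2 = e' % 2) : A.TB U V e = A.TB U V e' := by
  unfold TB
  rw [PP_congr U (e := e + 1) (e' := e' + 1) (by omega), PP_congr V h]

theorem TC_congr (U V : Submodule F2 A.C) {e e' : ℕ} (h : e % 2 = e' % 2) : A.TC U V e = A.TC U V e' := by
  unfold TC
  rw [PP_congr V (e := e + 1) (e' := e' + 1) (by omega), PP_congr U h]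

theorem WS_congr (S : ℕ → Submodule F2 A.C) (U V : Submodule F2 A.C) {e e' : ℕ} (h : e % 2 = e' % 2) :
    A.WS S U V e = A.WS S U V e' := by
  unfold WS
  rw [TB_congr U V h, PS_congr S h]

theorem PP_mono {U U' : Submodule F2 A.C} (h : U ≤ U') (e : ℕ) : A.PP U e ≤ A.PP U' e :=
  PS_mono (fun _ => inf_le_inf_left _ h) e

theorem PP_le_Fl (V : Submodule F2 A.C) (e i : ℕ) : A.PP V e ≤ Fl V i := fun _ hz k _ => (hz k).1.2

theorem TB_mono {U V U' V' : Submodule F2 A.C} (hU : U ≤ U') (hV : V ≤ V') (e : ℕ) : A.TB U V e ≤ A.TB U' V' e :=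
  sup_le_sup (Submodule.map_mono (PP_mono hU _)) (PP_mono hV _)

theorem Dl_mem_PP {U : Submodule F2 A.C} (hU : A.Good U) {e : ℕ} {z : ℕ → A.C} (hz : z ∈ A.PP U (e + 1)) :
    A.Dl z ∈ A.PP U e := by
  intro i
  rw [Dl_apply]
  refine ⟨⟨add_mem (d_mem_Hm (hz _).1.1) (sum_mem fun k hk => ?_),
    add_mem (hU.d _ (hz _).1.2) (sum_mem fun k _ => hU.sig _ _ (hz _).1.2)⟩, fun h => ?_⟩
  · simp only [Finset.mem_filter] at hk
    have := sig_mem_Hm k (hz (i - (2 * k + 1))).1.1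
    rwa [Nat.sub_add_cancel hk.2] at this
  · rw [(hz (i + 1)).2 (by omega), map_zero, zero_add]
    refine Finset.sum_eq_zero fun k hk => ?_
    simp only [Finset.mem_filter] at hk
    rw [(hz (i - (2 * k + 1))).2 (by omega), map_zero]

theorem Dl_mem_PP' {U : Submodule F2 A.C} (hU : A.Good U) {e : ℕ} {z : ℕ → A.C} (hz : z ∈ A.PP U e) :
    A.Dl z ∈ A.PP U (e + 1) :=
  Dl_mem_PP hU (by rwa [PP_congr U (e := e + 1 + 1) (e' := e) (by omega)])

theorem Dl_Dl {z : ℕ → A.C} (hz : z 0 ∈ A.Hm 0) : A.Dl (A.Dl z) = 0 := by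
  funext i
  rw [Dl_apply, Dl_apply, map_add, A.d_d, zero_add, map_sum, Pi.zero_apply]
  have e1 : ∀ k ∈ (Finset.range i).filter (fun k => 2 * k + 1 ≤ i),
      A.sig k (A.Dl z (i - (2 * k + 1))) = A.sig k (A.d (z (i + 1 - (2 * k + 1)))) := by
    intro k hk
    simp only [Finset.mem_filter] at hk
    rw [Dl_apply, map_add, map_sum, Finset.sum_eq_zero (fun k' _ => A.sig_sig _ _ _), add_zero,
      show i - (2 * k + 1) + 1 = i + 1 - (2 * k + 1) by omega]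
  rw [Finset.sum_congr rfl e1, add_eq_zero_iff]
  symm
  simp only [A.sig_d]
  apply Finset.sum_subset
  · intro k hk
    simp only [Finset.mem_filter, Finset.mem_range] at hk ⊢
    omega
  · intro k hk hk'
    simp only [Finset.mem_filter, Finset.mem_range] at hk hk'
    rw [show i + 1 - (2 * k + 1) = 0 by omega, d_Hm_zero hz, map_zero]

theorem Dl_Dl' {U : Submodule F2 A.C} {e : ℕ} {z : ℕ → A.C} (hz : z ∈ A.PP U e) : A.Dl (A.Dl z) = 0 :=
  Dl_Dl (hz 0).1.1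

/-- the component `i` of `D z` is `d (z (i+1))` modulo `V` if `z ∈ Fl V i` -/
theorem Dl_lead {V : Submodule F2 A.C} (hV : A.Good V) {i : ℕ} {z : ℕ → A.C} (hz : z ∈ Fl V i) :
    A.Dl z i + A.d (z (i + 1)) ∈ V := by
  rw [Dl_apply, add_right_comm, two, zero_add]
  refine sum_mem fun k hk => hV.sig _ _ (hz _ ?_)
  simp only [Finset.mem_filter] at hk
  omega

theorem Dl_Fl {V : Submodule F2 A.C} (hV : A.Good V) {i : ℕ} {z : ℕ → A.C} (hz : z ∈ Fl V (i + 1)) :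
    A.Dl z ∈ Fl V i := by
  intro k hk
  have h1 := Dl_lead hV (Fl_anti V (show k ≤ i + 1 by omega) hz)
  have h2 := hV.d _ (hz (k + 1) (by omega))
  have e : A.Dl z k = A.Dl z k + A.d (z (k + 1)) + A.d (z (k + 1)) := by rw [add_assoc, two, add_zero]
  rw [e]
  exact V.add_mem h1 h2

/-- `D z` in degree `i` only depends on the components of degree `≤ i+1` -/
theorem Dl_congr {z z' : ℕ → A.C} {i : ℕ} (h : ∀ k ≤ i + 1, z k = z' k) : A.Dl z i = A.Dl z' i := by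
  rw [Dl_apply, Dl_apply, h _ le_rfl]
  congr 1
  exact Finset.sum_congr rfl fun k _ => by rw [h _ (by omega)]

theorem Dl_single (i : ℕ) (w : A.C) : A.Dl (Pi.single (i + 1) w) i = A.d w := by
  have := Dl_lead (A := A) good_bot (Fl_anti _ (Nat.le_succ i) (single_mem_Fl ⊥ (i + 1) w))
  rw [mem_bot, add_eq_zero_iff] at this
  simpa using this

theorem Dl_single_up (i : ℕ) (w : A.C) : A.Dl (Pi.single i w) (i + 1) = A.sig 0 w := by
  rw [Dl_apply, Pi.single_eq_of_ne (by omega), map_zero, zero_add, Finset.sum_eq_single 0]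
  · simp
  · intro k hk hk0
    simp only [Finset.mem_filter] at hk
    rw [Pi.single_eq_of_ne (by omega), map_zero]
  · intro h
    simp at h

theorem single_mem_PP {U : Submodule F2 A.C} {e i : ℕ} {w : A.C} (h1 : w ∈ A.Hm i) (h2 : w ∈ U)
    (hi : (i + e) % 2 = 0) : (Pi.single i w : ℕ → A.C) ∈ A.PP U e := single_mem_PS (S := fun i => A.Hm i ⊓ U) ⟨h1, h2⟩ hi

/-- if `z ∈ Fl V i` is homogeneous in degree `i` and `D z ∈ Fl V i` then `d (z i) ∈ V` -/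
theorem d_lead_mem {V : Submodule F2 A.C} (hV : A.Good V) {i : ℕ} {z : ℕ → A.C} (h0 : z i ∈ A.Hm i) (hz : z ∈ Fl V i)
    (hD : A.Dl z ∈ Fl V i) : A.d (z i) ∈ V := by
  cases i with
  | zero => rw [d_Hm_zero h0]; exact V.zero_mem
  | succ i =>
    have h1 := Dl_lead hV (Fl_anti V (Nat.le_succ i) hz)
    have e : A.d (z (i + 1)) = A.Dl z i + A.d (z (i + 1)) + A.Dl z i := by rw [add_right_comm, two, zero_add]
    rw [e]
    exact V.add_mem h1 (hD i (Nat.lt_succ_self i))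

/-- a cycle placed in its degree: `D (single i c) ∈ Fl V (i+1)` -/
theorem Dl_single_Fl {V : Submodule F2 A.C} (hV : A.Good V) {i : ℕ} {c : A.C} (hc : A.d c ∈ V) :
    A.Dl (Pi.single i c) ∈ Fl V (i + 1) := by
  intro k hk
  have h1 := Dl_lead hV (Fl_anti V (show k ≤ i by omega) (single_mem_Fl V i c))
  have h2 : A.d ((Pi.single i c : ℕ → A.C) (k + 1)) ∈ V := by
    by_cases h : k + 1 = i
    · rw [h, Pi.single_eq_same]
      exact hc
    · rw [Pi.single_eq_of_ne h, map_zero]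
      exact V.zero_mem
  have e : A.Dl (Pi.single i c) k = A.Dl (Pi.single i c) k + A.d ((Pi.single i c : ℕ → A.C) (k + 1)) +
      A.d ((Pi.single i c : ℕ → A.C) (k + 1)) := by rw [add_assoc, two, add_zero]
  rw [e]
  exact V.add_mem h1 h2

theorem GP.TB_le_PP {U V : Submodule F2 A.C} (h : A.GP U V) (e : ℕ) : A.TB U V e ≤ A.PP U e := by
  refine sup_le ?_ (PP_mono h.le e)
  rintro _ ⟨z, hz, rfl⟩
  exact Dl_mem_PP h.gU hz

theorem GP.TB_le_TC {U V : Submodule F2 A.C} (h : A.GP U V) (e : ℕ) : A.TB U V e ≤ A.TC U V e := by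
  refine le_inf (h.TB_le_PP e) (sup_le ?_ fun z hz => Dl_mem_PP' h.gV hz)
  rintro _ ⟨z, hz, rfl⟩
  rw [Submodule.mem_comap, Dl_Dl' hz]
  exact zero_mem _

theorem GP.Lam_le_cy {U V : Submodule F2 A.C} (h : A.GP U V) {e : ℕ} {W : Submodule F2 (ℕ → A.C)}
    (hW : W ≤ A.TC U V e) (i : ℕ) : Lam V W i ≤ A.cy U V i := by
  intro x hx
  obtain ⟨z, hz, hz', rfl⟩ := mem_Lam.1 hx
  have h1 := hW hz
  exact ⟨(h1.1 i).1.1, (h1.1 i).1.2, d_lead_mem h.gV (h1.1 i).1.1 hz' (PP_le_Fl V _ i h1.2)⟩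

theorem Lam_eq_bot {U V : Submodule F2 A.C} {e : ℕ} {W : Submodule F2 (ℕ → A.C)}
    (hW : W ≤ A.PP U e) {i : ℕ} (hi : (i + e) % 2 = 1) : Lam V W i = ⊥ := by
  rw [eq_bot_iff]
  intro x hx
  obtain ⟨z, hz, _, rfl⟩ := mem_Lam.1 hx
  exact (hW hz i).2 hi

theorem GP.Bo_le_cy {U V : Submodule F2 A.C} (h : A.GP U V) (i : ℕ) : A.Bo U V i ≤ A.cy U V i :=
  h.Lam_le_cy (h.TB_le_TC i) i

/-- homogeneous boundaries are leading terms of Tate boundaries modulo `V` -/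
theorem GP.Bd_le_Bo {U V : Submodule F2 A.C} (h : A.GP U V) {i : ℕ} {x : A.C} (hx : x ∈ A.Hm i)
    (hb : x ∈ Bd A.d U V) : x ∈ A.Bo U V i ⊔ V := by
  obtain ⟨w, hw1, hw2, hw⟩ := hom_Bd h.gU h.gV hx hb
  have e : x = A.d w + (x + A.d w) := by rw [add_comm x, ← add_assoc, two, zero_add]
  rw [e]
  refine Submodule.add_mem_sup (mem_Lam.2 ⟨A.Dl (Pi.single (i + 1) w), ?_, ?_, Dl_single i w⟩) hw
  · exact Submodule.mem_sup_left ⟨_, single_mem_PP hw1 hw2 (by omega), rfl⟩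
  · exact Dl_Fl h.gV (single_mem_Fl V (i + 1) w)

theorem Bo_mono {U U' : Submodule F2 A.C} (V : Submodule F2 A.C) (h : U ≤ U') (i : ℕ) : A.Bo U V i ≤ A.Bo U' V i :=
  Lam_mono V (TB_mono h le_rfl i) i

theorem Bo_le_Ld (S : ℕ → Submodule F2 A.C) (U V : Submodule F2 A.C) (i : ℕ) : A.Bo U V i ≤ A.Ld S U V i :=
  Lam_mono V le_sup_right i

/-- `sig 0 c` is the leading term of a Tate boundary -/
theorem sig_mem_Bo {U : Submodule F2 A.C} {i : ℕ} {c : A.C} (h1 : c ∈ A.Hm i) (h2 : c ∈ U) (h3 : A.d c = 0) :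
    A.sig 0 c ∈ A.Bo U ⊥ (i + 1) :=
  mem_Lam.2 ⟨A.Dl (Pi.single i c), Submodule.mem_sup_left ⟨_, single_mem_PP h1 h2 (by omega), rfl⟩,
    Dl_single_Fl good_bot (by rw [h3]; exact zero_mem _), Dl_single_up i c⟩

/-! ### sums over degrees -/

theorem sum_rd_le {S : ℕ → Submodule F2 A.C} {T B : Submodule F2 A.C} (hS : ∀ i, S i ≤ A.Hm i) (hT : ∀ i, S i ≤ T)
    (hB : ∀ i c, c ∈ B → A.p i c ∈ B) (s : Finset ℕ) : ∑ i ∈ s, rd (S i) B ≤ rd T B := by
  suffices h : ∑ i ∈ s, rd (S i) B = rd (s.sup S) B by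
    rw [h]
    exact rd_mono_left (Finset.sup_le fun i _ => hT i) B
  induction s using Finset.induction_on with
  | empty => simp [rd_eq_zero.2 (bot_le : (⊥ : Submodule F2 A.C) ≤ B)]
  | insert a s ha ih =>
    rw [Finset.sum_insert ha, Finset.sup_insert, rd_sup_left, ih]
    congr 1
    apply rd_congr
    intro x hx
    refine ⟨fun h => Submodule.mem_sup_right h, fun h => ?_⟩
    obtain ⟨y, hy, b, hb, rfl⟩ := Submodule.mem_sup.1 h
    have h1 : s.sup S ≤ LinearMap.ker (A.p a) :=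
      Finset.sup_le fun i hi c hc => p_of_Hm_ne (hS i hc) (fun h => ha (h ▸ hi))
    rw [← mem_Hm.1 (hS a hx), map_add, LinearMap.mem_ker.1 (h1 hy), zero_add]
    exact hB a b hb

theorem GP.sum_hd_le {U V : Submodule F2 A.C} (h : A.GP U V) (s : Finset ℕ) : ∑ i ∈ s, A.hd U V i ≤ hh A.d U V :=
  sum_rd_le (S := A.cy U V) (fun _ => inf_le_left) (fun _ => inf_le_right) (fun i _ hc => p_Bd h.gU h.gV i hc) s

theorem GP.exists_top {U V : Submodule F2 A.C} (h : A.GP U V) (hfin : hh A.d U V ≠ ⊤) : ∃ N, A.Top U V N := by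
  by_contra hcon
  have hinf : {i | A.hd U V i ≠ 0}.Infinite := by
    apply Set.infinite_of_not_bddAbove
    rintro ⟨N, hN⟩
    refine hcon ⟨N + 1, fun i hi => rd_eq_zero.1 ?_⟩
    by_contra h0
    have := hN (show i ∈ {i | A.hd U V i ≠ 0} from h0)
    omega
  obtain ⟨K, hK⟩ := ENat.ne_top_iff_exists.1 hfin
  obtain ⟨s, hs, hcard⟩ := hinf.exists_subset_card_eq (K + 1)
  have h1 : ∑ i ∈ s, (1 : ℕ∞) ≤ ∑ i ∈ s, A.hd U V i :=
    Finset.sum_le_sum fun i hi => Order.one_le_iff_ne_zero.2 (hs hi)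
  have h2 := h1.trans (h.sum_hd_le s)
  rw [← hK, Finset.sum_const, hcard, nsmul_one] at h2
  have : K + 1 ≤ K := by exact_mod_cast h2
  omega

theorem Top.mono {U V : Submodule F2 A.C} {N N' : ℕ} (h : A.Top U V N) (hN : N ≤ N') : A.Top U V N' :=
  fun i hi => h i (hN.trans hi)

theorem GP.sm_ne_top {U V : Submodule F2 A.C} (h : A.GP U V) (hfin : hh A.d U V ≠ ⊤) {S : ℕ → Submodule F2 A.C}
    (hS : ∀ i, S i ≤ A.cy U V i ⊔ Bd A.d U V) (e N : ℕ) : sm e N (fun i => rd (S i) (Bd A.d U V)) ≠ ⊤ :=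
  ne_top_of_le_ne_top hfin ((sm_le fun i _ _ => rd_le_of_le_sup (hS i)).trans (h.sum_hd_le _))

theorem fin_abs (l : ℝ) : hh A.d (A.F l) ⊥ ≠ ⊤ := by
  obtain ⟨R, hR⟩ := A.findim l
  exact ne_top_of_le_ne_top (ENat.natCast_ne_top R) (rd_le_of_hrk hR)

theorem fin_pair {l l' : ℝ} (h : l ≤ l') : hh A.d (A.F l') (A.F l) ≠ ⊤ := by
  obtain ⟨r₂, r₃, h1, h2, h3⟩ := triple A.d A.d_d (bot_le : ⊥ ≤ A.F l) (A.F_mono h) (A.F_d l) good_bot.d
  have h4 := fin_abs (A := A) l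
  have h5 := fin_abs (A := A) l'
  rw [h1] at h4
  rw [h2] at h5
  rw [h3]
  exact WithTop.add_ne_top.2 ⟨(WithTop.add_ne_top.1 h5).2, (WithTop.add_ne_top.1 h4).2⟩

/-- no critical value in `[a,b)`: the pair is acyclic -/
theorem acyc {a b : ℝ} (ha : 0 < a) (hab : a ≤ b) (h : ∀ x ∈ A.crit, x ∉ Set.Ico a b) :
    Cy A.d (A.F b) (A.F a) ≤ Bd A.d (A.F b) (A.F a) :=
  fun c hc => mem_Bd.2 (A.const a b ha hab h c hc.1 hc.2)

/-- isolated critical values: left gap -/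
theorem gap_left (l : ℝ) : ∃ η, 0 < η ∧ ∀ x ∈ A.crit, x ∉ Set.Ico (l - η) l := by
  obtain ⟨r, hr⟩ := A.crit_fin
  have hfin : (A.crit ∩ Set.Ico (l - 1) l).Finite :=
    (hr (l - 1)).1.subset fun x hx => ⟨hx.1, hx.2.1, by linarith [hx.2.2]⟩
  by_cases hne : (A.crit ∩ Set.Ico (l - 1) l).Nonempty
  · obtain ⟨x₀, hx₀, hmax⟩ := Set.exists_max_image _ id hfin hne
    refine ⟨(l - x₀) / 2, by linarith [hx₀.2.2], fun x hx hx' => ?_⟩
    have := hmax x ⟨hx, by linarith [hx'.1, hx₀.2.1, hx₀.2.2], hx'.2⟩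
    simp only [id] at this
    linarith [hx'.1, hx₀.2.2]
  · exact ⟨1, one_pos, fun x hx hx' => hne ⟨x, hx, hx'⟩⟩

/-- isolated critical values: right gap -/
theorem gap_right (l : ℝ) : ∃ η, 0 < η ∧ ∀ x ∈ A.crit, x ∉ Set.Ioo l (l + η) := by
  obtain ⟨r, hr⟩ := A.crit_fin
  have hfin : (A.crit ∩ Set.Ioo l (l + 1)).Finite :=
    (hr l).1.subset fun x hx => ⟨hx.1, hx.2.1.le, hx.2.2.le⟩
  by_cases hne : (A.crit ∩ Set.Ioo l (l + 1)).Nonempty
  · obtain ⟨x₀, hx₀, hmin⟩ := Set.exists_min_image _ id hfin hne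
    refine ⟨x₀ - l, by linarith [hx₀.2.1], fun x hx hx' => ?_⟩
    have := hmin x ⟨hx, hx'.1, by linarith [hx'.2, hx₀.2.2]⟩
    simp only [id] at this
    linarith [hx'.2]
  · exact ⟨1, one_pos, fun x hx hx' => hne ⟨x, hx, hx'⟩⟩

/-- real induction -/
theorem real_ind {P : ℝ → Prop} {a b : ℝ} (hab : a ≤ b) (ha : P a)
    (hl : ∀ l, a < l → l ≤ b → ∃ η, 0 < η ∧ ∀ l', a ≤ l' → l - η < l' → l' ≤ l → P l' → P l)
    (hr : ∀ l, a ≤ l → l < b → P l → ∃ η, 0 < η ∧ ∀ e, 0 < e → e ≤ η → P (l + e)) : P b := by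
  set S := {l | l ∈ Set.Icc a b ∧ P l} with hS
  have hne : S.Nonempty := ⟨a, ⟨le_rfl, hab⟩, ha⟩
  have hbdd : BddAbove S := ⟨b, fun x hx => hx.1.2⟩
  have h1 : a ≤ sSup S := le_csSup hbdd ⟨⟨le_rfl, hab⟩, ha⟩
  have h2 : sSup S ≤ b := csSup_le hne fun x hx => hx.1.2
  have h3 : P (sSup S) := by
    rcases h1.eq_or_lt with h | h
    · rw [← h]; exact ha
    · obtain ⟨η, hη, hP⟩ := hl _ h h2
      obtain ⟨x, hx, hx'⟩ := exists_lt_of_lt_csSup hne (show sSup S - η < sSup S by linarith)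
      exact hP x hx.1.1 hx' (le_csSup hbdd hx) hx.2
  rcases h2.eq_or_lt with h | h
  · rw [← h]; exact h3
  · obtain ⟨η, hη, hP⟩ := hr _ h1 h h3
    have h4 : 0 < min η (b - sSup S) := lt_min hη (by linarith)
    have h5 : sSup S + min η (b - sSup S) ∈ S :=
      ⟨⟨by linarith, by linarith [min_le_right η (b - sSup S)]⟩, hP _ h4 (min_le_left _ _)⟩
    have := le_csSup hbdd h5
    linarith

end Crest.Agent.R231.Alg
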