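import Crest.Agent.R231.Alg.Loc

/-! # R231/Alg: uniform bounds (A2) -/

set_option autoImplicit false
open Submodule

noncomputable section
namespace Crest.Agent.R231.Alg

variable {n : ℕ} {A : Alg n}

/-- classes of level `l` that die in `H(C)` -/
def Kk (A : Alg n) (l : ℝ) (i : ℕ) : Submodule F2 A.C := A.cy (A.F l) ⊥ i ⊓ LinearMap.range A.d
def kd (A : Alg n) (l : ℝ) (i : ℕ) : ℕ∞ := rd (A.Kk l i) (Bd A.d (A.F l) ⊥)
/-- Betti numbers of `C` -/
def bt (A : Alg n) (i : ℕ) : ℕ∞ := rd (A.cy ⊤ ⊥ i) (LinearMap.range A.d)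

theorem hh_sub {a b c : ℝ} (h1 : a ≤ b) (h2 : b ≤ c) :
    hh A.d (A.F c) (A.F a) ≤ hh A.d (A.F b) (A.F a) + hh A.d (A.F c) (A.F b) := by
  obtain ⟨r₂, r₃, e1, e2, e3⟩ := triple A.d A.d_d (A.F_mono h1) (A.F_mono h2) (A.F_d b) (A.F_d a)
  rw [e1, e2, e3]
  exact add_le_add le_self_add le_self_add

theorem unit_bound (A : Alg n) : ∃ K : ℕ, ∀ l, 0 < l → ∀ l', l ≤ l' → l' ≤ l + 1 → hh A.d (A.F l') (A.F l) ≤ K := by
  obtain ⟨K, hK⟩ := A.gm
  obtain ⟨r, hr⟩ := A.crit_fin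
  refine ⟨K * r, fun l hl l' h1 h2 => ?_⟩
  set S : ℝ → Set ℝ := fun x => A.crit ∩ Set.Icc l (l + 1) ∩ Set.Iio x with hS
  have hfin : ∀ x, (S x).Finite := fun x => (hr l).1.subset Set.inter_subset_left
  have hmono : ∀ x y, x ≤ y → (S x).ncard ≤ (S y).ncard := fun x y h =>
    Set.ncard_le_ncard (Set.inter_subset_inter_right _ (Set.Iio_subset_Iio h)) (hfin y)
  have key : hh A.d (A.F l') (A.F l) ≤ ((K * (S l').ncard : ℕ) : ℕ∞) := by
    refine real_ind (P := fun x => hh A.d (A.F x) (A.F l) ≤ ((K * (S x).ncard : ℕ) : ℕ∞)) h1 ?_ ?_ ?_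
    · exact (rd_eq_zero.2 (inf_le_left.trans (le_Bd _ _))).le.trans zero_le
    · intro x _ _
      obtain ⟨η, hη, h⟩ := A.gap_left x
      refine ⟨η, hη, fun y hy1 hy2 hy3 hP => (hh_sub hy1 hy3).trans ?_⟩
      have h0 : hh A.d (A.F x) (A.F y) = 0 :=
        rd_eq_zero.2 (acyc (hl.trans_le hy1) hy3 fun z hz hz' => h z hz ⟨hy2.le.trans hz'.1, hz'.2⟩)
      rw [h0, add_zero]
      exact hP.trans (by exact_mod_cast Nat.mul_le_mul_left K (hmono _ _ hy3))
    · intro x hx1 hx2 hP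
      by_cases hx : x ∈ A.crit
      · obtain ⟨e₀, he₀, h⟩ := hK x (hl.trans_le hx1)
        refine ⟨e₀, he₀, fun e he he' => (hh_sub hx1 (by linarith : x ≤ x + e)).trans ?_⟩
        have h3 : (S x).ncard + 1 ≤ (S (x + e)).ncard := by
          rw [← Set.ncard_insert_of_notMem (a := x) (fun h => lt_irrefl x h.2) (hfin x)]
          refine Set.ncard_le_ncard ?_ (hfin _)
          rintro y (rfl | hy)
          · exact ⟨⟨hx, hx1, by linarith⟩, by simpa using he⟩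
          · exact ⟨hy.1, lt_trans hy.2 (by linarith : x < x + e)⟩
        refine (add_le_add hP (rd_le_of_hrk (h e he he'))).trans ?_
        have := Nat.mul_le_mul_left K h3
        rw [Nat.mul_add_one] at this
        exact_mod_cast this
      · obtain ⟨η, hη, h⟩ := A.gap_right x
        refine ⟨η, hη, fun e he he' => (hh_sub hx1 (by linarith : x ≤ x + e)).trans ?_⟩
        have h0 : hh A.d (A.F (x + e)) (A.F x) = 0 := by
          refine rd_eq_zero.2 (acyc (hl.trans_le hx1) (by linarith) fun z hz hz' => h z hz ⟨?_, by linarith [hz'.2]⟩)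
          exact lt_of_le_of_ne hz'.1 fun h => hx (h ▸ hz)
        rw [h0, add_zero]
        exact hP.trans (by exact_mod_cast Nat.mul_le_mul_left K (hmono _ _ (by linarith)))
  refine key.trans ?_
  exact_mod_cast Nat.mul_le_mul_left K ((Set.ncard_le_ncard Set.inter_subset_left (hr l).1).trans (hr l).2)

theorem pair_bound (A : Alg n) : ∃ K : ℕ, ∀ l, 0 < l → hh A.d (A.F (l + A.Cg)) (A.F l) ≤ K := by
  obtain ⟨K, hK⟩ := A.unit_bound
  have key : ∀ t : ℕ, ∀ l : ℝ, 0 < l → ∀ l' : ℝ, l ≤ l' → l' ≤ l + 1 + t → hh A.d (A.F l') (A.F l) ≤ (((t + 1) * K : ℕ) : ℕ∞) := by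
    intro t
    induction t with
    | zero => intro l hl l' h1 h2; simpa using hK l hl l' h1 (by simpa using h2)
    | succ t ih =>
      intro l hl l' h1 h2
      rcases le_or_gt l' (l + 1) with h | h
      · exact (hK l hl l' h1 h).trans (by exact_mod_cast Nat.le_mul_of_pos_left K (by omega))
      · refine (hh_sub (by linarith : l ≤ l + 1) h.le).trans ((add_le_add (hK l hl _ (by linarith) le_rfl)
          (ih (l + 1) (by linarith) l' h.le (by push_cast at h2; linarith))).trans (le_of_eq ?_))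
        push_cast
        ring
  obtain ⟨t, ht⟩ := exists_nat_ge A.Cg
  exact ⟨_, fun l hl => key t l hl _ (by linarith [A.Cg_pos]) (by linarith)⟩

theorem kd_bound (A : Alg n) : ∃ M : ℕ, ∀ l, 0 < l → ∀ s : Finset ℕ, ∑ i ∈ s, A.kd l i ≤ M := by
  obtain ⟨K, hK⟩ := A.pair_bound
  refine ⟨K, fun l hl s => le_trans ?_ (hK l hl)⟩
  refine (sum_rd_le (S := A.Kk l) (T := (Cy A.d (A.F (l + A.Cg)) (A.F l)).map A.d) (fun i x hx => hx.1.1) ?_
    (fun i _ hc => p_Bd (good_F l) good_bot i hc) s).trans ?_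
  · intro i x hx
    obtain ⟨w, hw, rfl⟩ := A.bars l x hx.1.2.1 hx.2
    exact ⟨w, ⟨hw, hx.1.2.1⟩, rfl⟩
  · rw [rd_map]
    refine rd_anti_right _ fun x hx => ?_
    obtain ⟨w, _, h⟩ := mem_Bd.1 hx
    have := d_mem_Bd (A := A) ⊥ h
    rwa [map_add, A.d_d, add_zero] at this

open Classical in
theorem bt_le (hn : 2 ≤ n) (i : ℕ) :
    A.bt i ≤ (if ∃ k, i = k * (n - 1) then 1 else 0) + (if ∃ k, i = n + k * (n - 1) then 1 else 0) := by
  refine (rd_le_add _ (LinearMap.ker A.Φ) _).trans ((add_comm _ _).le.trans (add_le_add ?_ ?_))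
  · split_ifs with h
    · obtain ⟨k, hk⟩ := h
      refine (rd_le_of_le_sup fun c hc => ?_).trans (rd_span_le (A.α k) _)
      rcases A.Φ_ker i c hc.1.1 hc.1.2.2 hc.2 with h | ⟨k', hk', w, hw⟩
      · exact Submodule.mem_sup_right h
      · obtain rfl : k' = k := Nat.eq_of_mul_eq_mul_right (show 0 < n - 1 by omega) (hk'.symm.trans hk)
        have e : c = A.α k' + A.d w := by rw [hw, add_comm c, ← add_assoc, two, zero_add]
        rw [e]
        exact Submodule.add_mem_sup (Submodule.mem_span_singleton_self _) ⟨w, rfl⟩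
    · refine (rd_eq_zero.2 fun c hc => ?_).le
      rcases A.Φ_ker i c hc.1.1 hc.1.2.2 hc.2 with h' | ⟨k', hk', _⟩
      · exact h'
      · exact absurd ⟨k', hk'⟩ h
  · split_ifs with h
    · exact rd_ker_le _ _
    · refine (rd_eq_zero.2 fun c hc => ?_).le
      by_contra h'
      exact h (A.Φ_deg i c hc.1 hc.2.2 h')

open Classical in
theorem block_le_one (x y m : ℕ) :
    ∑ i ∈ Finset.Ico y (y + m), (if ∃ k, i = x + k * m then (1 : ℕ∞) else 0) ≤ 1 := by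
  rw [Finset.sum_boole]
  have : ((Finset.Ico y (y + m)).filter (fun i => ∃ k, i = x + k * m)).card ≤ 1 := by
    refine Finset.card_le_one.2 fun i hi j hj => ?_
    simp only [Finset.mem_filter, Finset.mem_Ico] at hi hj
    obtain ⟨hi, k, rfl⟩ := hi
    obtain ⟨hj, k', rfl⟩ := hj
    rcases lt_trichotomy k k' with h | rfl | h
    · have := Nat.mul_le_mul_right m (Nat.succ_le_of_lt h)
      rw [Nat.succ_mul] at this
      omega
    · rfl
    · have := Nat.mul_le_mul_right m (Nat.succ_le_of_lt h)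
      rw [Nat.succ_mul] at this
      omega
  exact_mod_cast this

theorem bt_sum (hn : 2 ≤ n) {a c : ℕ} (h : a ≤ c) :
    ∑ i ∈ Finset.range (c * (n - 1)), A.bt i ≤ ∑ i ∈ Finset.range (a * (n - 1)), A.bt i + (2 * (c - a) : ℕ) := by
  induction c, h using Nat.le_induction with
  | base => simp
  | succ c hc ih =>
    rw [Nat.succ_mul, ← Finset.sum_range_add_sum_Ico _ (Nat.le_add_right (c * (n - 1)) (n - 1))]
    have h1 : ∑ i ∈ Finset.Ico (c * (n - 1)) (c * (n - 1) + (n - 1)), A.bt i ≤ 1 + 1 := by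
      refine (Finset.sum_le_sum fun i _ => bt_le hn i).trans ?_
      rw [Finset.sum_add_distrib]
      refine add_le_add ?_ (block_le_one n _ _)
      refine le_trans (le_of_eq (Finset.sum_congr rfl fun i _ => ?_)) (block_le_one 0 (c * (n - 1)) (n - 1))
      by_cases h : ∃ k, i = k * (n - 1)
      · rw [if_pos h, if_pos (by simpa using h)]
      · rw [if_neg h, if_neg (by simpa using h)]
    refine (add_le_add ih h1).trans (le_of_eq ?_)
    rw [add_assoc, show 2 * (c + 1 - a) = 2 * (c - a) + (1 + 1) by omega]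
    push_cast
    rfl

theorem Φ_range {c : A.C} (h : c ∈ LinearMap.range A.d) : A.Φ c = 0 := by
  obtain ⟨w, rfl⟩ := h
  exact A.Φ_d w

theorem B_range {c : A.C} (h : c ∈ LinearMap.range A.d) : A.B c ∈ LinearMap.range A.d := by
  obtain ⟨w, rfl⟩ := h
  exact ⟨A.B w, A.B_d w⟩

theorem α_not_range {k : ℕ} (hk : Odd k) : A.α k ∉ LinearMap.range A.d := fun h => by
  have := A.Φ_Bα k hk
  rw [Φ_range (B_range h)] at this
  exact zero_ne_one this

theorem α_mem_cy {k : ℕ} {l : ℝ} (h : A.s k + A.Cg ≤ l) : A.α k ∈ A.cy (A.F l) ⊥ (k * (n - 1)) :=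
  ⟨A.α_p k, A.F_mono h (A.α_F k), A.α_d k⟩

theorem s_grow (hn : 2 ≤ n) (A : Alg n) : ∃ g : ℕ, ∀ i, A.s i + A.Cg ≤ A.s (i + g) := by
  have : ∃ k, 2 * A.Cg ≤ A.s k := by
    by_contra h
    push Not at h
    obtain ⟨N, hN⟩ := (gp_abs (A := A) (3 * A.Cg)).exists_top (fin_abs _)
    refine α_not_range (A := A) (odd_two_mul_add_one N) (Bd_bot_le_range _ (hN _ ?_ (α_mem_cy (by linarith [h (2 * N + 1)]))))
    exact le_trans (by omega) (Nat.le_mul_of_pos_right _ (show 0 < n - 1 by omega))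
  obtain ⟨k, hk⟩ := this
  exact ⟨k + 1, fun i => by have := A.s_super i k; rw [← add_assoc]; linarith⟩

theorem s_quasi (i k : ℕ) (h : i ≤ k) : A.s i ≤ A.s k + A.Cg := by
  rcases h.eq_or_lt with rfl | h
  · linarith [A.Cg_pos]
  · obtain ⟨t, rfl⟩ : ∃ t, k = i + t + 1 := ⟨k - i - 1, by omega⟩
    linarith [A.s_super i t, A.s_nonneg t]

theorem s_grow_mul {g : ℕ} (hg : ∀ i, A.s i + A.Cg ≤ A.s (i + g)) (i t : ℕ) : A.s i + t * A.Cg ≤ A.s (i + t * g) := by
  induction t with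
  | zero => simp
  | succ t ih =>
    have := hg (i + t * g)
    rw [Nat.succ_mul, ← add_assoc]
    push_cast
    linarith

theorem s_tendsto (hn : 2 ≤ n) (A : Alg n) (x : ℝ) : ∃ κ : ℕ, ∀ k, κ ≤ k → x < A.s k := by
  obtain ⟨g, hg⟩ := s_grow hn A
  obtain ⟨t, ht⟩ := exists_nat_gt ((x + A.Cg) / A.Cg)
  rw [div_lt_iff₀ A.Cg_pos] at ht
  refine ⟨0 + t * g, fun k hk => ?_⟩
  linarith [s_grow_mul hg 0 t, s_quasi (A := A) _ _ hk, A.s_nonneg 0]

/-- all classes of `H_i(C)` come from level `l` -/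
theorem up_le {l : ℝ} {i : ℕ} (h : A.s (i / (n - 1)) + A.Cg ≤ l) :
    A.cy ⊤ ⊥ i ≤ A.cy (A.F l) ⊥ i ⊔ LinearMap.range A.d := by
  intro c hc
  obtain ⟨c', hc', w, hw⟩ := A.up i c hc.1 hc.2.2
  have h1 : A.d c' = 0 := by
    have := A.d_d w
    rwa [hw, map_add, show A.d c = 0 from hc.2.2, zero_add] at this
  have h2 := p_range i (⟨w, hw⟩ : c + c' ∈ LinearMap.range A.d)
  rw [map_add, mem_Hm.1 hc.1] at h2
  have e : c = A.p i c' + (c + A.p i c') := by rw [add_comm c, ← add_assoc, two, zero_add]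
  rw [e]
  exact Submodule.add_mem_sup ((gp_abs l).p_cy ⟨A.F_mono h hc', h1⟩ i) h2

theorem low_le {l : ℝ} {i : ℕ} (h : l + A.Cg < A.s (i / (n - 1) - 2)) : A.cy (A.F l) ⊥ i ≤ LinearMap.range A.d := by
  intro c hc
  by_contra h'
  exact absurd (A.low l i c hc.1 hc.2.2 hc.2.1 h') (not_le.2 h)

theorem hd_eq (l : ℝ) (i : ℕ) : A.hd (A.F l) ⊥ i = rd (A.cy (A.F l) ⊥ i) (LinearMap.range A.d) + A.kd l i :=
  rd_add_inf _ (Bd_bot_le_range _)

theorem sm_mono (e : ℕ) {N N' : ℕ} (h : N ≤ N') (f : ℕ → ℕ∞) : sm e N f ≤ sm e N' f :=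
  Finset.sum_le_sum_of_subset (Finset.filter_subset_filter _ (Finset.range_mono h))

theorem bt_ne_top (hn : 2 ≤ n) (i : ℕ) : A.bt i ≠ ⊤ := by
  refine ne_top_of_le_ne_top ?_ (bt_le hn i)
  split_ifs <;> simp

theorem bo_bound (hn : 2 ≤ n) (A : Alg n) : ∃ Cb : ℕ, ∀ l, 0 < l → ∀ N, sm (n + 1) N (A.bo (A.F (2 * l)) ⊥) ≤ Cb := by
  classical
  obtain ⟨g, hg⟩ := s_grow hn A
  obtain ⟨M, hM⟩ := A.kd_bound
  have hC := A.Cg_pos
  have hm : 0 < n - 1 := by omega
  refine ⟨8 * g + 6 + M, fun l hl N => ?_⟩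
  have hex : ∀ x, ∃ k, x < A.s k + A.Cg := fun x => by
    obtain ⟨κ, h⟩ := s_tendsto hn A x
    exact ⟨κ, by linarith [h κ le_rfl]⟩
  set a := Nat.find (hex l) with ha
  set c := Nat.find (hex (2 * l)) with hc
  have ha1 : l < A.s a + A.Cg := Nat.find_spec (hex l)
  have ha2 : ∀ k < a, A.s k + A.Cg ≤ l := fun k hk => not_lt.1 (Nat.find_min (hex l) hk)
  have hc1 : 2 * l < A.s c + A.Cg := Nat.find_spec (hex (2 * l))
  have hc2 : ∀ k < c, A.s k + A.Cg ≤ 2 * l := fun k hk => not_lt.1 (Nat.find_min (hex (2 * l)) hk)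
  have hac : a ≤ c := Nat.find_min' _ (by linarith)
  have hca : c ≤ a + a + 1 + 2 * g := by
    refine Nat.find_min' _ ?_
    have h1 := s_grow_mul hg (a + a + 1) 2
    have h2 := A.s_super a a
    push_cast at h1
    linarith
  have hc3 : ∀ k, c + 3 * g ≤ k → 2 * l + A.Cg < A.s k := by
    intro k hk
    have h1 := s_grow_mul hg c 3
    have h2 := s_quasi (A := A) _ _ hk
    push_cast at h1
    linarith
  obtain ⟨N₁, t₁⟩ := (gp_abs (A := A) (2 * l)).exists_top (fin_abs _)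
  obtain ⟨N₂, t₂⟩ := (gp_abs (A := A) l).exists_top (fin_abs _)
  set N' := N + N₁ + N₂ + (c + 3 * g + 2) * (n - 1) with hN'
  replace t₁ := t₁.mono (show N₁ ≤ N' by omega)
  replace t₂ := t₂.mono (show N₂ ≤ N' by omega)
  refine (sm_mono _ (show N ≤ N' by omega) _).trans ?_
  have e1 := (loc_abs hl).tate4 t₁ t₂ n
  have e2 := (loc_abs hl).tate4 t₁ t₂ (n + 1)
  rw [sm_par (e := n + 1 + 1) (e' := n) (by omega)] at e2
  set G := sm (n + 1) N' (A.bo (A.F (2 * l)) ⊥) with hG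
  set B := sm n N' (A.bo (A.F (2 * l)) ⊥) with hB
  have e3 : ∑ i ∈ Finset.range N', A.hd (A.F (2 * l)) ⊥ i = G + G + (B + B) + ∑ i ∈ Finset.range N', A.hd (A.F l) ⊥ i := by
    rw [← sm_add_sm n, ← sm_add_sm n, e1, e2]
    ac_rfl
  set X := ∑ i ∈ Finset.range (a * (n - 1)), A.bt i with hX
  have hXf : X ≠ ⊤ := WithTop.sum_ne_top.2 fun i _ => bt_ne_top hn i
  have u1 : ∑ i ∈ Finset.range N', A.hd (A.F (2 * l)) ⊥ i ≤ X + (2 * (c + 3 * g + 2 - a) : ℕ) + M := by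
    simp only [hd_eq]
    rw [Finset.sum_add_distrib]
    refine add_le_add (le_trans ?_ (bt_sum hn (show a ≤ c + 3 * g + 2 by omega))) (hM _ (by linarith) _)
    rw [← Finset.sum_subset (Finset.range_mono (show (c + 3 * g + 2) * (n - 1) ≤ N' by omega))]
    · exact Finset.sum_le_sum fun i _ => rd_mono_left (cy_mono le_top le_rfl i) _
    · intro i _ hi
      rw [Finset.mem_range, not_lt, ← Nat.le_div_iff_mul_le hm] at hi
      exact rd_eq_zero.2 (low_le (hc3 _ (by omega)))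
  have u2 : X ≤ ∑ i ∈ Finset.range N', A.hd (A.F l) ⊥ i := by
    have : a * (n - 1) ≤ (c + 3 * g + 2) * (n - 1) := Nat.mul_le_mul_right _ (by omega)
    refine le_trans (Finset.sum_le_sum fun i hi => ?_)
      (Finset.sum_le_sum_of_subset (Finset.range_mono (show a * (n - 1) ≤ N' by omega)))
    rw [Finset.mem_range, ← Nat.div_lt_iff_lt_mul hm] at hi
    rw [hd_eq]
    exact (rd_le_of_le_sup (up_le (ha2 _ hi))).trans le_self_add
  have u3 : ((c / 2 : ℕ) : ℕ∞) ≤ B := by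
    have hinj : Set.InjOn (fun t => (2 * t + 1) * (n - 1) + 1) (Finset.range (c / 2) : Set ℕ) := by
      intro t _ t' _ h
      have := Nat.eq_of_mul_eq_mul_right hm (Nat.add_right_cancel h)
      omega
    calc ((c / 2 : ℕ) : ℕ∞) = ∑ t ∈ Finset.range (c / 2), (1 : ℕ∞) := by simp
      _ ≤ ∑ t ∈ Finset.range (c / 2), A.bo (A.F (2 * l)) ⊥ ((2 * t + 1) * (n - 1) + 1) := by
        refine Finset.sum_le_sum fun t ht => ?_
        rw [Finset.mem_range] at ht
        have h1 := α_mem_cy (hc2 (2 * t + 1) (by omega))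
        refine one_le_rd (sig_mem_Bo h1.1 h1.2.1 h1.2.2) fun h => ?_
        obtain ⟨w, hw⟩ := A.B_sig _ (A.α_d (2 * t + 1))
        have h2 := A.Φ_d w
        rw [hw, map_add, Φ_range (Bd_bot_le_range _ h), add_zero, A.Φ_Bα _ (odd_two_mul_add_one t)] at h2
        exact one_ne_zero h2
      _ = ∑ i ∈ (Finset.range (c / 2)).image (fun t => (2 * t + 1) * (n - 1) + 1), A.bo (A.F (2 * l)) ⊥ i :=
        (Finset.sum_image hinj).symm
      _ ≤ B := by
        refine Finset.sum_le_sum_of_subset fun i hi => ?_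
        obtain ⟨t, ht, rfl⟩ := Finset.mem_image.1 hi
        rw [Finset.mem_range] at ht
        have h1 : (2 * t + 1 + 2) * (n - 1) ≤ (c + 3 * g + 2) * (n - 1) := Nat.mul_le_mul_right _ (by omega)
        rw [Nat.add_mul _ 2] at h1
        simp only [Finset.mem_filter, Finset.mem_range]
        refine ⟨by omega, ?_⟩
        rw [show (2 * t + 1) * (n - 1) = 2 * (t * (n - 1)) + (n - 1) by ring]
        omega
  have u4 : G + G + (((c / 2 : ℕ) : ℕ∞) + (c / 2 : ℕ)) ≤ (2 * (c + 3 * g + 2 - a) : ℕ) + M := by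
    refine (ENat.add_le_add_iff_right hXf).1 ?_
    calc _ ≤ G + G + (B + B) + ∑ i ∈ Finset.range N', A.hd (A.F l) ⊥ i :=
          add_le_add (add_le_add le_rfl (add_le_add u3 u3)) u2
      _ ≤ _ := e3 ▸ u1
      _ = _ := by ac_rfl
  have hGf : G ≠ ⊤ := ne_top_of_le_ne_top (WithTop.add_ne_top.2 ⟨ENat.natCast_ne_top _, ENat.natCast_ne_top _⟩)
    ((le_self_add.trans le_self_add).trans u4)
  clear_value G
  lift G to ℕ using hGf with G'
  have u5 : G' + G' + (c / 2 + c / 2) ≤ 2 * (c + 3 * g + 2 - a) + M := by exact_mod_cast u4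
  have : G' ≤ 8 * g + 6 + M := by omega
  exact_mod_cast this

/-- the G-boundaries have stabilised at level `2l` -/
def Stab (A : Alg n) (l : ℝ) : Prop :=
  ∀ l', l ≤ l' → ∀ i, (i + (n + 1)) % 2 = 0 → A.Bo (A.F (2 * l')) ⊥ i ≤ A.Bo (A.F (2 * l)) ⊥ i ⊔ LinearMap.range A.d

theorem exists_max_enat {ι : Type} {P : ι → Prop} (hne : ∃ x, P x) (f : ι → ℕ∞) {C : ℕ} (hC : ∀ x, P x → f x ≤ C) :
    ∃ x, P x ∧ ∀ y, P y → f y ≤ f x := by
  have hfin : (f '' {x | P x}).Finite := by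
    refine ((Set.finite_Iic C).image (Nat.cast : ℕ → ℕ∞)).subset ?_
    rintro _ ⟨x, hx, rfl⟩
    have h := hC x hx
    obtain ⟨k, hk⟩ := ENat.ne_top_iff_exists.1 (ne_top_of_le_ne_top (ENat.natCast_ne_top C) h)
    exact ⟨k, by rw [← hk] at h; exact_mod_cast h, hk⟩
  obtain ⟨_, ⟨x, hx, rfl⟩, h⟩ := Set.exists_max_image _ id hfin (Set.Nonempty.image f hne)
  exact ⟨x, hx, fun y hy => h _ ⟨y, hy, rfl⟩⟩

theorem exists_stab (hn : 2 ≤ n) (A : Alg n) : ∃ l₀, 0 < l₀ ∧ (∀ l, l₀ ≤ l → A.Stab l) ∧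
    ∃ d₀ : ℕ, ∀ l i, d₀ ≤ i → (i + (n + 1)) % 2 = 0 → A.Bo (A.F l) ⊥ i ≤ LinearMap.range A.d := by
  obtain ⟨Cb, hCb⟩ := bo_bound hn A
  set β : ℝ × ℕ → ℕ∞ := fun x => sm (n + 1) x.2 (fun i => rd (A.Bo (A.F (2 * x.1)) ⊥ i) (LinearMap.range A.d)) with hβ
  have hb : ∀ x : ℝ × ℕ, 0 < x.1 → β x ≤ Cb := fun x hx =>
    (sm_le fun i _ _ => rd_anti_right _ (Bd_bot_le_range _)).trans (hCb x.1 hx x.2)
  obtain ⟨⟨l₀, N₀⟩, h₀, hmax⟩ := exists_max_enat (P := fun x : ℝ × ℕ => 0 < x.1) ⟨(1, 0), one_pos⟩ β hb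
  have h₀' : 0 < l₀ := h₀
  have key : A.Stab l₀ := by
    intro l' hl' i hi
    have hle : ∀ k, A.Bo (A.F (2 * l₀)) ⊥ k ≤ A.Bo (A.F (2 * l')) ⊥ k := fun k => Bo_mono _ (A.F_mono (by linarith)) k
    have hfin : β (l₀, N₀ + i + 1) ≠ ⊤ := ne_top_of_le_ne_top (ENat.natCast_ne_top Cb) (hb _ h₀)
    refine le_sup_of_rd_le (le_sup_of_le_left (hle i)) ?_ (ne_top_of_le_ne_top hfin
      (le_sm (fun i => rd (A.Bo (A.F (2 * l₀)) ⊥ i) (LinearMap.range A.d)) (show i < N₀ + i + 1 by omega) hi))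
    exact eq_of_sm_le (N := N₀ + i + 1) (fun k _ _ => rd_mono_left (hle k) _)
      ((hmax (l', N₀ + i + 1) (h₀'.trans_le hl')).trans (sm_mono _ (show N₀ ≤ N₀ + i + 1 by omega) _)) hfin i (by omega) hi
  refine ⟨l₀, h₀, fun l hl l' hl' i hi =>
    (key l' (hl.trans hl') i hi).trans (sup_le_sup_right (Bo_mono _ (A.F_mono (by linarith)) i) _), ?_⟩
  obtain ⟨N, hN⟩ := (gp_abs (A := A) (2 * l₀)).exists_top (fin_abs _)
  refine ⟨N, fun l i hi hi' => (Bo_mono _ (A.F_mono (show l ≤ 2 * max l₀ (l / 2) by linarith [le_max_right l₀ (l / 2)])) i).trans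
    ((key _ (le_max_left _ _) i hi').trans (sup_le ?_ le_rfl))⟩
  exact ((gp_abs _).Bo_le_cy i).trans ((hN i hi).trans (Bd_bot_le_range _))

end Crest.Agent.R231.Alg
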