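import Crest.Agent.R231.Setup

/-!
# R231: the abstract algebraic data (FROZEN)

`C` = chains on the free loop space, `F l` = chains of level `< l`, `sig` = Tate operators, `j` = doubling,
`τ` = reversal, `B` = `τ`-symmetric BV operator, `O l b r` = chains in the tube of radius `r` about the critical loops of
level `l` and orientation `b`.  `Alg.false` (R231/Alg/Main.lean) derives a contradiction.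
-/

set_option autoImplicit false
open Set
open scoped Classical

noncomputable section
namespace Crest.Agent.R231

structure Alg (n : ℕ) where
  C : Type
  acg : AddCommGroup C
  mod : Module F2 C
  p : ℕ → C →ₗ[F2] C
  p_p : ∀ i j c, p i (p j c) = if i = j then p j c else 0
  p_sum : ∀ c, ∃ N, (∀ i, N ≤ i → p i c = 0) ∧ ∑ i ∈ Finset.range N, p i c = c
  d : C →ₗ[F2] C
  d_d : ∀ c, d (d c) = 0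
  d_p : ∀ i c, d (p (i + 1) c) = p i (d c)
  d_p0 : ∀ c, d (p 0 c) = 0
  F : ℝ → Submodule F2 C
  F_mono : Monotone F
  F_ex : ∀ c, ∃ l, c ∈ F l
  F_p : ∀ l i c, c ∈ F l → p i c ∈ F l
  F_d : ∀ l c, c ∈ F l → d c ∈ F l
  sig : ℕ → C →ₗ[F2] C
  sig_p : ∀ k i c, sig k (p i c) = p (i + (2 * k + 1)) (sig k c)
  sig_d : ∀ k c, d (sig k c) = sig k (d c)
  sig_sig : ∀ k k' c, sig k (sig k' c) = 0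
  sig_F : ∀ k l c, c ∈ F l → sig k c ∈ F l
  τ : C →ₗ[F2] C
  τ_τ : ∀ c, τ (τ c) = c
  τ_p : ∀ i c, τ (p i c) = p i (τ c)
  τ_d : ∀ c, d (τ c) = τ (d c)
  τ_F : ∀ l c, c ∈ F l → τ c ∈ F l
  B : C →ₗ[F2] C
  B_p : ∀ i c, B (p i c) = p (i + 1) (B c)
  B_d : ∀ c, d (B c) = B (d c)
  B_τ : ∀ c, τ (B c) = B (τ c)
  B_sig : ∀ c, d c = 0 → ∃ w, d w = B c + sig 0 c
  j : C →ₗ[F2] C
  j_p : ∀ i c, j (p i c) = p i (j c)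
  j_d : ∀ c, d (j c) = j (d c)
  j_F : ∀ l c, c ∈ F l → j c ∈ F (2 * l)
  sig_j : ∀ k c, sig k (j c) = 0
  loc_surj : ∀ l, 0 < l → ∀ z : ℕ → C, (∀ i, p i (z i) = z i ∧ z i ∈ F (2 * l)) → (∀ i, DD d sig z i = 0) →
    ∃ y η : ℕ → C, (∀ i, p i (y i) = y i ∧ y i ∈ F l ∧ d (y i) = 0) ∧ (∀ i, p i (η i) = η i ∧ η i ∈ F (2 * l)) ∧
      ∀ i, z i = j (y i) + DD d sig η i
  loc_inj : ∀ l, 0 < l → ∀ y η : ℕ → C, (∀ i, p i (y i) = y i ∧ y i ∈ F l ∧ d (y i) = 0) →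
    (∀ i, p i (η i) = η i ∧ η i ∈ F (2 * l)) → (∀ i, j (y i) = DD d sig η i) → ∀ i, ∃ v ∈ F l, d v = y i
  crit : Set ℝ
  crit_fin : ∃ r : ℕ, ∀ a : ℝ, (crit ∩ Icc a (a + 1)).Finite ∧ (crit ∩ Icc a (a + 1)).ncard ≤ r
  const : ∀ a b, 0 < a → a ≤ b → (∀ x ∈ crit, x ∉ Ico a b) → ∀ c ∈ F b, d c ∈ F a → ∃ w ∈ F b, c + d w ∈ F a
  findim : ∀ l, ∃ R : ℕ, hrk d (F l) ⊥ (F l) ⊥ ≤ R
  gm : ∃ K : ℕ, ∀ l, 0 < l → ∃ e₀, 0 < e₀ ∧ ∀ e, 0 < e → e ≤ e₀ → hrk d (F (l + e)) (F l) (F (l + e)) (F l) ≤ K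
  O : ℝ → Bool → ℝ → Submodule F2 C
  O_mono : ∀ l b, Monotone (O l b)
  O_p : ∀ l b r i c, c ∈ O l b r → p i c ∈ O l b r
  O_d : ∀ l b r c, c ∈ O l b r → d c ∈ O l b r
  O_sig : ∀ l b r k c, c ∈ O l b r → sig k c ∈ O l b r
  O_τ : ∀ l b r c, c ∈ O l b r → τ c ∈ O l (!b) r
  O_j : ∀ l b r c, c ∈ O l b r → j c ∈ O (2 * l) b (2 * r)
  n1 : ∀ l, 0 < l → ∀ r, 0 < r → ∃ e₀, 0 < e₀ ∧ ∀ e, 0 < e → e ≤ e₀ → ∀ c ∈ F (l + e), d c ∈ F l →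
    ∃ c₁ ∈ O l true r ⊓ F (l + e), ∃ c₂ ∈ O l false r ⊓ F (l + e), d c₁ ∈ F l ∧ d c₂ ∈ F l ∧
      ∃ w ∈ F (l + e), c + c₁ + c₂ + d w ∈ F l
  n2 : ∀ l, 0 < l → ∀ r₂, 0 < r₂ → ∃ r₁, 0 < r₁ ∧ r₁ ≤ r₂ ∧ ∃ e₀, 0 < e₀ ∧ ∀ e, 0 < e → e ≤ e₀ → ∀ b : Bool,
    ∀ c₁ ∈ O l b r₁ ⊓ F (l + e), ∀ c₂ ∈ O l (!b) r₁ ⊓ F (l + e), d c₁ ∈ F l → d c₂ ∈ F l →
      (∃ w ∈ F (l + e), c₁ + c₂ + d w ∈ F l) → ∃ w₁ ∈ O l b r₂ ⊓ F (l + e), c₁ + d w₁ ∈ F l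
  s : ℕ → ℝ
  Cg : ℝ
  Cg_pos : 0 < Cg
  s_nonneg : ∀ k, 0 ≤ s k
  s_super : ∀ i k, s i + s k ≤ s (i + k + 1) + Cg
  s_step : ∀ k, s (k + 1) ≤ s k + Cg
  bars : ∀ l c, c ∈ F l → (∃ w, d w = c) → ∃ w ∈ F (l + Cg), d w = c
  α : ℕ → C
  α_p : ∀ k, p (k * (n - 1)) (α k) = α k
  α_d : ∀ k, d (α k) = 0
  α_F : ∀ k, α k ∈ F (s k + Cg)
  Φ : C →ₗ[F2] F2
  Φ_d : ∀ c, Φ (d c) = 0
  Φ_deg : ∀ i c, p i c = c → d c = 0 → Φ c ≠ 0 → ∃ k, i = n + k * (n - 1)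
  Φ_ker : ∀ i c, p i c = c → d c = 0 → Φ c = 0 → (∃ w, d w = c) ∨ ∃ k, i = k * (n - 1) ∧ ∃ w, d w = c + α k
  Φ_τ : ∀ c, d c = 0 → Φ (τ c) = Φ c
  Φ_α : ∀ k, Φ (α k) = 0
  Φ_Bα : ∀ k, Odd k → Φ (B (α k)) = 1
  up : ∀ i c, p i c = c → d c = 0 → ∃ c' ∈ F (s (i / (n - 1)) + Cg), ∃ w, d w = c + c'
  low : ∀ l i c, p i c = c → d c = 0 → c ∈ F l → (¬ ∃ w, d w = c) → s (i / (n - 1) - 2) ≤ l + Cg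

attribute [instance] Alg.acg Alg.mod

end Crest.Agent.R231
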