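import Crest.Agent.R231.Alg.Tate

/-! # R231/Alg: splitting of leading terms along the two tubes -/

set_option autoImplicit false
open Submodule

noncomputable section
namespace Crest.Agent.R231.Alg

variable {n : ℕ} {A : Alg n}

/-- `T b 0 ≤ T b 1 ≤ … ≤ T b M`: tubes of increasing radii with `H(U,V) = E_true ⊕ E_false` in the pro-sense -/
structure Chain (A : Alg n) (U V : Submodule F2 A.C) (T : Bool → ℕ → Submodule F2 A.C) (M : ℕ) : Prop where
  gp : A.GP U V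
  good : ∀ b a, A.Good (T b a)
  le : ∀ b a, T b a ≤ U
  mono : ∀ b, Monotone (T b)
  h1 : ∀ c ∈ Cy A.d U V, ∃ c₁ ∈ T true 0, ∃ c₂ ∈ T false 0, A.d c₁ ∈ V ∧ A.d c₂ ∈ V ∧ c + c₁ + c₂ ∈ Bd A.d U V
  h2 : ∀ a < M, ∀ c₁ ∈ T true a, ∀ c₂ ∈ T false a, A.d c₁ ∈ V → A.d c₂ ∈ V → c₁ + c₂ ∈ Bd A.d U V →
    c₁ ∈ Bd A.d (T true (a + 1)) V ∧ c₂ ∈ Bd A.d (T false (a + 1)) V

/-- kill a leading relative cycle by `h1` -/
theorem Chain.kill {U V : Submodule F2 A.C} {T : Bool → ℕ → Submodule F2 A.C} {M : ℕ} (h : A.Chain U V T M) (e s : ℕ)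
    {η : ℕ → A.C} (hη : η ∈ A.PP U (e + 1) ⊓ Fl V s) (hD : A.Dl η ∈ Fl V s) :
    ∃ (c : Bool → ℕ → A.C) (θ : ℕ → A.C), (∀ b, c b ∈ A.PP (T b 0) (e + 1) ⊓ Fl V s ∧ A.Dl (c b) ∈ Fl V (s + 1)) ∧
      θ ∈ A.PP U e ∧ η + c true + c false + A.Dl θ ∈ Fl V (s + 1) := by
  by_cases hs : (s + (e + 1)) % 2 = 1
  · refine ⟨0, 0, fun b => ⟨zero_mem _, by simp⟩, zero_mem _, ?_⟩
    simp only [Pi.zero_apply, map_zero, add_zero]
    exact Fl_succ hη.2 (by rw [(hη.1 s).2 hs]; exact zero_mem _)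
  · have gV := h.gp.gV
    have h0 := (hη.1 s).1.1
    obtain ⟨c₁, hc₁, c₂, hc₂, hd₁, hd₂, hb⟩ := h.h1 (η s) ⟨(hη.1 s).1.2, d_lead_mem gV h0 hη.2 hD⟩
    have hb' := p_Bd h.gp.gU gV s hb
    rw [map_add, map_add, mem_Hm.1 h0] at hb'
    let c : Bool → ℕ → A.C := fun b => Pi.single s (A.p s (if b then c₁ else c₂))
    have hc : ∀ b, c b ∈ A.PP (T b 0) (e + 1) ⊓ Fl V s ∧ A.Dl (c b) ∈ Fl V (s + 1) := by
      intro b
      refine ⟨⟨single_mem_PP (p_mem_Hm _ _) ((h.good b 0).p _ _ ?_) (by omega), single_mem_Fl V s _⟩,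
        Dl_single_Fl gV (d_p_mem gV.p ?_ s)⟩
      · cases b
        · exact hc₂
        · exact hc₁
      · cases b
        · exact hd₂
        · exact hd₁
    have hP : η + c true + c false ∈ A.PP U (e + 1) :=
      add_mem (add_mem hη.1 (PP_mono (h.le _ _) _ (hc true).1.1)) (PP_mono (h.le _ _) _ (hc false).1.1)
    obtain ⟨w, hw, hw'⟩ := kill_Bd h.gp.gU gV (e := e + 1) (hP s).1.1 (hP s).2
      (add_mem (add_mem hη.2 (hc true).1.2) (hc false).1.2) (by simpa [c] using hb')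
    exact ⟨c, _, hc, by rwa [PP_congr U (e' := e) (by omega)] at hw, hw'⟩

/-- injectivity, induction on `m`: kill the component of degree `s` of `θ` (a relative cycle) by `h1`, then the components of
degree `s` of `y b` by `h2`. -/
theorem Chain.inj {U V : Submodule F2 A.C} {T : Bool → ℕ → Submodule F2 A.C} {M : ℕ} (h : A.Chain U V T M) (e m : ℕ) :
    ∀ (s a : ℕ), a + m ≤ M → ∀ (y : Bool → ℕ → A.C) (θ : ℕ → A.C), (∀ b, y b ∈ A.PP (T b a) e ⊓ Fl V s) →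
      (∀ b, A.Dl (y b) ∈ Fl V (s + m)) → θ ∈ A.PP U (e + 1) ⊓ Fl V s →
      y true + y false + A.Dl θ ∈ Fl V (s + m) →
      ∃ θ' : Bool → ℕ → A.C, ∀ b, θ' b ∈ A.PP (T b (a + m)) (e + 1) ⊓ Fl V s ∧ y b + A.Dl (θ' b) ∈ Fl V (s + m) := by
  have gV := h.gp.gV
  induction m with
  | zero =>
    intro s a _ y θ hy _ _ _
    exact ⟨0, fun b => ⟨zero_mem _, by simpa using (hy b).2⟩⟩
  | succ m ih =>
    intro s a ha y θ hy hDy hθ hsum
    have hDθ : A.Dl θ ∈ Fl V s := by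
      have := add_mem (add_mem (hy true).2 (hy false).2) (Fl_anti V (Nat.le_add_right s (m + 1)) hsum)
      rwa [← add_assoc, two, zero_add] at this
    obtain ⟨c, ϑ, hc, hϑ, hk⟩ := h.kill e s hθ hDθ
    set θ₁ := θ + c true + c false + A.Dl ϑ with hθ₁
    have hθ₁P : θ₁ ∈ A.PP U (e + 1) :=
      add_mem (add_mem (add_mem hθ.1 (PP_mono (h.le _ _) _ (hc true).1.1)) (PP_mono (h.le _ _) _ (hc false).1.1))
        (Dl_mem_PP' h.gp.gU hϑ)
    let y₁ : Bool → ℕ → A.C := fun b => y b + A.Dl (c b)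
    have hy₁ : ∀ b, y₁ b ∈ A.PP (T b a) e ⊓ Fl V s := fun b =>
      ⟨add_mem (hy b).1 (PP_mono (h.mono b (Nat.zero_le a)) _ (Dl_mem_PP (h.good b 0) (hc b).1.1)),
        add_mem (hy b).2 (Fl_anti V (Nat.le_succ s) (hc b).2)⟩
    have hDy₁ : ∀ b, A.Dl (y₁ b) = A.Dl (y b) := fun b => by
      simp only [y₁]
      rw [map_add, Dl_Dl' (hc b).1.1, add_zero]
    have hs₁ : y₁ true + y₁ false + A.Dl θ₁ = y true + y false + A.Dl θ := by
      simp only [y₁, hθ₁, map_add, Dl_Dl' hϑ]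
      linear_combination (norm := abel1) two (A.Dl (c true)) + two (A.Dl (c false))
    have hd : ∀ b, A.d (y₁ b s) ∈ V := fun b =>
      d_lead_mem gV ((hy₁ b).1 s).1.1 (hy₁ b).2 (by rw [hDy₁]; exact Fl_anti V (Nat.le_add_right s (m + 1)) (hDy b))
    have hbd : y₁ true s + y₁ false s ∈ Bd A.d U V := by
      refine mem_Bd.2 ⟨θ₁ (s + 1), (hθ₁P _).1.2, ?_⟩
      have h1 := hsum s (by omega)
      rw [← hs₁] at h1
      have h2 := add_mem h1 (Dl_lead gV (Fl_anti V (Nat.le_succ s) hk))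
      simp only [Pi.add_apply] at h2
      convert h2 using 1
      linear_combination (norm := abel1) -two (A.Dl θ₁ s)
    have h2 := h.h2 a (by omega) _ ((hy₁ true).1 s).1.2 _ ((hy₁ false).1 s).1.2 (hd true) (hd false) hbd
    have h3 : ∀ b, ∃ w, (Pi.single (s + 1) w : ℕ → A.C) ∈ A.PP (T b (a + 1)) (e + 1) ∧
        y₁ b + A.Dl (Pi.single (s + 1) w) ∈ Fl V (s + 1) := fun b =>
      kill_Bd (h.good b (a + 1)) gV ((hy₁ b).1 s).1.1 ((hy₁ b).1 s).2 (hy₁ b).2 (by cases b; exacts [h2.2, h2.1])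
    choose w hw hw' using h3
    obtain ⟨θ', hθ'⟩ := ih (s + 1) (a + 1) (by omega) (fun b => y₁ b + A.Dl (Pi.single (s + 1) (w b)))
      (θ₁ + Pi.single (s + 1) (w true) + Pi.single (s + 1) (w false))
      (fun b => ⟨add_mem (PP_mono (h.mono b (Nat.le_succ a)) _ (hy₁ b).1) (Dl_mem_PP (h.good b _) (hw b)), hw' b⟩)
      (fun b => by
        rw [map_add, Dl_Dl' (hw b), add_zero, hDy₁, show s + 1 + m = s + (m + 1) by omega]
        exact hDy b)
      ⟨add_mem (add_mem hθ₁P (PP_mono (h.le _ _) _ (hw true))) (PP_mono (h.le _ _) _ (hw false)),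
        add_mem (add_mem hk (single_mem_Fl V _ _)) (single_mem_Fl V _ _)⟩
      (by
        rw [show s + 1 + m = s + (m + 1) by omega]
        convert hsum using 1
        rw [← hs₁, map_add, map_add]
        linear_combination (norm := abel1) two (A.Dl (Pi.single (s + 1) (w true))) +
          two (A.Dl (Pi.single (s + 1) (w false))))
    rw [show s + 1 + m = s + (m + 1) by omega, show a + 1 + m = a + (m + 1) by omega] at hθ'
    refine ⟨fun b => c b + Pi.single (s + 1) (w b) + θ' b, fun b => ⟨⟨?_, ?_⟩, ?_⟩⟩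
    · exact add_mem (add_mem (PP_mono (h.mono b (Nat.zero_le _)) _ (hc b).1.1)
        (PP_mono (h.mono b (by omega)) _ (hw b))) (hθ' b).1.1
    · exact add_mem (add_mem (hc b).1.2 (Fl_anti V (Nat.le_succ s) (single_mem_Fl V _ _)))
        (Fl_anti V (Nat.le_succ s) (hθ' b).1.2)
    · have := (hθ' b).2
      simp only [y₁] at this
      simp only [map_add, ← add_assoc]
      exact this

/-- surjectivity, induction on `m` -/
theorem Chain.sur {U V : Submodule F2 A.C} {T : Bool → ℕ → Submodule F2 A.C} {M : ℕ} (h : A.Chain U V T M) (e m : ℕ) :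
    ∀ (s : ℕ), m ≤ M → ∀ η : ℕ → A.C, η ∈ A.PP U (e + 1) ⊓ Fl V s → A.Dl η ∈ Fl V (s + m) →
      ∃ (η' : Bool → ℕ → A.C) (θ : ℕ → A.C), (∀ b, η' b ∈ A.PP (T b m) (e + 1) ⊓ Fl V s ∧ A.Dl (η' b) ∈ Fl V (s + m)) ∧
        θ ∈ A.PP U e ∧ η + η' true + η' false + A.Dl θ ∈ Fl V (s + m + 1) := by
  induction m with
  | zero =>
    intro s _ η hη hD
    obtain ⟨c, θ, hc, hθ, hk⟩ := h.kill e s hη hD
    exact ⟨c, θ, fun b => ⟨(hc b).1, Fl_anti V (Nat.le_succ s) (hc b).2⟩, hθ, hk⟩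
  | succ m ih =>
    intro s hm η hη hD
    obtain ⟨c, ϑ, hc, hϑ, hk⟩ := h.kill e s hη (Fl_anti V (Nat.le_add_right s (m + 1)) hD)
    set η₁ := η + c true + c false + A.Dl ϑ with hη₁
    have hη₁P : η₁ ∈ A.PP U (e + 1) :=
      add_mem (add_mem (add_mem hη.1 (PP_mono (h.le _ _) _ (hc true).1.1)) (PP_mono (h.le _ _) _ (hc false).1.1))
        (Dl_mem_PP' h.gp.gU hϑ)
    have hs₁ : A.Dl (c true) + A.Dl (c false) + A.Dl η₁ = A.Dl η := by
      simp only [hη₁, map_add, Dl_Dl' hϑ]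
      linear_combination (norm := abel1) two (A.Dl (c true)) + two (A.Dl (c false))
    rw [show s + (m + 1) = s + 1 + m by omega] at hD ⊢
    obtain ⟨θ', hθ'⟩ := h.inj e m (s + 1) 0 (by omega) (fun b => A.Dl (c b)) η₁
      (fun b => ⟨Dl_mem_PP (h.good b 0) (hc b).1.1, (hc b).2⟩)
      (fun b => by rw [Dl_Dl' (hc b).1.1]; exact zero_mem _) ⟨hη₁P, hk⟩ (hs₁ ▸ hD)
    rw [zero_add] at hθ'
    obtain ⟨η', θ, hη', hθ, hk'⟩ := ih (s + 1) (by omega) (η₁ + θ' true + θ' false)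
      ⟨add_mem (add_mem hη₁P (PP_mono (h.le _ _) _ (hθ' true).1.1)) (PP_mono (h.le _ _) _ (hθ' false).1.1),
        add_mem (add_mem hk (hθ' true).1.2) (hθ' false).1.2⟩
      (by
        have := add_mem (add_mem hD (hθ' true).2) (hθ' false).2
        convert this using 1
        rw [← hs₁, map_add, map_add]
        linear_combination (norm := abel1) -two (A.Dl (c true)) - two (A.Dl (c false)))
    refine ⟨fun b => c b + θ' b + η' b, ϑ + θ, fun b => ⟨⟨?_, ?_⟩, ?_⟩, add_mem hϑ hθ, ?_⟩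
    · exact add_mem (add_mem (PP_mono (h.mono b (Nat.zero_le _)) _ (hc b).1.1)
        (PP_mono (h.mono b (Nat.le_succ m)) _ (hθ' b).1.1)) (PP_mono (h.mono b (Nat.le_succ m)) _ (hη' b).1.1)
    · exact add_mem (add_mem (hc b).1.2 (Fl_anti V (Nat.le_succ s) (hθ' b).1.2)) (Fl_anti V (Nat.le_succ s) (hη' b).1.2)
    · rw [map_add, map_add]
      exact add_mem (hθ' b).2 (hη' b).2
    · convert hk' using 1
      simp only [hη₁, map_add]
      abel

theorem Chain.split {U V : Submodule F2 A.C} {T : Bool → ℕ → Submodule F2 A.C} {M : ℕ} (h : A.Chain U V T M) {e : ℕ}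
    {W : Submodule F2 (ℕ → A.C)} (h1 : A.TB U V e ≤ W) (h2 : W ≤ A.TC U V e)
    (h3 : W ≤ (W ⊓ A.PP (T true 0) e) ⊔ (W ⊓ A.PP (T false 0) e) ⊔ A.TB U V e) {i : ℕ} (hi : i + 1 ≤ M) :
    Lam V W i ≤ (Lam V W i ⊓ T true M) ⊔ (Lam V W i ⊓ T false M) ⊔ Bd A.d U V := by
  intro x hx
  obtain ⟨z, hz, hzF, rfl⟩ := mem_Lam.1 hx
  obtain ⟨y₀, hy₀, b₀, hb₀, e1⟩ := Submodule.mem_sup.1 (h3 hz)
  obtain ⟨yt, hyt, yf, hyf, rfl⟩ := Submodule.mem_sup.1 hy₀
  obtain ⟨_, ⟨η, hη, rfl⟩, u, hu, rfl⟩ := Submodule.mem_sup.1 hb₀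
  let y : Bool → ℕ → A.C := fun b => if b then yt else yf
  have hy : ∀ b, y b ∈ W ⊓ A.PP (T b 0) e := fun b => by cases b; exacts [hyf, hyt]
  have hF0 : ∀ z : ℕ → A.C, z ∈ Fl V 0 := fun z k hk => absurd hk (Nat.not_lt_zero k)
  have hs : y true + y false + A.Dl η = z + u := by
    simp only [y, if_true, Bool.false_eq_true, if_false]
    linear_combination (norm := abel1) e1 - two u
  obtain ⟨θ', hθ'⟩ := h.inj e i 0 0 (by omega) y η (fun b => ⟨(hy b).2, hF0 _⟩)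
    (fun b => PP_le_Fl V _ _ (h2 (hy b).1).2) ⟨hη, hF0 _⟩
    (by rw [hs, zero_add]; exact add_mem hzF (PP_le_Fl V _ _ hu))
  rw [zero_add] at hθ'
  obtain ⟨η', θ, hη', hθ, hk⟩ := h.sur e i 0 (by omega) (η + θ' true + θ' false)
    ⟨add_mem (add_mem hη (PP_mono (h.le _ _) _ (hθ' true).1.1)) (PP_mono (h.le _ _) _ (hθ' false).1.1), hF0 _⟩
    (by
      have := add_mem (add_mem (add_mem hzF (PP_le_Fl V _ _ hu)) (hθ' true).2) (hθ' false).2
      rw [zero_add]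
      convert this using 1
      rw [← hs, map_add, map_add]
      linear_combination (norm := abel1) -two (y true) - two (y false))
  rw [zero_add] at hη' hk
  set ζ := η + θ' true + θ' false + η' true + η' false + A.Dl θ with hζ
  have hζP : ζ ∈ A.PP U (e + 1) :=
    add_mem (add_mem (add_mem (add_mem (add_mem hη (PP_mono (h.le _ _) _ (hθ' true).1.1))
      (PP_mono (h.le _ _) _ (hθ' false).1.1)) (PP_mono (h.le _ _) _ (hη' true).1.1))
      (PP_mono (h.le _ _) _ (hη' false).1.1)) (Dl_mem_PP' h.gp.gU hθ)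
  have hzb : ∀ b, (y b + A.Dl (θ' b + η' b)) i ∈ Lam V W i ⊓ T b M := by
    intro b
    have hP := add_mem (hθ' b).1.1 (hη' b).1.1
    refine ⟨mem_Lam.2 ⟨_, add_mem (hy b).1 (h1 (Submodule.mem_sup_left ⟨_, PP_mono (h.le _ _) _ hP, rfl⟩)), ?_, rfl⟩, ?_⟩
    · rw [map_add, ← add_assoc]
      exact add_mem (hθ' b).2 (hη' b).2
    · exact add_mem (h.mono b (Nat.zero_le M) ((hy b).2 i).1.2)
        (h.mono b (show i ≤ M by omega) (Dl_mem_PP (h.good b i) hP i).1.2)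
  have e2 : z = (y true + A.Dl (θ' true + η' true)) + (y false + A.Dl (θ' false + η' false)) + (A.Dl ζ + u) := by
    simp only [hζ, map_add, Dl_Dl' hθ]
    linear_combination (norm := abel1) -hs - two u - two (A.Dl (θ' true)) - two (A.Dl (θ' false)) -
      two (A.Dl (η' true)) - two (A.Dl (η' false))
  rw [e2]
  refine Submodule.add_mem_sup (Submodule.add_mem_sup (hzb true) (hzb false)) (add_mem ?_ (le_Bd U V (hu i).1.2))
  exact mem_Bd.2 ⟨ζ (i + 1), (hζP _).1.2, Dl_lead h.gp.gV (Fl_anti V (Nat.le_succ i) hk)⟩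

end Crest.Agent.R231.Alg
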