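import Crest.Agent.R231.Alg.Smith
import Crest.Agent.R231.Alg.Split

/-! # R231/Alg: `K*` splits along the two tubes (induction on the dyadic scale) -/

set_option autoImplicit false
open Submodule

noncomputable section
namespace Crest.Agent.R231.Alg

variable {n : ℕ} {A : Alg n}

/-- a window `(a,b)` without critical values all of whose dyadic multiples are stable, full and have the same `NG` -/
structure Win (A : Alg n) (a b : ℝ) : Prop where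
  pos : 0 < a
  lt : a < b
  crit : ∀ x ∈ A.crit, x ∉ Set.Ioo a b
  stab : ∀ l, a ≤ l → A.Stab l
  ng : ∃ M, ∀ (q : ℕ) l, l ∈ Set.Ioo (2 ^ q * a) (2 ^ q * b) → A.NG l = M ∧ A.Full l

theorem le_of_dyadic {a l : ℝ} (ha : 0 < a) {q : ℕ} (h : 2 ^ q * a < l) : a ≤ l :=
  (le_mul_of_one_le_left ha.le (one_le_pow₀ one_le_two)).trans h.le

theorem exists_win {l₀ : ℝ} (h₀ : 0 < l₀) (hs : ∀ l, l₀ ≤ l → A.Stab l) : ∃ a b, A.Win a b := by
  obtain ⟨M, hM⟩ := A.NG_bound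
  obtain ⟨l₁, h₁, hmax⟩ := exists_max_enat (P := fun l => l₀ ≤ l) ⟨l₀, le_rfl⟩ A.NG fun l hl => hM l (h₀.trans_le hl)
  obtain ⟨η, hη, hgap⟩ := A.gap_left (2 * l₁)
  have hl₁ : 0 < l₁ := h₀.trans_le h₁
  have ha0 : l₀ ≤ max (2 * l₁ - η) l₁ := h₁.trans (le_max_right _ _)
  have hapos : 0 < max (2 * l₁ - η) l₁ := h₀.trans_le ha0
  have hcrit : ∀ x ∈ A.crit, x ∉ Set.Ioo (max (2 * l₁ - η) l₁) (2 * l₁) :=
    fun x hx hx' => hgap x hx ⟨(le_max_left _ _).trans hx'.1.le, hx'.2⟩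
  have key : ∀ (q : ℕ) l, l ∈ Set.Ioo (2 ^ q * max (2 * l₁ - η) l₁) (2 ^ q * (2 * l₁)) → A.NG l = A.NG l₁ := by
    intro q
    induction q with
    | zero =>
      intro l hl
      rw [pow_zero, one_mul, one_mul] at hl
      rw [NG_const hl.2.le (acyc (hapos.trans hl.1) hl.2.le fun x hx hx' => hcrit x hx ⟨hl.1.trans_le hx'.1, hx'.2⟩)]
      exact le_antisymm (hmax _ (by linarith)) (smith hl₁ (hs _ h₁)).1
    | succ q ih =>
      intro l hl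
      obtain ⟨l, rfl⟩ : ∃ l', l = 2 * l' := ⟨l / 2, by ring⟩
      have hl' : l ∈ Set.Ioo (2 ^ q * max (2 * l₁ - η) l₁) (2 ^ q * (2 * l₁)) := by
        obtain ⟨h1, h2⟩ := hl
        rw [pow_succ] at h1 h2
        exact ⟨by linarith, by linarith⟩
      have h3 := ha0.trans (le_of_dyadic hapos hl'.1)
      exact le_antisymm (hmax _ (by linarith)) (ih l hl' ▸ (smith (h₀.trans_le h3) (hs _ h3)).1)
  refine ⟨_, _, hapos, max_lt (by linarith) (by linarith), hcrit, fun l hl => hs l (ha0.trans hl), A.NG l₁, fun q l hl => ?_⟩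
  have h3 := ha0.trans (le_of_dyadic hapos hl.1)
  exact ⟨key q l hl, (smith (h₀.trans_le h3) (hs _ h3)).2 (key q l hl ▸ hmax _ (by linarith))⟩

/-- homogeneous representatives of `K*_i ⊆ H_i(F l', F l)` -/
def VV (A : Alg n) (l l' : ℝ) (i : ℕ) : Submodule F2 A.C := A.Hm i ⊓ (A.KS l' i ⊔ Bd A.d (A.F l') (A.F l))

def Sp (A : Alg n) (l l' r : ℝ) : Prop :=
  ∀ i, A.VV l l' i ≤ (A.VV l l' i ⊓ A.O l true r) ⊔ (A.VV l l' i ⊓ A.O l false r) ⊔ Bd A.d (A.F l') (A.F l)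

theorem VV_le_cy {l l' : ℝ} (h : l ≤ l') (i : ℕ) : A.VV l l' i ≤ A.cy (A.F l') (A.F l) i :=
  inf_le_inf_left _ (sup_le ((KS_le' i).trans inf_le_right) (gp_pair h).Bd_le_Cy)

theorem KS_le_VV (l l' : ℝ) (i : ℕ) : A.KS l' i ≤ A.VV l l' i := le_inf ((KS_le l' i).trans inf_le_left) le_sup_left

theorem exists_top_unif {l : ℝ} (hl : 0 < l) : ∃ N e₀, 0 < e₀ ∧ ∀ e, 0 < e → e ≤ e₀ → A.Top (A.F (l + e)) (A.F l) N := by
  obtain ⟨η, hη, h⟩ := A.gap_right l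
  obtain ⟨N, hN⟩ := A.top_pair (show l ≤ l + η by linarith)
  refine ⟨N, η, hη, fun e he he' i hi c hc => ?_⟩
  obtain ⟨w, hw, h1⟩ := mem_Bd.1 (hN i hi (cy_mono (A.F_mono (by linarith)) le_rfl i hc))
  have h2 : A.d w ∈ A.F (l + e) := by
    have := add_mem hc.2.1 (A.F_mono (show l ≤ l + e by linarith) h1)
    rwa [← add_assoc, two, zero_add] at this
  obtain ⟨w', _, h3⟩ := A.const (l + e) (l + η) (by linarith) (by linarith)
    (fun x hx hx' => h x hx ⟨by linarith [hx'.1], hx'.2⟩) w hw h2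
  refine mem_Bd.2 ⟨_, h3, ?_⟩
  rwa [map_add, A.d_d, add_zero]

theorem exists_chain {l : ℝ} (hl : 0 < l) (M : ℕ) {r : ℝ} (hr : 0 < r) : ∃ ρ : ℕ → ℝ, 0 < ρ 0 ∧ ρ M ≤ r ∧ ∃ e₀, 0 < e₀ ∧
    ∀ e, 0 < e → e ≤ e₀ → A.Chain (A.F (l + e)) (A.F l) (fun b a => A.O l b (ρ a) ⊓ A.F (l + e)) M := by
  have key : ∃ ρ : ℕ → ℝ, Monotone ρ ∧ 0 < ρ 0 ∧ ρ M ≤ r ∧ ∃ e₀, 0 < e₀ ∧ ∀ e, 0 < e → e ≤ e₀ → ∀ a < M, ∀ b : Bool,
      ∀ c₁ ∈ A.O l b (ρ a) ⊓ A.F (l + e), ∀ c₂ ∈ A.O l (!b) (ρ a) ⊓ A.F (l + e), A.d c₁ ∈ A.F l → A.d c₂ ∈ A.F l →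
      (∃ w ∈ A.F (l + e), c₁ + c₂ + A.d w ∈ A.F l) → ∃ w₁ ∈ A.O l b (ρ (a + 1)) ⊓ A.F (l + e), c₁ + A.d w₁ ∈ A.F l := by
    induction M with
    | zero => exact ⟨fun _ => r, monotone_const, hr, le_rfl, 1, one_pos, fun e _ _ a ha => absurd ha (Nat.not_lt_zero a)⟩
    | succ M ih =>
      obtain ⟨ρ, hm, h0, hM, e₀, he₀, h⟩ := ih
      obtain ⟨r₁, hr₁, hr₁', e₁, he₁, h'⟩ := A.n2 l hl (ρ 0) h0
      refine ⟨fun a => Nat.casesOn a r₁ ρ, monotone_nat_of_le_succ fun a => ?_, hr₁, hM, min e₀ e₁, lt_min he₀ he₁,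
        fun e he he' a ha => ?_⟩
      · cases a with
        | zero => exact hr₁'
        | succ a => exact hm (Nat.le_succ a)
      · cases a with
        | zero => exact h' e he (he'.trans (min_le_right _ _))
        | succ a => exact h e he (he'.trans (min_le_left _ _)) a (by omega)
  obtain ⟨ρ, hm, h0, hM, e₀, he₀, h⟩ := key
  obtain ⟨e₁, he₁, h'⟩ := A.n1 l hl (ρ 0) h0
  refine ⟨ρ, h0, hM, min e₀ e₁, lt_min he₀ he₁, fun e he he' => ⟨gp_pair (by linarith),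
    fun b a => (good_O l b _).inf (good_F _), fun b a => inf_le_right,
    fun b a a' ha => inf_le_inf_right _ (A.O_mono l b (hm ha)), fun c hc => ?_, fun a ha c₁ hc₁ c₂ hc₂ h1 h2 hb => ?_⟩⟩
  · obtain ⟨c₁, hc₁, c₂, hc₂, h1, h2, h3⟩ := h' e he (he'.trans (min_le_right _ _)) c hc.1 hc.2
    exact ⟨c₁, hc₁, c₂, hc₂, h1, h2, mem_Bd.2 h3⟩
  · exact ⟨mem_Bd.2 (h e he (he'.trans (min_le_left _ _)) a ha true c₁ hc₁ c₂ hc₂ h1 h2 (mem_Bd.1 hb)),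
      mem_Bd.2 (h e he (he'.trans (min_le_left _ _)) a ha false c₂ hc₂ c₁ hc₁ h2 h1 (mem_Bd.1 (add_comm c₁ c₂ ▸ hb)))⟩

theorem sp_step {l l' r r' : ℝ} {ρ : ℕ → ℝ} {M : ℕ} (hl : 0 < l) (h : l ≤ l')
    (hC : A.Chain (A.F (2 * l')) (A.F (2 * l)) (fun b a => A.O (2 * l) b (ρ a) ⊓ A.F (2 * l')) M)
    (hM : ρ M ≤ r) (hr : 2 * r' ≤ ρ 0) {N : ℕ} (hN : A.Top (A.F (2 * l')) (A.F (2 * l)) N) (hNM : N ≤ M)
    (hlead : ∀ i, A.Ld (A.KS l') (A.F (2 * l')) (A.F (2 * l)) i ≤ A.KS (2 * l') i ⊔ Bd A.d (A.F (2 * l')) (A.F (2 * l)) ∧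
      A.KS (2 * l') i ≤ A.Ld (A.KS l') (A.F (2 * l')) (A.F (2 * l)) i ⊔ Bd A.d (A.F (2 * l')) (A.F (2 * l)))
    (hsp : A.Sp l l' r') : A.Sp (2 * l) (2 * l') r := by
  intro i
  have h' : 2 * l ≤ 2 * l' := by linarith
  rcases le_or_gt N i with hi | hi
  · exact le_sup_of_le_right ((VV_le_cy h' i).trans (hN i hi))
  have hL := loc_pair (A := A) hl h
  have hKH : ∀ k, A.KS l' k ≤ A.Hm k := fun k => (KS_le l' k).trans inf_le_left
  have hb : ∀ b, (PS (fun k => A.VV l l' k ⊓ A.O l b r') i).map A.jj ≤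
      A.WS (A.KS l') (A.F (2 * l')) (A.F (2 * l)) i ⊓ A.PP (A.O (2 * l) b (ρ 0) ⊓ A.F (2 * l')) i := by
    intro b
    refine le_inf (le_sup_left.trans (hL.WS_mono (S := fun k => A.VV l l' k ⊓ A.O l b r')
      (fun k => inf_le_left.trans inf_le_left) hKH i fun k _ => inf_le_left.trans inf_le_right)) ?_
    rintro _ ⟨y, hy, rfl⟩ k
    refine ⟨⟨j_mem_Hm (hy k).1.1.1, A.O_mono _ b hr (A.O_j l b r' _ (hy k).1.2), A.j_F _ _ (VV_le_cy h k (hy k).1.1).2.1⟩,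
      fun hk => ?_⟩
    rw [jj_apply, (hy k).2 hk, map_zero]
  have h3 := hC.split (e := i) (W := A.WS (A.KS l') (A.F (2 * l')) (A.F (2 * l)) i) le_sup_right (hL.WS_le_TC KS_le' i)
    ((hL.WS_mono (S' := fun k => (A.VV l l' k ⊓ A.O l true r') ⊔ (A.VV l l' k ⊓ A.O l false r')) hKH
      (fun k => sup_le (inf_le_left.trans inf_le_left) (inf_le_left.trans inf_le_left)) i
      fun k _ => (KS_le_VV l l' k).trans (hsp k)).trans
      (sup_le_sup_right ((Submodule.map_mono (PS_sup _ _ i)).trans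
        ((Submodule.map_sup _ _ _).le.trans (sup_le_sup (hb true) (hb false)))) _))
    (show i + 1 ≤ M by omega)
  have h4 : ∀ b, A.Ld (A.KS l') (A.F (2 * l')) (A.F (2 * l)) i ⊓ (A.O (2 * l) b (ρ M) ⊓ A.F (2 * l')) ≤
      A.VV (2 * l) (2 * l') i ⊓ A.O (2 * l) b r := fun b =>
    inf_le_inf (le_inf ((hL.gp.Lam_le_cy (hL.WS_le_TC KS_le' i) i).trans inf_le_left) (hlead i).1)
      (inf_le_left.trans (A.O_mono _ b hM))
  refine inf_le_right.trans (sup_le ((hlead i).2.trans (sup_le ?_ le_sup_right)) le_sup_right)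
  exact h3.trans (sup_le_sup_right (sup_le_sup (h4 true) (h4 false)) _)

theorem Win.sp {a b : ℝ} (hW : A.Win a b) (q : ℕ) : ∀ l ∈ Set.Ioo (2 ^ q * a) (2 ^ q * b), ∀ r, 0 < r →
    ∃ e₀, 0 < e₀ ∧ ∀ e, 0 < e → e ≤ e₀ → A.Sp l (l + e) r := by
  obtain ⟨M, hM⟩ := hW.ng
  induction q with
  | zero =>
    intro l hl r _
    rw [pow_zero, one_mul, one_mul] at hl
    refine ⟨b - l, by linarith [hl.2], fun e he he' i => le_sup_of_le_right ((VV_le_cy (by linarith) i).trans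
      (inf_le_right.trans (acyc (hW.pos.trans hl.1) (by linarith) fun x hx hx' => hW.crit x hx ?_)))⟩
    exact ⟨hl.1.trans_le hx'.1, by linarith [hx'.2]⟩
  | succ q ih =>
    intro l hl r hr
    obtain ⟨l, rfl⟩ : ∃ l', l = 2 * l' := ⟨l / 2, by ring⟩
    have hl' : l ∈ Set.Ioo (2 ^ q * a) (2 ^ q * b) := by
      obtain ⟨h1, h2⟩ := hl
      rw [pow_succ] at h1 h2
      exact ⟨by linarith, by linarith⟩
    have hal := le_of_dyadic hW.pos hl'.1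
    have hl0 : 0 < l := hW.pos.trans_le hal
    obtain ⟨N, e₁, he₁, hN⟩ := exists_top_unif (A := A) (show 0 < 2 * l by linarith)
    obtain ⟨ρ, h0, hρ, e₂, he₂, hC⟩ := exists_chain (A := A) (show 0 < 2 * l by linarith) N hr
    obtain ⟨e₃, he₃, hsp⟩ := ih l hl' (ρ 0 / 2) (by linarith)
    refine ⟨min (min e₁ e₂) (min e₃ (2 ^ q * b - l)), lt_min (lt_min he₁ he₂) (lt_min he₃ (by linarith [hl'.2])),
      fun e he he' => ?_⟩
    simp only [le_min_iff] at he'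
    obtain ⟨⟨h1, h2⟩, h3, h4⟩ := he'
    replace hN := hN e he h1
    replace hC := hC e he h2
    have e1 : 2 * l + e = 2 * (l + e / 2) := by ring
    rw [e1] at hN hC ⊢
    have hl'' : l + e / 2 ∈ Set.Ioo (2 ^ q * a) (2 ^ q * b) := ⟨by linarith [hl'.1], by linarith⟩
    have hl2 : 2 * (l + e / 2) ∈ Set.Ioo (2 ^ (q + 1) * a) (2 ^ (q + 1) * b) := by
      rw [pow_succ]
      exact ⟨by linarith [hl''.1], by linarith [hl''.2]⟩
    exact sp_step hl0 (by linarith) hC hρ (by linarith) hN le_rfl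
      (lead_eq hl0 (by linarith) (hM q _ hl').2 (hM q _ hl'').2 (hW.stab l hal) ((hM q _ hl').1.trans (hM q _ hl'').1.symm)
        ((hM _ _ hl).1.trans (hM _ _ hl2).1.symm)) (hsp (e / 2) (by linarith) (by linarith))

/-- `L_i/K*_i` is a free `F₂[τ]`-module (`i` of G-parity) -/
def O1 (A : Alg n) (l l' : ℝ) (i : ℕ) : Prop :=
  hh A.NN (A.cy (A.F l') (A.F l) i) (A.Hm i ⊓ (A.Kk l' i ⊔ Bd A.d (A.F l') (A.F l))) = 0
/-- `K*_i` is a free `F₂[τ]`-module (`i` of B-parity) -/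
def O2 (A : Alg n) (l l' : ℝ) (i : ℕ) : Prop :=
  hh A.NN (A.cy (A.F l') ⊥ i) (A.cy (A.F l') ⊥ i ⊓ Bd A.d (A.F l') (A.F l)) = 0

theorem O_of_acyc {l l' : ℝ} (h : l ≤ l') (hc : Cy A.d (A.F l') (A.F l) ≤ Bd A.d (A.F l') (A.F l)) (i : ℕ) :
    A.O1 l l' i ∧ A.O2 l l' i :=
  ⟨rd_eq_zero.2 fun _ hx => Submodule.mem_sup_right ⟨hx.1.1, Submodule.mem_sup_right (hc hx.1.2)⟩,
    rd_eq_zero.2 fun _ hx => Submodule.mem_sup_right ⟨hx.1, hc (cy_mono le_rfl bot_le i hx.1).2⟩⟩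

theorem Win.out {a b : ℝ} (hW : A.Win a b) (q : ℕ) {l : ℝ} (hl : l ∈ Set.Ioo (2 ^ q * a) (2 ^ q * b)) :
    ∃ e₀, 0 < e₀ ∧ ∀ e, 0 < e → e ≤ e₀ → ∀ i, (i + n) % 2 = 0 → A.O1 l (l + e) (i + 1) ∧ A.O2 l (l + e) i := by
  have hl0 : 0 < l := hW.pos.trans_le (le_of_dyadic hW.pos hl.1)
  obtain ⟨ρ, h0, -, e₂, he₂, hC⟩ := exists_chain (A := A) hl0 1 one_pos
  obtain ⟨e₃, he₃, hsp⟩ := hW.sp q l hl (ρ 0) h0
  refine ⟨min e₂ e₃, lt_min he₂ he₃, fun e he he' i hi => ?_⟩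
  replace hC := hC e he (he'.trans (min_le_left _ _))
  replace hsp := hsp e he (he'.trans (min_le_right _ _))
  have hle : l ≤ l + e := by linarith
  have sep : ∀ k c₁ c₂, c₁ ∈ A.cy (A.F (l + e)) (A.F l) k ⊓ A.O l true (ρ 0) →
      c₂ ∈ A.cy (A.F (l + e)) (A.F l) k ⊓ A.O l false (ρ 0) → c₁ + c₂ ∈ Bd A.d (A.F (l + e)) (A.F l) →
      c₂ ∈ Bd A.d (A.F (l + e)) (A.F l) := fun k c₁ c₂ h1 h2 h3 =>
    Bd_mono inf_le_right le_rfl (hC.h2 0 one_pos c₁ ⟨h1.2, h1.1.2.1⟩ c₂ ⟨h2.2, h2.1.2.1⟩ h1.1.2.2 h2.1.2.2 h3).2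
  have hτ : ∀ k b c, c ∈ A.cy (A.F (l + e)) (A.F l) k ⊓ A.O l b (ρ 0) →
      A.τ c ∈ A.cy (A.F (l + e)) (A.F l) k ⊓ A.O l (!b) (ρ 0) :=
    fun k b c hc => ⟨τ_cy (A.τ_F _) (A.τ_F _) hc.1, A.O_τ _ _ _ _ hc.2⟩
  have hNB : ∀ c ∈ Bd A.d (A.F (l + e)) (A.F l), A.NN c ∈ Bd A.d (A.F (l + e)) (A.F l) :=
    NN_mem fun c hc => τ_Bd (A.τ_F _) (A.τ_F _) hc
  have hV : ∀ k b, A.VV l (l + e) k ⊓ A.O l b (ρ 0) ≤ A.cy (A.F (l + e)) (A.F l) k ⊓ A.O l b (ρ 0) :=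
    fun k b => inf_le_inf_right _ (VV_le_cy hle k)
  constructor
  · unfold O1
    rw [← KS_G (l + e) (show (i + 1 + (n + 1)) % 2 = 0 by omega)]
    refine rd_eq_zero.2 fun x hx => mem_Bd.2 ?_
    obtain ⟨c₁, hc₁, c₂, hc₂, h1, h2, h3⟩ := hC.h1 x hx.1.2
    replace h3 := p_Bd (good_F _) (good_F _) (i + 1) h3
    rw [map_add, map_add, mem_Hm.1 hx.1.1] at h3
    have hxt : A.p (i + 1) c₁ ∈ A.cy (A.F (l + e)) (A.F l) (i + 1) ⊓ A.O l true (ρ 0) :=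
      ⟨hC.gp.p_cy ⟨hc₁.2, h1⟩ _, A.O_p _ _ _ _ _ hc₁.1⟩
    have hxf : A.p (i + 1) c₂ ∈ A.cy (A.F (l + e)) (A.F l) (i + 1) ⊓ A.O l false (ρ 0) :=
      ⟨hC.gp.p_cy ⟨hc₂.2, h2⟩ _, A.O_p _ _ _ _ _ hc₂.1⟩
    set xt := A.p (i + 1) c₁
    set xf := A.p (i + 1) c₂
    obtain ⟨v, hv, b', hb', e1⟩ := Submodule.mem_sup.1 (hsp (i + 1) hx.2)
    obtain ⟨vt, hvt, vf, hvf, rfl⟩ := Submodule.mem_sup.1 hv
    have h4 := sep _ (xt + A.τ xf + vt) (xf + A.τ xt + vf) (add_mem (add_mem hxt (hτ _ _ _ hxf)) (hV _ _ hvt))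
      (add_mem (add_mem hxf (hτ _ _ _ hxt)) (hV _ _ hvf)) (by
        convert add_mem (hNB _ h3) hb' using 1
        rw [map_add, map_add, ← e1, NN_apply, NN_apply]
        linear_combination (norm := abel1) -two b')
    refine ⟨xt, hxt.1, add_mem hx.1.1 (NN_mem (fun c => τ_mem_Hm) _ hxt.1.1), ?_⟩
    have e2 : x + A.NN xt = x + xt + xf + (xf + A.τ xt + vf) + vf := by
      rw [NN_apply]
      linear_combination (norm := abel1) -two xf - two vf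
    rw [e2]
    exact add_mem (Submodule.mem_sup_right (add_mem h3 h4)) hvf.1.2
  · refine rd_eq_zero.2 fun x hx => mem_Bd.2 ?_
    obtain ⟨v, hv, b', hb', e1⟩ := Submodule.mem_sup.1 (hsp i (KS_le_VV _ _ i ((KS_B _ hi).ge hx.1)))
    obtain ⟨vt, hvt, vf, hvf, rfl⟩ := Submodule.mem_sup.1 hv
    have h4 := sep _ (vt + A.τ vf) (vf + A.τ vt) (add_mem (hV _ _ hvt) (hτ _ _ _ (hV _ _ hvf)))
      (add_mem (hV _ _ hvf) (hτ _ _ _ (hV _ _ hvt))) (by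
        have h5 : A.NN x ∈ Bd A.d (A.F (l + e)) (A.F l) := hx.2.2
        convert add_mem h5 (hNB _ hb') using 1
        rw [← e1, map_add, map_add, NN_apply vt, NN_apply vf]
        linear_combination (norm := abel1) -two (A.NN b'))
    obtain ⟨y, hy, b'', hb'', e2⟩ := Submodule.mem_sup.1 hvt.1.2
    rw [KS_B _ hi] at hy
    refine ⟨y, hy, add_mem hx.1 (NN_mem (fun c => τ_cy (A.τ_F _) τ_bot) _ hy), ?_⟩
    have e3 : x + A.NN y = vf + A.τ vt + b' + A.NN b'' := by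
      rw [← e1, ← e2, map_add, NN_apply, NN_apply]
      linear_combination (norm := abel1) two y - two (A.τ b'')
    rw [e3]
    exact add_mem (add_mem h4 hb') (hNB _ hb'')

end Crest.Agent.R231.Alg
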