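import Crest.Agent.R231.Alg.Ind

/-! # R231/Alg: the invariant `JJ` (A5) -/

set_option autoImplicit false
open Submodule

noncomputable section
namespace Crest.Agent.R231.Alg

variable {n : ℕ} {A : Alg n}

def JJ (A : Alg n) (i : ℕ) (l : ℝ) : Prop := ∃ ε : ℕ∞,
  hh A.NN (A.cy (A.F l) ⊥ i) (A.Hm i ⊓ Bd A.d (A.F l) ⊥) + 2 * ε = rd (A.cy (A.F l) ⊥ (i + 1)) (LinearMap.range A.d) ∧
    (ε = 0 → ∀ x ∈ A.cy (A.F l) ⊥ (i + 1), ∃ κ β, β ∈ A.Hm i ∧ A.d β = 0 ∧ A.d κ = A.NN β ∧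
      x + A.NN κ ∈ LinearMap.range A.d)

theorem τ_inf {S T : Submodule F2 A.C} (hS : ∀ c ∈ S, A.τ c ∈ S) (hT : ∀ c ∈ T, A.τ c ∈ T) : ∀ c ∈ S ⊓ T, A.τ c ∈ S ⊓ T :=
  fun c hc => ⟨hS c hc.1, hT c hc.2⟩

theorem τ_sup {S T : Submodule F2 A.C} (hS : ∀ c ∈ S, A.τ c ∈ S) (hT : ∀ c ∈ T, A.τ c ∈ T) :
    ∀ c ∈ S ⊔ T, A.τ c ∈ S ⊔ T := by
  intro c hc
  obtain ⟨a, ha, b, hb, rfl⟩ := Submodule.mem_sup.1 hc
  rw [map_add]
  exact Submodule.add_mem_sup (hS a ha) (hT b hb)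

theorem HB_le_cy (l : ℝ) (i : ℕ) : A.Hm i ⊓ Bd A.d (A.F l) ⊥ ≤ A.cy (A.F l) ⊥ i := inf_le_inf_left _ (gp_abs l).Bd_le_Cy

theorem JJ_step {l l' : ℝ} (h : l ≤ l') {i : ℕ} (h1 : A.O1 l l' (i + 1)) (h2 : A.O2 l l' i) (hJ : A.JJ i l) :
    A.JJ i l' := by
  obtain ⟨ε, hε, hJ⟩ := hJ
  have hF : A.F l ≤ A.F l' := A.F_mono h
  have τH : ∀ k, ∀ c ∈ A.Hm k, A.τ c ∈ A.Hm k := fun k c => τ_mem_Hm
  have τZ : ∀ x k, ∀ c ∈ A.cy (A.F x) ⊥ k, A.τ c ∈ A.cy (A.F x) ⊥ k := fun x k c => τ_cy (A.τ_F _) τ_bot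
  have τB : ∀ x, ∀ c ∈ Bd A.d (A.F x) ⊥, A.τ c ∈ Bd A.d (A.F x) ⊥ := fun x c => τ_Bd (A.τ_F _) τ_bot
  have τX : ∀ c ∈ Bd A.d (A.F l') (A.F l), A.τ c ∈ Bd A.d (A.F l') (A.F l) := fun c => τ_Bd (A.τ_F _) (A.τ_F _)
  have τL : ∀ c ∈ A.cy (A.F l') (A.F l) (i + 1), A.τ c ∈ A.cy (A.F l') (A.F l) (i + 1) := fun c => τ_cy (A.τ_F _) (A.τ_F _)
  have τKd := τ_inf (τH (i + 1)) (τ_sup (τZ l' (i + 1)) τX)
  have τKs : ∀ c ∈ A.Hm (i + 1) ⊓ (A.Kk l' (i + 1) ⊔ Bd A.d (A.F l') (A.F l)), A.τ c ∈ _ :=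
    τ_inf (τH (i + 1)) (τ_sup (τ_inf (τZ l' (i + 1)) fun c => τ_range) τX)
  unfold O1 at h1
  unfold O2 at h2
  set Zm := A.cy (A.F l) ⊥ i with hZm
  set Bm := A.Hm i ⊓ Bd A.d (A.F l) ⊥ with hBm
  set Zp := A.cy (A.F l') ⊥ i with hZp
  set L := A.cy (A.F l') (A.F l) (i + 1) with hL
  set Ks := A.Hm (i + 1) ⊓ (A.Kk l' (i + 1) ⊔ Bd A.d (A.F l') (A.F l)) with hKs
  set Kd := A.Hm (i + 1) ⊓ (A.cy (A.F l') ⊥ (i + 1) ⊔ Bd A.d (A.F l') (A.F l)) with hKd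
  have hBM : Bm ≤ Zm ⊓ Bd A.d (A.F l') ⊥ := le_inf (HB_le_cy l i) (inf_le_right.trans (Bd_mono hF le_rfl))
  have hsd : Ks ≤ Kd := inf_le_inf_left _ (sup_le_sup_right (Kk_le _ _) _)
  have hdL : Kd ≤ L := inf_le_inf_left _ (sup_le ((cy_mono le_rfl bot_le _).trans inf_le_right) (gp_pair h).Bd_le_Cy)
  have hker : ∀ x, x ∈ Kd ↔ x ∈ L ∧ A.d x ∈ Bm := fun x =>
    ⟨fun hx => ⟨hdL hx, d_mem_Hm hx.1, (ker_del h (hdL hx)).2 hx.2⟩, fun hx => ⟨hx.1.1, (ker_del h hx.1).1 hx.2.2⟩⟩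
  obtain ⟨r₂, r₃, a1, a2, a3⟩ := triple A.NN NN_NN hBM inf_le_left (NN_mem (τ_inf (τZ l i) (τB l')))
    (NN_mem (τ_inf (τH i) (τB l)))
  have b0 : hh A.NN Zm (Zm ⊓ Bd A.d (A.F l') ⊥) = hh A.NN (Zp ⊓ Bd A.d (A.F l') (A.F l)) (A.Hm i ⊓ Bd A.d (A.F l') ⊥) := by
    rw [hh_transfer A.NN LinearMap.id (fun _ => rfl) (B := Zm ⊓ Bd A.d (A.F l') ⊥) (NN_mem (τZ l i)) (NN_mem (τ_inf (τH i) (τB l')))
      (fun x => ⟨fun hx => ⟨hx.1, hx.1.1, hx.2⟩, fun hx => ⟨hx.1, hx.2.2⟩⟩), Submodule.map_id]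
    congr 1
    apply le_antisymm
    · exact sup_le (le_inf (cy_mono hF le_rfl i) fun x hx => le_Bd _ _ hx.2.1)
        (le_inf (HB_le_cy l' i) (inf_le_right.trans (Bd_mono le_rfl bot_le)))
    · intro x hx
      obtain ⟨w, h1, h2, h3⟩ := cy_Bd_split hx.1 hx.2
      have e : x = (x + A.d w) + A.d w := by rw [add_assoc, two, add_zero]
      rw [e]
      exact Submodule.add_mem_sup h3 ⟨d_mem_Hm h1, d_mem_Bd _ h2⟩
  have b1 : hh A.NN Zp (A.Hm i ⊓ Bd A.d (A.F l') ⊥) = r₂ + r₃ := by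
    obtain ⟨s₂, s₃, c1, c2, c3⟩ := triple A.NN NN_NN (C := A.Hm i ⊓ Bd A.d (A.F l') ⊥) (B := Zp ⊓ Bd A.d (A.F l') (A.F l))
      (A := Zp) (le_inf (HB_le_cy l' i) (inf_le_right.trans (Bd_mono le_rfl bot_le))) inf_le_left
      (NN_mem (τ_inf (τZ l' i) τX)) (NN_mem (τ_inf (τH i) (τB l')))
    rw [h2, eq_comm, add_eq_zero] at c3
    rw [← a3, b0, c1, c2, c3.1, c3.2]
  have b2 : hh A.NN Kd Ks = hh A.NN (Zm ⊓ Bd A.d (A.F l') ⊥) Bm := by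
    obtain ⟨s₂, s₃, c1, c2, c3⟩ := triple A.NN NN_NN hsd hdL (NN_mem τKd) (NN_mem τKs)
    rw [h1, eq_comm, add_eq_zero] at c2
    rw [c1, c2.1, ← c2.2, ← c3, hh_transfer A.NN A.d d_NN (NN_mem τL) (NN_mem (τ_inf (τH i) (τB l))) hker, rd_del h,
      sup_eq_left.2 hBM]
  have hcongr : ∀ x ∈ A.cy (A.F l') ⊥ (i + 1), x ∈ Ks ↔ x ∈ A.cy (A.F l) ⊥ (i + 1) ⊔ LinearMap.range A.d := by
    intro x hx
    constructor
    · intro hs
      obtain ⟨y, hy, b, hb, rfl⟩ := Submodule.mem_sup.1 hs.2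
      have hb' : b ∈ A.cy (A.F l') ⊥ (i + 1) := by
        have := add_mem hy.1 hx
        rwa [← add_assoc, two, zero_add] at this
      obtain ⟨w, _, _, h3⟩ := cy_Bd_split hb' hb
      have e : y + b = (b + A.d w) + (y + A.d w) := by linear_combination (norm := abel1) -two (A.d w)
      rw [e]
      exact Submodule.add_mem_sup h3 (add_mem hy.2 ⟨w, rfl⟩)
    · intro hs
      obtain ⟨y, hy, b, hb, rfl⟩ := Submodule.mem_sup.1 hs
      refine ⟨hx.1, ?_⟩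
      rw [add_comm y b]
      refine Submodule.add_mem_sup ⟨?_, hb⟩ (le_Bd _ _ hy.2.1)
      have := add_mem (cy_mono hF le_rfl _ hy) hx
      rwa [← add_assoc, two, zero_add] at this
  have hZd : A.cy (A.F l') ⊥ (i + 1) ≤ Kd := le_inf inf_le_left le_sup_left
  have b3 : rd (A.cy (A.F l') ⊥ (i + 1)) (LinearMap.range A.d) =
      rd Kd Ks + rd (A.cy (A.F l) ⊥ (i + 1)) (LinearMap.range A.d) := by
    rw [← sup_eq_left.2 (cy_mono hF le_rfl (i + 1)), rd_sup_left, ← rd_congr hcongr]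
    congr 1
    refine rd_eq_of_le_sup (le_sup_of_le_left hZd) fun x hx => ?_
    obtain ⟨y, hy, b, hb, rfl⟩ := Submodule.mem_sup.1 hx.2
    refine Submodule.add_mem_sup hy ⟨?_, Submodule.mem_sup_right hb⟩
    have := add_mem hy.1 hx.1
    rwa [← add_assoc, two, zero_add] at this
  refine ⟨rd (Cy A.NN (Zm ⊓ Bd A.d (A.F l') ⊥) Bm) (Bd A.NN Zm Bm) + rd (Kd.map A.NN) Ks + ε, ?_, fun h0 x hx => ?_⟩
  · rw [b1, b3, rd_eq_hh A.NN NN_NN hsd (NN_mem τKd) (NN_mem τKs), b2, a1, ← hε, a2]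
    ring
  · rw [add_eq_zero, add_eq_zero, rd_eq_zero, rd_eq_zero] at h0
    obtain ⟨⟨z1, z2⟩, z3⟩ := h0
    obtain ⟨κ, hκ, k1⟩ := mem_Bd.1 (rd_eq_zero.1 h1 ⟨hdL (hZd hx), z2 ⟨x, hZd hx, rfl⟩⟩)
    have k2 : A.d κ ∈ Cy A.NN (Zm ⊓ Bd A.d (A.F l') ⊥) Bm := by
      refine ⟨(rd_del h i).le ⟨κ, hκ, rfl⟩, ?_⟩
      have := ((hker _).1 (hsd k1)).2
      rwa [map_add, show A.d x = 0 from hx.2.2, zero_add, d_NN] at this
    obtain ⟨β, hβ, k3⟩ := mem_Bd.1 (z1 k2)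
    obtain ⟨w, hw1, hw2, k4⟩ := hom_Bd (good_F l) good_bot k3.1 k3.2
    have k5 : A.d (κ + w) = A.NN β := by
      rw [mem_bot, add_right_comm, add_eq_zero_iff] at k4
      rw [map_add, k4]
    have hκw : κ + w ∈ L := add_mem hκ ⟨hw1, hF hw2, A.F_d _ _ hw2⟩
    have k6 : x + A.NN (κ + w) ∈ A.cy (A.F l') ⊥ (i + 1) := by
      refine add_mem hx ⟨(NN_mem τL _ hκw).1, (NN_mem τL _ hκw).2.1, ?_⟩
      change A.d (A.NN (κ + w)) = 0
      rw [d_NN, k5, NN_NN]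
    have k7 : x + A.NN (κ + w) ∈ Ks := by
      rw [map_add, ← add_assoc]
      exact add_mem k1 ⟨NN_mem (τH _) _ hw1, Submodule.mem_sup_right (le_Bd _ _ (NN_mem (A.τ_F l) _ hw2))⟩
    obtain ⟨x', hx', ρ, hρ, k8⟩ := Submodule.mem_sup.1 ((hcongr _ k6).1 k7)
    obtain ⟨κ', β', j1, j2, j3, j4⟩ := hJ z3 x' hx'
    refine ⟨κ + w + κ', β + β', add_mem hβ.1 j1, by rw [map_add, show A.d β = 0 from hβ.2.2, j2, add_zero],
      by rw [map_add, k5, j3, map_add], ?_⟩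
    rw [map_add, ← add_assoc, ← k8, add_right_comm]
    exact add_mem j4 hρ

theorem Win.JJ_prop {a b : ℝ} (hW : A.Win a b) (q : ℕ) {l₀ l₁ : ℝ} (h₀ : 2 ^ q * a < l₀) (h : l₀ ≤ l₁)
    (h₁ : l₁ < 2 ^ q * b) {i : ℕ} (hi : (i + n) % 2 = 0) (hJ : A.JJ i l₀) : A.JJ i l₁ := by
  have hl₀ : 0 < l₀ := hW.pos.trans_le (le_of_dyadic hW.pos h₀)
  refine real_ind (P := A.JJ i) h hJ (fun l _ _ => ?_) fun l h1 h2 hP => ?_
  · obtain ⟨η, hη, hg⟩ := A.gap_left l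
    refine ⟨η, hη, fun l' h1 h2 h3 hP => ?_⟩
    have hc := acyc (hl₀.trans_le h1) h3 fun z hz hz' => hg z hz ⟨h2.le.trans hz'.1, hz'.2⟩
    exact JJ_step h3 (O_of_acyc h3 hc _).1 (O_of_acyc h3 hc _).2 hP
  · obtain ⟨e₀, he₀, hO⟩ := hW.out q (l := l) ⟨h₀.trans_le h1, h2.trans h₁⟩
    exact ⟨e₀, he₀, fun e he he' => JJ_step (by linarith) (hO e he he' i hi).1 (hO e he he' i hi).2 hP⟩

theorem JJ_start {l : ℝ} {i : ℕ} (hk : A.kd l i = 0) (h1 : l + A.Cg < A.s (i / (n - 1) - 2))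
    (h2 : l + A.Cg < A.s ((i + 1) / (n - 1) - 2)) : A.JJ i l := by
  refine ⟨0, ?_, fun _ x hx => ⟨0, 0, zero_mem _, map_zero _, by simp, by simpa using low_le h2 hx⟩⟩
  rw [rd_eq_zero.2 (low_le h2), mul_zero, add_zero]
  exact rd_eq_zero.2 fun x hx => Submodule.mem_sup_right ⟨hx.1.1, rd_eq_zero.1 hk ⟨hx.1, low_le h1 hx.1⟩⟩

theorem B_NN (c : A.C) : A.B (A.NN c) = A.NN (A.B c) := by rw [NN_apply, NN_apply, map_add, A.B_τ]

theorem Φ_NN {c : A.C} (h : A.d c = 0) : A.Φ (A.NN c) = 0 := by rw [NN_apply, map_add, A.Φ_τ c h, two]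

theorem NN_α (hn : 2 ≤ n) {k : ℕ} (hk : Odd k) : A.NN (A.α k) ∈ LinearMap.range A.d := by
  rcases A.Φ_ker (k * (n - 1)) (A.τ (A.α k)) (τ_mem_Hm (A.α_p k)) (by rw [A.τ_d, A.α_d, map_zero])
    (by rw [A.Φ_τ _ (A.α_d k), A.Φ_α]) with h | ⟨k', hk', w, hw⟩
  · have := τ_range h
    rw [A.τ_τ] at this
    exact absurd this (α_not_range hk)
  · obtain rfl : k = k' := Nat.eq_of_mul_eq_mul_right (show 0 < n - 1 by omega) hk'
    exact ⟨w, by rw [hw, NN_apply, add_comm]⟩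

theorem JJ_end (hn : 2 ≤ n) {l : ℝ} {i k : ℕ} (hk : Odd k) (hk3 : 3 ≤ k) (hi : i + 1 = k * (n - 1)) (hkd : A.kd l i = 0)
    (hs : ∀ k', k' ≤ k → A.s k' + A.Cg ≤ l) (hB : ∀ l', A.Bo (A.F l') ⊥ (i + 1) ≤ LinearMap.range A.d)
    (hJ : A.JJ i l) : False := by
  obtain ⟨ε, hε, hJ⟩ := hJ
  have h1 := hε.le.trans ((rd_mono_left (cy_mono le_top le_rfl _) _).trans (bt_le hn (i + 1)))
  have h0 : ε = 0 := by
    by_contra h0
    have h2 : (2 : ℕ∞) * 1 ≤ 2 * ε := mul_le_mul_right (Order.one_le_iff_ne_zero.2 h0) 2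
    rcases hn.eq_or_lt with rfl | hn3
    · have hk' : Odd (k - 2) := Nat.Odd.sub_even (by omega) hk even_two
      have hc : A.B (A.α (k - 2)) ∈ A.cy ⊤ ⊥ i := by
        refine ⟨?_, trivial, ?_⟩
        · have := B_mem_Hm (A.α_p (k - 2))
          rwa [show (k - 2) * (2 - 1) + 1 = i by omega] at this
        · change A.d (A.B _) = 0
          rw [A.B_d, A.α_d, map_zero]
      obtain ⟨c, hc', ρ, hρ, e1⟩ := Submodule.mem_sup.1 (up_le (hs _ (by omega)) hc)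
      have h3 : A.NN c ∈ LinearMap.range A.d := by
        have := add_mem (B_range (NN_α le_rfl hk')) (NN_mem (fun c => τ_range) _ hρ)
        rwa [B_NN, ← e1, map_add, add_assoc, two, add_zero] at this
      have h4 := NN_mem (fun c => τ_cy (A.τ_F _) τ_bot) _ hc'
      have h5 : 1 ≤ hh A.NN (A.cy (A.F l) ⊥ i) (A.Hm i ⊓ Bd A.d (A.F l) ⊥) := by
        refine one_le_rd (x := c) ⟨hc', h4.1, rd_eq_zero.1 hkd ⟨h4, h3⟩⟩ fun hb => ?_
        obtain ⟨z, hz, h6⟩ := mem_Bd.1 hb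
        have h7 := Φ_range (Bd_bot_le_range _ h6.2)
        have h8 := A.Φ_Bα _ hk'
        rw [map_add, Φ_NN hz.2.2, add_zero] at h7
        rw [← e1, map_add, h7, Φ_range hρ, add_zero] at h8
        exact zero_ne_one h8
      have h6 := (add_le_add h5 h2).trans h1
      revert h6
      split_ifs <;> decide
    · have h3 : ¬ ∃ k', i + 1 = n + k' * (n - 1) := by
        rintro ⟨k', h⟩
        rcases le_or_gt k (k' + 1) with h' | h'
        · have := Nat.mul_le_mul_right (n - 1) h'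
          rw [Nat.succ_mul] at this
          omega
        · have := Nat.mul_le_mul_right (n - 1) (Nat.succ_le_of_lt h')
          rw [Nat.succ_mul, Nat.succ_mul] at this
          omega
      rw [if_neg h3] at h1
      have h6 := (h2.trans le_add_self).trans h1
      revert h6
      split_ifs <;> decide
  obtain ⟨κ, β, j1, j2, j3, j4⟩ := hJ h0 (A.α k) (hi ▸ α_mem_cy (hs k le_rfl))
  obtain ⟨l', hl'⟩ := A.F_ex β
  obtain ⟨η, hη⟩ : A.B β ∈ LinearMap.range A.d := by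
    obtain ⟨w, hw⟩ := A.B_sig β j2
    have := add_mem (⟨w, hw⟩ : _ ∈ LinearMap.range A.d) (hB l' (sig_mem_Bo j1 hl' j2))
    rwa [add_assoc, two, add_zero] at this
  have h2 : A.d (A.B κ + A.NN η) = 0 := by rw [map_add, A.B_d, j3, d_NN, hη, B_NN, two]
  have h3 := Φ_NN h2
  have h4 := Φ_range (B_range j4)
  rw [map_add, NN_NN, add_zero, ← B_NN] at h3
  rw [map_add, map_add, h3, add_zero, A.Φ_Bα k hk] at h4
  exact one_ne_zero h4

theorem s_step_mul (k t : ℕ) : A.s (k + t) ≤ A.s k + t * A.Cg := by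
  induction t with
  | zero => simp
  | succ t ih =>
    have := A.s_step (k + t)
    rw [← add_assoc]
    push_cast
    linarith

theorem final (hn : 2 ≤ n) (A : Alg n) : False := by
  classical
  obtain ⟨l₀, h₀, hs, d₀, hd₀⟩ := exists_stab hn A
  obtain ⟨a, b, hW⟩ := exists_win h₀ hs
  obtain ⟨M, hM⟩ := A.kd_bound
  have hC := A.Cg_pos
  have hm : 0 < n - 1 := by omega
  have hab := hW.lt
  set T : ℕ := 2 * d₀ + 4 * M + 10 with hT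
  obtain ⟨q, hq⟩ := pow_unbounded_of_one_lt ((A.s 0 + (T + 3) * A.Cg) * 2 / (b - a)) (one_lt_two (α := ℝ))
  rw [div_lt_iff₀ (by linarith)] at hq
  have h2q : (0 : ℝ) < 2 ^ q := by positivity
  set x₀ := 2 ^ q * a + 2 ^ q * (b - a) / 4 with hx₀
  set x₁ := 2 ^ q * b - 2 ^ q * (b - a) / 4 with hx₁
  have hp : 0 < 2 ^ q * (b - a) := mul_pos h2q (by linarith)
  have hx : x₀ + A.s 0 + (T + 3) * A.Cg ≤ x₁ := by rw [hx₀, hx₁]; linarith
  have hT0 : 0 ≤ (T + 3) * A.Cg := by positivity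
  have hx₀pos : 0 < x₀ := by have := mul_pos h2q hW.pos; linarith
  have hx₀₁ : x₀ ≤ x₁ := by linarith [A.s_nonneg 0]
  set κ := Nat.find (s_tendsto hn A (x₀ + A.Cg)) with hκ
  have hκ1 : ∀ k, κ ≤ k → x₀ + A.Cg < A.s k := Nat.find_spec (s_tendsto hn A (x₀ + A.Cg))
  have hκ2 : ∀ k, k ≤ κ + T → A.s k + A.Cg ≤ x₁ := by
    have key : A.s κ ≤ x₀ + A.s 0 + 2 * A.Cg := by
      rcases Nat.eq_zero_or_pos κ with h | h
      · rw [h]; linarith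
      · have h1 := Nat.find_min (s_tendsto hn A (x₀ + A.Cg)) (show κ - 1 < κ by omega)
        push Not at h1
        obtain ⟨k, hk1, hk2⟩ := h1
        obtain rfl : k = κ - 1 := by
          by_contra h2
          exact absurd (hκ1 k (by omega)) (not_lt.2 hk2)
        have := A.s_step (κ - 1)
        rw [Nat.sub_add_cancel h] at this
        linarith [A.s_nonneg 0]
    intro k hk
    rcases le_or_gt k κ with h | h
    · have : (10 : ℝ) ≤ T := by exact_mod_cast (show 10 ≤ T by omega)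
      nlinarith [s_quasi (A := A) _ _ h]
    · obtain ⟨t, rfl⟩ : ∃ t, k = κ + t := ⟨k - κ, by omega⟩
      have h1 := s_step_mul (A := A) κ t
      have h2 : (t : ℝ) ≤ T := by exact_mod_cast (show t ≤ T by omega)
      nlinarith
  let kk : ℕ → ℕ := fun t => 2 * (κ / 2 + d₀ + 2 + t) + 1
  let ii : ℕ → ℕ := fun t => kk t * (n - 1) - 1
  have hii : ∀ t, ii t + 1 = kk t * (n - 1) := fun t => Nat.sub_add_cancel (Nat.mul_pos (Nat.succ_pos _) hm)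
  obtain ⟨t, ht, hk0, hk1⟩ : ∃ t, t < 2 * M + 1 ∧ A.kd x₀ (ii t) = 0 ∧ A.kd x₁ (ii t) = 0 := by
    by_contra hcon
    push Not at hcon
    have hinj : Set.InjOn ii (Finset.range (2 * M + 1) : Set ℕ) := by
      intro t _ t' _ h
      have h1 : kk t * (n - 1) = kk t' * (n - 1) := by rw [← hii, ← hii, h]
      have := Nat.eq_of_mul_eq_mul_right hm h1
      simp only [kk] at this
      omega
    have h1 : ((2 * M + 1 : ℕ) : ℕ∞) ≤ (M : ℕ∞) + M :=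
      calc ((2 * M + 1 : ℕ) : ℕ∞) = ∑ t ∈ Finset.range (2 * M + 1), (1 : ℕ∞) := by simp
        _ ≤ ∑ t ∈ Finset.range (2 * M + 1), (A.kd x₀ (ii t) + A.kd x₁ (ii t)) := by
          refine Finset.sum_le_sum fun t ht => Order.one_le_iff_ne_zero.2 fun h => ?_
          rw [add_eq_zero] at h
          exact hcon t (Finset.mem_range.1 ht) h.1 h.2
        _ ≤ _ := by
          rw [Finset.sum_add_distrib, ← Finset.sum_image hinj, ← Finset.sum_image hinj]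
          exact add_le_add (hM _ hx₀pos _) (hM _ (hx₀pos.trans_le hx₀₁) _)
    have : 2 * M + 1 ≤ M + M := by exact_mod_cast h1
    omega
  have hkt : kk t = 2 * (κ / 2 + d₀ + 2 + t) + 1 := rfl
  have hi := hii t
  have hpar : (ii t + n) % 2 = 0 := by
    rw [hkt, show (2 * (κ / 2 + d₀ + 2 + t) + 1) * (n - 1) = 2 * ((κ / 2 + d₀ + 2 + t) * (n - 1)) + (n - 1) by ring] at hi
    omega
  have hd1 : (ii t + 1) / (n - 1) = kk t := by rw [hi, Nat.mul_div_cancel _ hm]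
  have hd2 : kk t - 1 ≤ ii t / (n - 1) := by
    rw [Nat.le_div_iff_mul_le hm, Nat.sub_one_mul]
    omega
  have hd3 : kk t ≤ kk t * (n - 1) := Nat.le_mul_of_pos_right _ hm
  exact JJ_end hn (k := kk t) (odd_two_mul_add_one _) (by omega) hi hk1 (fun k' hk' => hκ2 k' (by omega))
    (fun l' => hd₀ l' _ (by omega) (by omega))
    (hW.JJ_prop q (by linarith) hx₀₁ (by linarith) hpar
      (JJ_start hk0 (hκ1 _ (by omega)) (hκ1 _ (by omega))))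

end Crest.Agent.R231.Alg
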