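import Crest.Agent.R231.Alg.Tate

/-! # R231/Alg: localization for pairs and the resulting dimension formulas -/

set_option autoImplicit false
open Submodule

noncomputable section
namespace Crest.Agent.R231.Alg

variable {n : ℕ} {A : Alg n}

/-- `j : H(U',V') ≅` Tate homology of `(U,V)` -/
structure Loc (A : Alg n) (U V U' V' : Submodule F2 A.C) : Prop where
  gp : A.GP U V
  gp' : A.GP U' V'
  jU : ∀ c ∈ U', A.j c ∈ U
  jV : ∀ c ∈ V', A.j c ∈ V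
  surj : ∀ e, A.TC U V e ≤ A.WS (A.cy U' V') U V e
  inj : ∀ e, ∀ y ∈ PS (A.cy U' V') e, A.jj y ∈ A.TB U V e → ∀ i, y i ∈ Bd A.d U' V'

theorem jj_PP {U U' : Submodule F2 A.C} (jU : ∀ c ∈ U', A.j c ∈ U) {e : ℕ} {y : ℕ → A.C} (hy : y ∈ A.PP U' e) :
    A.jj y ∈ A.PP U e :=
  fun i => ⟨⟨j_mem_Hm (hy i).1.1, jU _ (hy i).1.2⟩, fun h => by rw [jj_apply, (hy i).2 h, map_zero]⟩

theorem prim {U V : Submodule F2 A.C} (hU : A.Good U) (hV : A.Good V) {e : ℕ} {y : ℕ → A.C}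
    (hy : y ∈ PS (fun i => A.Hm i ⊓ Bd A.d U V) e) : ∃ w ∈ A.PP U (e + 1), ∀ i, y i + A.d (w (i + 1)) ∈ V := by
  have h : ∀ i, ∃ w, (w ∈ A.Hm (i + 1) ∧ w ∈ U) ∧ ((i + e) % 2 = 1 → w = 0) ∧ y i + A.d w ∈ V := by
    intro i
    by_cases hi : (i + e) % 2 = 1
    · exact ⟨0, ⟨zero_mem _, zero_mem _⟩, fun _ => rfl, by simp [(hy i).2 hi]⟩
    · obtain ⟨w, h1, h2, h3⟩ := hom_Bd hU hV (hy i).1.1 (hy i).1.2
      exact ⟨w, ⟨h1, h2⟩, fun h => absurd h hi, h3⟩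
  choose w h1 h2 h3 using h
  refine ⟨fun k => Nat.casesOn k 0 w, fun k => ?_, h3⟩
  cases k with
  | zero => exact ⟨zero_mem _, fun _ => rfl⟩
  | succ k => exact ⟨h1 k, fun h => h2 k (by omega)⟩

/-- `y i = d (w (i+1)) + v i` gives `j y = Dl (j w) + j v`. -/
theorem jj_TB {U V U' V' : Submodule F2 A.C} (hU' : A.Good U') (hV' : A.Good V') (jU : ∀ c ∈ U', A.j c ∈ U)
    (jV : ∀ c ∈ V', A.j c ∈ V) {e : ℕ} {y : ℕ → A.C} (hy : y ∈ PS (fun i => A.Hm i ⊓ Bd A.d U' V') e) :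
    A.jj y ∈ A.TB U V e := by
  obtain ⟨w, hw, h⟩ := prim hU' hV' hy
  have e1 : A.jj y = A.Dl (A.jj w) + A.jj (fun i => y i + A.d (w (i + 1))) := by
    funext i
    rw [Pi.add_apply, Dl_jj, jj_apply, jj_apply, map_add, add_comm (A.j (y i)), ← add_assoc, two, zero_add]
  rw [e1]
  refine Submodule.add_mem_sup ⟨_, jj_PP jU hw, rfl⟩ (jj_PP jV fun i => ⟨⟨?_, h i⟩, fun hi => ?_⟩)
  · exact add_mem (hy i).1.1 (d_mem_Hm (hw _).1.1)
  · change y i + A.d (w (i + 1)) = 0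
    rw [(hy i).2 hi, (hw (i + 1)).2 (by omega), map_zero, add_zero]

/-- parity projection -/
def par (e : ℕ) (z : ℕ → A.C) : ℕ → A.C := fun i => if (i + e) % 2 = 0 then z i else 0

theorem Dl_par (e : ℕ) (z : ℕ → A.C) (i : ℕ) : A.Dl (par (e + 1) z) i = par e (A.Dl z) i := by
  rw [Dl_apply]
  unfold par
  by_cases hi : (i + e) % 2 = 0
  · rw [if_pos hi, if_pos (by omega), Dl_apply]
    congr 1
    refine Finset.sum_congr rfl fun k hk => ?_
    simp only [Finset.mem_filter] at hk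
    rw [if_pos (by omega)]
  · rw [if_neg hi, if_neg (by omega), map_zero, zero_add]
    refine Finset.sum_eq_zero fun k hk => ?_
    simp only [Finset.mem_filter] at hk
    rw [if_neg (by omega), map_zero]

theorem par_mem {S : ℕ → Submodule F2 A.C} {z : ℕ → A.C} (h : ∀ i, z i ∈ S i) (e : ℕ) : par e z ∈ PS S e := by
  intro i
  unfold par
  split_ifs with hi
  · exact ⟨h i, fun h => by omega⟩
  · exact ⟨zero_mem _, fun _ => rfl⟩

theorem PP_bot {e : ℕ} {z : ℕ → A.C} (h : z ∈ A.PP ⊥ e) : z = 0 := funext fun i => (mem_bot F2).1 (h i).1.2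

theorem mem_TB_bot {U : Submodule F2 A.C} {e : ℕ} {z : ℕ → A.C} (h : z ∈ A.TB U ⊥ e) :
    ∃ η ∈ A.PP U (e + 1), A.Dl η = z := by
  obtain ⟨_, ⟨η, hη, rfl⟩, v, hv, rfl⟩ := Submodule.mem_sup.1 h
  exact ⟨η, hη, by rw [PP_bot hv, add_zero]⟩

theorem mem_TC_bot {U : Submodule F2 A.C} {e : ℕ} {z : ℕ → A.C} (h : z ∈ A.PP U e) (h0 : A.Dl z = 0) :
    z ∈ A.TC U ⊥ e := ⟨h, by rw [SetLike.mem_coe, Submodule.mem_comap, h0]; exact zero_mem _⟩

/-- parity projection of `loc_surj`, `loc_inj` -/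
theorem loc_abs {l : ℝ} (hl : 0 < l) : A.Loc (A.F (2 * l)) ⊥ (A.F l) ⊥ := by
  refine ⟨gp_abs _, gp_abs _, A.j_F l, fun c hc => by simp [(mem_bot F2).1 hc], fun e z hz => ?_,
    fun e y hy hb i => ?_⟩
  · obtain ⟨y, η, hy, hη, h⟩ := A.loc_surj l hl z (fun i => (hz.1 i).1) (fun i => congrFun (PP_bot hz.2) i)
    have e1 : z = A.jj (par e y) + A.Dl (par (e + 1) η) := by
      funext i
      rw [Pi.add_apply, Dl_par, jj_apply]
      unfold par
      split_ifs with hi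
      · exact h i
      · rw [(hz.1 i).2 (by omega), map_zero, add_zero]
    rw [e1]
    refine Submodule.add_mem_sup ⟨_, par_mem (S := A.cy (A.F l) ⊥) (fun i => ⟨(hy i).1, (hy i).2.1, (hy i).2.2⟩) e, rfl⟩
      (Submodule.mem_sup_left ⟨_, par_mem (S := fun i => A.Hm i ⊓ A.F (2 * l)) hη _, rfl⟩)
  · obtain ⟨η, hη, h⟩ := mem_TB_bot hb
    obtain ⟨v, hv, h1⟩ := A.loc_inj l hl y η (fun i => ⟨(hy i).1.1, (hy i).1.2.1, (hy i).1.2.2⟩) (fun i => (hη i).1)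
      (fun i => (congrFun h i).symm) i
    rw [← h1]
    exact d_mem_Bd _ hv

theorem Loc.five {U V U' V' : Submodule F2 A.C} (hU : A.Loc U ⊥ U' ⊥) (hV : A.Loc V ⊥ V' ⊥) (h : V ≤ U) (h' : V' ≤ U') :
    A.Loc U V U' V' := by
  have gU := hU.gp.gU
  have gV := hV.gp.gU
  have gU' := hU.gp'.gU
  have gV' := hV.gp'.gU
  refine ⟨⟨gU, gV, h⟩, ⟨gU', gV', h'⟩, hU.jU, hV.jU, fun e z hz => ?_, fun e y hy hb => ?_⟩
  · have h1 : A.Dl z ∈ A.TC V ⊥ (e + 1) := mem_TC_bot hz.2 (Dl_Dl' hz.1)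
    obtain ⟨_, ⟨y', hy', rfl⟩, b, hb, h2⟩ := Submodule.mem_sup.1 (hV.surj _ h1)
    obtain ⟨η', hη', rfl⟩ := mem_TB_bot hb
    rw [PP_congr V (e' := e) (by omega)] at hη'
    have h3 : A.jj y' = A.Dl (z + η') := by rw [map_add, ← h2, add_assoc, two, add_zero]
    have h4 : z + η' ∈ A.PP U e := add_mem hz.1 (PP_mono h e hη')
    have h5 := hU.inj (e + 1) y' (PS_mono (fun i => cy_mono h' le_rfl i) _ hy')
      (Submodule.mem_sup_left ⟨_, by rwa [PP_congr U (e' := e) (by omega)], h3.symm⟩)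
    obtain ⟨v, hv, h6⟩ := prim gU' good_bot (e := e + 1) (y := y') (fun i => ⟨⟨(hy' i).1.1, h5 i⟩, (hy' i).2⟩)
    rw [PP_congr U' (e' := e) (by omega)] at hv
    have h7 : ∀ i, y' i = A.d (v (i + 1)) := fun i => add_eq_zero_iff.1 (h6 i)
    have h8 : z + η' + A.jj v ∈ A.TC U ⊥ e := by
      refine mem_TC_bot (add_mem h4 (jj_PP hU.jU hv)) ?_
      funext i
      rw [map_add, ← h3, Pi.add_apply, Dl_jj, jj_apply, h7, two, Pi.zero_apply]
    obtain ⟨_, ⟨y'', hy'', rfl⟩, b, hb, h9⟩ := Submodule.mem_sup.1 (hU.surj _ h8)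
    have e1 : z = A.jj (v + y'') + (b + η') := by
      rw [map_add]
      linear_combination (norm := abel1) -h9 - two η' - two (A.jj v)
    rw [e1]
    refine Submodule.add_mem_sup ⟨_, add_mem (fun i => ⟨⟨(hv i).1.1, (hv i).1.2, ?_⟩, (hv i).2⟩)
      (PS_mono (fun i => cy_mono le_rfl bot_le i) _ hy''), rfl⟩
      (add_mem (TB_mono le_rfl bot_le e hb) (Submodule.mem_sup_right hη'))
    change A.d (v i) ∈ V'
    cases i with
    | zero => rw [d_Hm_zero (hv 0).1.1]; exact zero_mem _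
    | succ i => rw [← h7]; exact (hy' i).1.2.1
  · obtain ⟨_, ⟨η, hη, rfl⟩, u, hu, h1⟩ := Submodule.mem_sup.1 hb
    have h2 : (fun i => A.d (y (i + 1))) ∈ PS (A.cy V' ⊥) (e + 1) := fun i =>
      ⟨⟨d_mem_Hm (hy _).1.1, (hy _).1.2.2, A.d_d _⟩, fun hi => by
        change A.d (y (i + 1)) = 0
        rw [(hy _).2 (by omega), map_zero]⟩
    have h3 : A.jj (fun i => A.d (y (i + 1))) = A.Dl u := by
      have : A.Dl (A.jj y) = A.Dl u := by rw [← h1, map_add, Dl_Dl' hη, zero_add]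
      rw [← this]
      funext i
      rw [Dl_jj, jj_apply]
    have h5 := hV.inj (e + 1) _ h2 (Submodule.mem_sup_left ⟨_, by rwa [PP_congr V (e' := e) (by omega)], h3.symm⟩)
    obtain ⟨v, hv, h6⟩ := prim gV' good_bot (e := e + 1) (fun i => ⟨⟨(h2 i).1.1, h5 i⟩, (h2 i).2⟩)
    rw [PP_congr V' (e' := e) (by omega)] at hv
    have h7 : ∀ i, A.d (y (i + 1)) = A.d (v (i + 1)) := fun i => add_eq_zero_iff.1 (h6 i)
    have h8 : u + A.jj v ∈ A.TC V ⊥ e := by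
      refine mem_TC_bot (add_mem hu (jj_PP hV.jU hv)) ?_
      funext i
      rw [map_add, ← h3, Pi.add_apply, Dl_jj, jj_apply, h7, two, Pi.zero_apply]
    obtain ⟨_, ⟨y'', hy'', rfl⟩, b, hb, h9⟩ := Submodule.mem_sup.1 (hV.surj _ h8)
    have h10 : y + v ∈ PS (A.cy U' ⊥) e := by
      intro i
      refine ⟨⟨add_mem (hy i).1.1 (hv i).1.1, add_mem (hy i).1.2.1 (h' (hv i).1.2), ?_⟩, fun hi => ?_⟩
      · change A.d (y i + v i) = 0
        cases i with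
        | zero => exact d_Hm_zero (add_mem (hy 0).1.1 (hv 0).1.1)
        | succ i => rw [map_add, h7, two]
      · rw [Pi.add_apply, (hy i).2 hi, (hv i).2 hi, add_zero]
    have h11 : A.jj (y + v + y'') = A.Dl η + b := by
      rw [map_add, map_add]
      linear_combination (norm := abel1) -h1 + h9 - two b + two u + two (A.jj v)
    have h12 := hU.inj e _ (add_mem h10 (PS_mono (fun i => cy_mono h' le_rfl i) _ hy''))
      (h11 ▸ add_mem (Submodule.mem_sup_left ⟨η, hη, rfl⟩) (TB_mono h le_rfl e hb))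
    intro i
    have e1 : y i = (y + v + y'') i + (v i + y'' i) := by
      simp only [Pi.add_apply]
      linear_combination (norm := abel1) -two (v i) - two (y'' i)
    rw [e1]
    exact add_mem (Bd_mono le_rfl bot_le (h12 i)) (le_Bd _ _ (add_mem (hv i).1.2 (hy'' i).1.2.1))

/-- five lemma -/
theorem loc_pair {l l' : ℝ} (hl : 0 < l) (h : l ≤ l') : A.Loc (A.F (2 * l')) (A.F (2 * l)) (A.F l') (A.F l) :=
  (loc_abs (hl.trans_le h)).five (loc_abs hl) (A.F_mono (by linarith)) (A.F_mono h)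

theorem Loc.WS_le_TC {U V U' V' : Submodule F2 A.C} (h : A.Loc U V U' V') {S : ℕ → Submodule F2 A.C}
    (hS : ∀ i, S i ≤ A.cy U' V' i) (e : ℕ) : A.WS S U V e ≤ A.TC U V e := by
  refine sup_le ?_ (h.gp.TB_le_TC e)
  rintro _ ⟨y, hy, rfl⟩
  refine ⟨jj_PP h.jU fun i => ⟨⟨(hS i (hy i).1).1, (hS i (hy i).1).2.1⟩, (hy i).2⟩, fun i => ?_⟩
  rw [Dl_jj]
  exact ⟨⟨j_mem_Hm (d_mem_Hm (hS _ (hy _).1).1), h.jV _ (hS _ (hy _).1).2.2⟩,
    fun hi => by rw [(hy _).2 (by omega), map_zero, map_zero]⟩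

theorem PS_mono' {M : Type} [AddCommGroup M] [Module F2 M] {S S' : ℕ → Submodule F2 M} {e : ℕ}
    (h : ∀ i, (i + e) % 2 = 0 → S i ≤ S' i) : PS S e ≤ PS S' e := by
  intro y hy i
  refine ⟨?_, (hy i).2⟩
  by_cases hi : (i + e) % 2 = 0
  · exact h i hi (hy i).1
  · rw [(hy i).2 (by omega)]
    exact zero_mem _

theorem Loc.WS_mono {U V U' V' : Submodule F2 A.C} (h : A.Loc U V U' V') {S S' : ℕ → Submodule F2 A.C}
    (hS : ∀ i, S i ≤ A.Hm i) (hS' : ∀ i, S' i ≤ A.Hm i) (e : ℕ)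
    (hle : ∀ i, (i + e) % 2 = 0 → S i ≤ S' i ⊔ Bd A.d U' V') : A.WS S U V e ≤ A.WS S' U V e := by
  refine sup_le ?_ le_sup_right
  have h1 : PS S e ≤ PS S' e ⊔ PS (fun i => A.Hm i ⊓ Bd A.d U' V') e := by
    refine (PS_mono' fun i hi x hx => ?_).trans (PS_sup _ _ e)
    obtain ⟨a, ha, b, hb, rfl⟩ := Submodule.mem_sup.1 (hle i hi hx)
    refine Submodule.add_mem_sup ha ⟨?_, hb⟩
    have := add_mem (hS' i ha) (hS i hx)
    rwa [← add_assoc, two, zero_add] at this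
  rintro _ ⟨y, hy, rfl⟩
  obtain ⟨a, ha, b, hb, rfl⟩ := Submodule.mem_sup.1 (h1 hy)
  rw [map_add]
  exact Submodule.add_mem_sup ⟨a, ha, rfl⟩ (jj_TB h.gp'.gU h.gp'.gV h.jU h.jV hb)

theorem rd_PS {S : ℕ → Submodule F2 A.C} {B : Submodule F2 A.C} {N : ℕ} (hN : ∀ i, N ≤ i → S i ≤ B) (e : ℕ) :
    rd (PS S e) (PS (fun i => S i ⊓ B) e) = sm e N (fun i => rd (S i) B) := by
  have h0 : rd (PS S e ⊓ Fl B N) (PS (fun i => S i ⊓ B) e) = 0 := by
    refine rd_eq_zero.2 fun y hy i => ⟨⟨(hy.1 i).1, ?_⟩, (hy.1 i).2⟩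
    rcases lt_or_ge i N with hi | hi
    · exact hy.2 i hi
    · exact hN i hi (hy.1 i).1
  rw [rd_eq_sum_Lam B (PS_mono (fun i => inf_le_left) e) N, h0, add_zero, sm_eq_ite]
  refine Finset.sum_congr rfl fun i _ => ?_
  have h1 : Lam B (PS (fun i => S i ⊓ B) e) i ⊔ B = B := by
    refine sup_eq_right.2 fun x hx => ?_
    obtain ⟨z, hz, _, rfl⟩ := mem_Lam.1 hx
    exact (hz i).1.2
  rw [h1]
  split_ifs with hi
  · congr 1
    apply le_antisymm
    · intro x hx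
      obtain ⟨z, hz, _, rfl⟩ := mem_Lam.1 hx
      exact (hz i).1
    · intro x hx
      exact mem_Lam.2 ⟨Pi.single i x, single_mem_PS hx hi, single_mem_Fl B i x, by simp⟩
  · refine rd_eq_zero.2 fun x hx => ?_
    obtain ⟨z, hz, _, rfl⟩ := mem_Lam.1 hx
    rw [(hz i).2 (by omega)]
    exact zero_mem _

theorem Loc.tate3 {U V U' V' : Submodule F2 A.C} (h : A.Loc U V U' V') {N : ℕ} (hN : A.Top U V N) (hN' : A.Top U' V' N)
    {S : ℕ → Submodule F2 A.C} (hS : ∀ i, S i ≤ A.cy U' V' i) (e : ℕ) :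
    sm e N (fun i => rd (A.Ld S U V i) (Bd A.d U V)) =
      sm e N (A.bo U V) + sm e N (fun i => rd (S i) (Bd A.d U' V')) := by
  have h1 := h.gp.tate1 hN e (W := A.WS S U V e) le_sup_right (h.WS_le_TC hS e)
  have h2 : rd (A.WS S U V e) (A.TB U V e) = sm e N (fun i => rd (S i) (Bd A.d U' V')) := by
    rw [← rd_PS (fun i hi => (hS i).trans (hN' i hi)) e]
    unfold WS
    rw [rd_sup, rd_map]
    apply rd_congr
    intro y hy
    constructor
    · intro hb i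
      exact ⟨⟨(hy i).1, h.inj e y (PS_mono hS e hy) hb i⟩, (hy i).2⟩
    · intro hb
      exact jj_TB h.gp'.gU h.gp'.gV h.jU h.jV fun i => ⟨⟨(hS i (hy i).1).1, (hb i).1.2⟩, (hy i).2⟩
  rw [h2, add_comm] at h1
  rw [← h1]
  refine sm_congr fun i _ hi => ?_
  unfold Ld
  rw [WS_congr S U V (e := i) (e' := e) (by omega)]

theorem Loc.tate4 {U V U' V' : Submodule F2 A.C} (h : A.Loc U V U' V') {N : ℕ} (hN : A.Top U V N) (hN' : A.Top U' V' N)
    (e : ℕ) : sm e N (A.hd U V) = sm e N (A.bo U V) + sm (e + 1) N (A.bo U V) + sm e N (A.hd U' V') := by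
  have h1 := h.tate3 hN hN' (S := A.cy U' V') (fun _ => le_rfl) e
  have h2 : ∀ i, A.Ld (A.cy U' V') U V i = A.Zz U V i := fun i => by
    unfold Ld Zz
    rw [le_antisymm (h.WS_le_TC (fun _ => le_rfl) i) (h.surj i)]
  have h3 : ∀ i, A.hd U V i = rd (A.cy U V i) (A.Zz U V i ⊔ Bd A.d U V) + rd (A.Zz U V i) (Bd A.d U V) := fun i => by
    have : A.Zz U V i ≤ A.cy U V i := h.gp.Lam_le_cy le_rfl i
    rw [← rd_sup_left, sup_eq_left.2 this]
    rfl
  simp only [h2] at h1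
  rw [sm_congr (fun i _ _ => h3 i), sm_add, h.gp.tate2 hN e, h1, add_right_comm, add_comm]
  rfl

end Crest.Agent.R231.Alg
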