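import Crest.Agent.R231.Alg.Jump

/-! R231, block Alg: the Smith-theoretic argument (see notes231/R231.md, section Alg). -/

set_option autoImplicit false
noncomputable section
namespace Crest.Agent.R231

theorem Alg.false {n : ℕ} (hn : 2 ≤ n) (A : Alg n) : False := Alg.final hn A

end Crest.Agent.R231
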