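import Crest.Agent.R231.Alg.Defs

/-!
# R231/Alg: relative dimension `rd A B = dim (A + B)/B` of submodules (values in `ℕ∞`), homology `hh δ A B` of a pair
-/

set_option autoImplicit false
open Submodule

noncomputable section
namespace Crest.Agent.R231.Alg

variable {M M' : Type} [AddCommGroup M] [Module F2 M] [AddCommGroup M'] [Module F2 M']

theorem two (x : M) : x + x = 0 := by
  have h : (1 + 1 : F2) = 0 := by decide
  calc x + x = (1 + 1 : F2) • x := by rw [add_smul, one_smul]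
    _ = 0 := by rw [h, zero_smul]

theorem add_eq_zero_iff {x y : M} : x + y = 0 ↔ x = y := by
  constructor
  · intro h
    linear_combination (norm := abel1) h - two y
  · rintro rfl
    exact two x

/-- `dim (A + B)/B = dim A/(A ⊓ B)` -/
def rd (A B : Submodule F2 M) : ℕ∞ := Cardinal.toENat (Module.rank F2 (A.map B.mkQ))

theorem rank_map_congr {N N' : Type} [AddCommGroup N] [Module F2 N] [AddCommGroup N'] [Module F2 N']
    (A : Submodule F2 M) (f : M →ₗ[F2] N) (g : M →ₗ[F2] N') (h : ∀ x ∈ A, f x = 0 ↔ g x = 0) :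
    Module.rank F2 (A.map f) = Module.rank F2 (A.map g) := by
  have hk : LinearMap.ker (f.domRestrict A) = LinearMap.ker (g.domRestrict A) := by
    ext x
    simpa using h x x.2
  rw [← LinearMap.range_domRestrict, ← LinearMap.range_domRestrict,
    ← (f.domRestrict A).quotKerEquivRange.rank_eq, ← (g.domRestrict A).quotKerEquivRange.rank_eq, hk]

theorem rd_congr {A B B' : Submodule F2 M} (h : ∀ x ∈ A, x ∈ B ↔ x ∈ B') : rd A B = rd A B' := by
  unfold rd
  rw [rank_map_congr A B.mkQ B'.mkQ]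
  intro x hx
  simpa using h x hx

theorem rd_map (f : M →ₗ[F2] M') (A : Submodule F2 M) (B : Submodule F2 M') :
    rd (A.map f) B = rd A (B.comap f) := by
  unfold rd
  rw [← Submodule.map_comp, rank_map_congr A (B.mkQ ∘ₗ f) (B.comap f).mkQ]
  intro x _
  simp

theorem rd_sup (A B : Submodule F2 M) : rd (A ⊔ B) B = rd A B := by
  unfold rd
  rw [Submodule.map_sup, Submodule.mkQ_map_self, sup_bot_eq]

theorem rd_inf (A B : Submodule F2 M) : rd A (A ⊓ B) = rd A B :=
  rd_congr fun _ hx => ⟨fun h => h.2, fun h => ⟨hx, h⟩⟩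

theorem rd_eq_zero {A B : Submodule F2 M} : rd A B = 0 ↔ A ≤ B := by
  unfold rd
  rw [Cardinal.toENat_eq_zero, rank_zero_iff_forall_zero]
  constructor
  · intro h x hx
    have := congrArg Subtype.val (h ⟨B.mkQ x, Submodule.mem_map_of_mem hx⟩)
    simpa using this
  · rintro h ⟨_, x, hx, rfl⟩
    ext
    simpa using h hx

theorem rd_mono_left {A A' : Submodule F2 M} (h : A ≤ A') (B : Submodule F2 M) : rd A B ≤ rd A' B := by
  unfold rd
  exact OrderHomClass.mono _ (Submodule.rank_mono (Submodule.map_mono h))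

/-- additivity -/
theorem rd_add' (A : Submodule F2 M) {B C : Submodule F2 M} (h : C ≤ B) : rd (A ⊔ B) C = rd A B + rd B C := by
  unfold rd
  rw [← map_add]
  congr 1
  set φ : (M ⧸ C) →ₗ[F2] M ⧸ B := Submodule.factor h with hφ
  have h1 := LinearMap.rank_range_add_rank_ker (φ.domRestrict ((A ⊔ B).map C.mkQ))
  rw [← h1]
  congr 1
  · rw [LinearMap.range_domRestrict, ← Submodule.map_comp, hφ, Submodule.factor_comp_mk, Submodule.map_sup,
      Submodule.mkQ_map_self, sup_bot_eq]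
  · have hle : B.map C.mkQ ≤ (A ⊔ B).map C.mkQ := Submodule.map_mono le_sup_right
    rw [← (Submodule.comapSubtypeEquivOfLe hle).rank_eq]
    suffices hk : LinearMap.ker (φ.domRestrict ((A ⊔ B).map C.mkQ)) =
        (B.map C.mkQ).comap ((A ⊔ B).map C.mkQ).subtype by rw [hk]
    ext ⟨x, hx⟩
    obtain ⟨y, hy, rfl⟩ := hx
    simp only [LinearMap.mem_ker, LinearMap.domRestrict_apply, Submodule.mem_comap, Submodule.subtype_apply,
      Submodule.mem_map, hφ, Submodule.mkQ_apply]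
    constructor
    · intro h2
      refine ⟨y, ?_, rfl⟩
      have : B.mkQ y = 0 := h2
      simpa using this
    · rintro ⟨z, hz, h2⟩
      rw [← h2]
      change B.mkQ z = 0
      simpa using hz

theorem rd_add {A B C : Submodule F2 M} (h1 : C ≤ B) (h2 : B ≤ A) : rd A C = rd A B + rd B C := by
  rw [← rd_add' A h1, sup_eq_left.2 h2]

theorem rd_anti_right (A : Submodule F2 M) {B C : Submodule F2 M} (h : C ≤ B) : rd A B ≤ rd A C := by
  rw [← rd_inf A C, rd_add (inf_le_inf_left A h) inf_le_left, rd_inf]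
  exact le_self_add

/-- `rd A C = rd A B + rd (A ⊓ B) C` for `C ≤ B` -/
theorem rd_add_inf (A : Submodule F2 M) {B C : Submodule F2 M} (h : C ≤ B) : rd A C = rd A B + rd (A ⊓ B) C := by
  rw [← rd_inf A C, rd_add (inf_le_inf_left A h) inf_le_left, rd_inf]
  congr 1
  exact rd_congr fun x hx => ⟨fun h => h.2, fun h => ⟨hx.1, h⟩⟩

theorem rd_le_add (A B C : Submodule F2 M) : rd A C ≤ rd A B + rd (A ⊓ B) C := by
  rw [← rd_inf A C]
  calc rd A (A ⊓ C) ≤ rd A (A ⊓ B ⊓ C) := rd_anti_right A (inf_le_inf_right C inf_le_left)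
    _ = rd A (A ⊓ B) + rd (A ⊓ B) (A ⊓ B ⊓ C) := rd_add inf_le_left inf_le_left
    _ = _ := by rw [rd_inf, rd_inf]

theorem rd_sup_left (A A' B : Submodule F2 M) : rd (A ⊔ A') B = rd A (A' ⊔ B) + rd A' B := by
  rw [← rd_sup (A ⊔ A') B, sup_assoc, rd_add' A le_sup_right, rd_sup]

theorem rd_sup_le (A A' B : Submodule F2 M) : rd (A ⊔ A') B ≤ rd A B + rd A' B := by
  rw [rd_sup_left]
  exact add_le_add (rd_anti_right A le_sup_right) le_rfl

theorem rd_le_of_le_sup {A A' B : Submodule F2 M} (h : A ≤ A' ⊔ B) : rd A B ≤ rd A' B := by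
  rw [← rd_sup A' B]
  exact rd_mono_left h B

theorem rd_eq_of_le_sup {A A' B : Submodule F2 M} (h : A ≤ A' ⊔ B) (h' : A' ≤ A ⊔ B) : rd A B = rd A' B :=
  le_antisymm (rd_le_of_le_sup h) (rd_le_of_le_sup h')

/-- equal finite dimensions -/
theorem le_sup_of_rd_le {A A' B : Submodule F2 M} (h : A ≤ A' ⊔ B) (hle : rd A' B ≤ rd A B) (hfin : rd A B ≠ ⊤) :
    A' ≤ A ⊔ B := by
  have h1 : rd (A' ⊔ A) B = rd A' (A ⊔ B) + rd A B := rd_sup_left A' A B
  have h2 : rd (A' ⊔ A) B ≤ rd A B := (rd_le_of_le_sup (sup_le le_sup_left h)).trans hle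
  rw [h1] at h2
  have h3 : rd A' (A ⊔ B) = 0 := by
    have := (ENat.add_le_add_iff_right hfin).1 (h2.trans (zero_add _).ge)
    exact le_antisymm this (zero_le)
  exact rd_eq_zero.1 h3

/-- Grassmann formula -/
theorem rd_sup_add_inf (A A' B : Submodule F2 M) :
    rd (A ⊔ A') B + rd (A ⊓ (A' ⊔ B)) B = rd A B + rd A' B := by
  rw [rd_sup_left, rd_add_inf A (le_sup_right : B ≤ A' ⊔ B), add_right_comm]

theorem rd_le_of_hrk {A B : Submodule F2 M} {R : ℕ} (h : Module.rank F2 (A.map B.mkQ) ≤ R) : rd A B ≤ R := by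
  unfold rd
  simpa using OrderHomClass.mono Cardinal.toENat h

theorem rd_span_le (x : M) (B : Submodule F2 M) : rd (F2 ∙ x) B ≤ 1 := by
  refine rd_le_of_hrk (R := 1) ?_
  rw [Submodule.map_span, Set.image_singleton]
  simpa using rank_span_le (R := F2) {B.mkQ x}

theorem rd_ker_le (A : Submodule F2 M) (φ : M →ₗ[F2] F2) : rd A (LinearMap.ker φ) ≤ 1 := by
  rw [← Submodule.comap_bot, ← rd_map]
  refine (rd_mono_left (A' := F2 ∙ (1 : F2)) ?_ _).trans (rd_span_le _ _)
  intro x _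
  exact Submodule.mem_span_singleton.2 ⟨x, by simp⟩

theorem one_le_rd {A B : Submodule F2 M} {x : M} (hx : x ∈ A) (hx' : x ∉ B) : 1 ≤ rd A B :=
  Order.one_le_iff_ne_zero.2 fun h => hx' (rd_eq_zero.1 h hx)

/-! ### homology of a pair for a differential `δ` -/

/-- relative cycles -/
def Cy (δ : M →ₗ[F2] M) (A B : Submodule F2 M) : Submodule F2 M := A ⊓ B.comap δ
/-- relative boundaries -/
def Bd (δ : M →ₗ[F2] M) (A B : Submodule F2 M) : Submodule F2 M := A.map δ ⊔ B
/-- dimension of the homology of the pair -/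
def hh (δ : M →ₗ[F2] M) (A B : Submodule F2 M) : ℕ∞ := rd (Cy δ A B) (Bd δ A B)

theorem mem_Cy {δ : M →ₗ[F2] M} {A B : Submodule F2 M} {x : M} : x ∈ Cy δ A B ↔ x ∈ A ∧ δ x ∈ B := Iff.rfl

theorem mem_Bd {δ : M →ₗ[F2] M} {A B : Submodule F2 M} {x : M} : x ∈ Bd δ A B ↔ ∃ w ∈ A, x + δ w ∈ B := by
  unfold Bd
  rw [Submodule.mem_sup]
  constructor
  · rintro ⟨_, ⟨w, hw, rfl⟩, b, hb, rfl⟩
    refine ⟨w, hw, ?_⟩
    have : δ w + b + δ w = b := by linear_combination (norm := abel1) two (δ w)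
    rwa [this]
  · rintro ⟨w, hw, h⟩
    exact ⟨δ w, ⟨w, hw, rfl⟩, _, h, by linear_combination (norm := abel1) two (δ w)⟩

/-- long exact sequence of the triple `C ≤ B ≤ A` -/
theorem triple (δ : M →ₗ[F2] M) (hδ : ∀ x, δ (δ x) = 0) {A B C : Submodule F2 M} (hCB : C ≤ B) (hBA : B ≤ A)
    (hB : ∀ x ∈ B, δ x ∈ B) (hC : ∀ x ∈ C, δ x ∈ C) :
    ∃ r₂ r₃ : ℕ∞, hh δ B C = rd (Cy δ B C) (Bd δ A C) + r₃ ∧ hh δ A C = rd (Cy δ B C) (Bd δ A C) + r₂ ∧
      hh δ A B = r₂ + r₃ := by
  refine ⟨rd (Cy δ A C) (Bd δ A B), rd (Cy δ B C ⊓ Bd δ A C) (Bd δ B C), ?_, ?_, ?_⟩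
  · exact rd_add_inf _ (sup_le_sup_right (Submodule.map_mono hBA) C)
  · unfold hh
    have h0 : Bd δ A C ≤ Bd δ A B := sup_le_sup_left hCB _
    rw [rd_add_inf (Cy δ A C) h0, add_comm]
    congr 1
    apply rd_eq_of_le_sup
    · rintro x ⟨⟨hxA, hx⟩, hb⟩
      obtain ⟨w, hw, h⟩ := mem_Bd.1 hb
      have e : x = (x + δ w) + δ w := by linear_combination (norm := abel1) -two (δ w)
      rw [e]
      refine Submodule.add_mem_sup ⟨h, ?_⟩ (Submodule.mem_sup_left ⟨w, hw, rfl⟩)
      change δ (x + δ w) ∈ C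
      rw [map_add, hδ, add_zero]
      exact hx
    · intro x hx
      exact Submodule.mem_sup_left ⟨⟨hBA hx.1, hx.2⟩, Submodule.mem_sup_right hx.1⟩
  · unfold hh
    have e1 : rd (Cy δ B C ⊓ Bd δ A C) (Bd δ B C) = rd (Cy δ A B) (Cy δ A C ⊔ Bd δ A B) := by
      calc rd (Cy δ B C ⊓ Bd δ A C) (Bd δ B C) = rd ((Cy δ A B).map δ) (Bd δ B C) := by
            apply rd_eq_of_le_sup
            · rintro x ⟨⟨hxB, hx⟩, hb⟩
              obtain ⟨w, hw, h⟩ := mem_Bd.1 hb
              have e : x = δ w + (x + δ w) := by linear_combination (norm := abel1) -two (δ w)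
              rw [e]
              refine Submodule.add_mem_sup ⟨w, ⟨hw, ?_⟩, rfl⟩ (Submodule.mem_sup_right h)
              have e2 : δ w = x + (x + δ w) := by linear_combination (norm := abel1) -two x
              change δ w ∈ B
              rw [e2]
              exact B.add_mem hxB (hCB h)
            · rintro _ ⟨w, ⟨hw, hw'⟩, rfl⟩
              refine Submodule.mem_sup_left ⟨⟨hw', ?_⟩, Submodule.mem_sup_left ⟨w, hw, rfl⟩⟩
              change δ (δ w) ∈ C
              rw [hδ]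
              exact C.zero_mem
        _ = rd (Cy δ A B) ((Bd δ B C).comap δ) := rd_map _ _ _
        _ = _ := by
            apply rd_congr
            rintro x ⟨hxA, hx⟩
            constructor
            · intro h
              obtain ⟨w, hw, h⟩ := mem_Bd.1 h
              have e : x = (x + w) + w := by linear_combination (norm := abel1) -two w
              rw [e]
              refine Submodule.add_mem_sup ⟨A.add_mem hxA (hBA hw), ?_⟩ (Submodule.mem_sup_right hw)
              change δ (x + w) ∈ C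
              rwa [map_add]
            · intro h
              obtain ⟨y, ⟨hyA, hy⟩, b, hb, rfl⟩ := Submodule.mem_sup.1 h
              obtain ⟨w, hw, h⟩ := mem_Bd.1 hb
              refine mem_Bd.2 ⟨b + δ w, h, ?_⟩
              rw [map_add, map_add, hδ, add_zero]
              have e : δ y + δ b + δ b = δ y := by linear_combination (norm := abel1) two (δ b)
              rw [e]
              exact hy
    have h0 : Cy δ A C ≤ Cy δ A B := fun x hx => ⟨hx.1, hCB hx.2⟩
    rw [e1, ← rd_sup (Cy δ A B) (Bd δ A B),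
      rd_add (le_sup_right : Bd δ A B ≤ Cy δ A C ⊔ Bd δ A B) (sup_le_sup_right h0 _), rd_sup, add_comm]
    congr 1
    rw [← rd_sup (Cy δ A B) (Cy δ A C ⊔ Bd δ A B)]
    congr 1
    apply le_antisymm
    · exact sup_le_sup_left le_sup_right _
    · exact sup_le le_sup_left (sup_le_sup_right h0 _)

/-- `dim A/B = dim H(A/B) + 2 rank δ` -/
theorem rd_eq_hh (δ : M →ₗ[F2] M) (hδ : ∀ x, δ (δ x) = 0) {A B : Submodule F2 M} (hBA : B ≤ A)
    (hA : ∀ x ∈ A, δ x ∈ A) (hB : ∀ x ∈ B, δ x ∈ B) : rd A B = hh δ A B + 2 * rd (A.map δ) B := by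
  have h1 : B ≤ Bd δ A B := le_sup_right
  have h2 : Bd δ A B ≤ Cy δ A B := by
    refine sup_le ?_ fun x hx => ⟨hBA hx, hB x hx⟩
    rintro _ ⟨w, hw, rfl⟩
    refine ⟨hA w hw, ?_⟩
    change δ (δ w) ∈ B
    rw [hδ]
    exact B.zero_mem
  rw [rd_add (h1.trans h2) (inf_le_left : Cy δ A B ≤ A), rd_add h1 h2]
  have e1 : rd A (Cy δ A B) = rd (A.map δ) B := by
    rw [rd_map]
    exact rd_inf _ _
  have e2 : rd (Bd δ A B) B = rd (A.map δ) B := rd_sup _ _
  rw [e1, e2, two_mul]
  unfold hh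
  ac_rfl

/-- transfer along a map `f` commuting with `δ`: `A/(A ⊓ f⁻¹ B') ≅ (f A + B')/B'` -/
theorem hh_transfer (δ f : M →ₗ[F2] M) (hf : ∀ x, f (δ x) = δ (f x)) {A B B' : Submodule F2 M}
    (hA : ∀ x ∈ A, δ x ∈ A) (hB' : ∀ x ∈ B', δ x ∈ B') (hB : ∀ x, x ∈ B ↔ x ∈ A ∧ f x ∈ B') :
    hh δ A B = hh δ (A.map f ⊔ B') B' := by
  unfold hh
  calc rd (Cy δ A B) (Bd δ A B) = rd (Cy δ A B) ((Bd δ (A.map f ⊔ B') B').comap f) := by
        apply rd_congr
        rintro x ⟨hxA, hx⟩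
        rw [Submodule.mem_comap, mem_Bd, mem_Bd]
        constructor
        · rintro ⟨w, hw, h⟩
          refine ⟨f w, Submodule.mem_sup_left ⟨w, hw, rfl⟩, ?_⟩
          rw [← hf, ← map_add]
          exact ((hB _).1 h).2
        · rintro ⟨w, hw, h⟩
          obtain ⟨_, ⟨a, ha, rfl⟩, b, hb, rfl⟩ := Submodule.mem_sup.1 hw
          refine ⟨a, ha, (hB _).2 ⟨A.add_mem hxA (hA a ha), ?_⟩⟩
          have e : f (x + δ a) = (f x + δ (f a + b)) + δ b := by
            rw [map_add, map_add, hf]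
            linear_combination (norm := abel1) -two (δ b)
          rw [e]
          exact B'.add_mem h (hB' b hb)
    _ = rd ((Cy δ A B).map f) (Bd δ (A.map f ⊔ B') B') := (rd_map _ _ _).symm
    _ = _ := by
        apply rd_eq_of_le_sup
        · rintro _ ⟨x, ⟨hxA, hx⟩, rfl⟩
          refine Submodule.mem_sup_left ⟨Submodule.mem_sup_left ⟨x, hxA, rfl⟩, ?_⟩
          change δ (f x) ∈ B'
          rw [← hf]
          exact ((hB _).1 hx).2
        · rintro y ⟨hy, hy'⟩
          obtain ⟨_, ⟨a, ha, rfl⟩, b, hb, rfl⟩ := Submodule.mem_sup.1 hy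
          refine Submodule.add_mem_sup ⟨a, ⟨ha, (hB _).2 ⟨hA a ha, ?_⟩⟩, rfl⟩ (Submodule.mem_sup_right hb)
          have e : f (δ a) = δ (f a + b) + δ b := by
            rw [map_add, hf]
            linear_combination (norm := abel1) -two (δ b)
          rw [e]
          exact B'.add_mem hy' (hB' b hb)

/-- filtration of sequences: components `< i` lie in `V` -/
def Fl (V : Submodule F2 M) (i : ℕ) : Submodule F2 (ℕ → M) where
  carrier := {z | ∀ k < i, z k ∈ V}
  add_mem' := fun ha hb k hk => V.add_mem (ha k hk) (hb k hk)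
  zero_mem' := fun _ _ => V.zero_mem
  smul_mem' := fun c _ hx k hk => V.smul_mem c (hx k hk)

theorem mem_Fl {V : Submodule F2 M} {i : ℕ} {z : ℕ → M} : z ∈ Fl V i ↔ ∀ k < i, z k ∈ V := Iff.rfl

theorem Fl_anti (V : Submodule F2 M) {i k : ℕ} (h : i ≤ k) : Fl V k ≤ Fl V i :=
  fun _ hz a ha => hz a (lt_of_lt_of_le ha h)

theorem Fl_zero (V : Submodule F2 M) : Fl V 0 = ⊤ := by
  ext z
  simp [mem_Fl]

/-- leading terms in degree `i` -/
def Lam (V : Submodule F2 M) (W : Submodule F2 (ℕ → M)) (i : ℕ) : Submodule F2 M :=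
  (W ⊓ Fl V i).map (LinearMap.proj i)

theorem mem_Lam {V : Submodule F2 M} {W : Submodule F2 (ℕ → M)} {i : ℕ} {x : M} :
    x ∈ Lam V W i ↔ ∃ z ∈ W, z ∈ Fl V i ∧ z i = x := by
  constructor
  · rintro ⟨z, ⟨h1, h2⟩, rfl⟩
    exact ⟨z, h1, h2, rfl⟩
  · rintro ⟨z, h1, h2, rfl⟩
    exact ⟨z, ⟨h1, h2⟩, rfl⟩

theorem Lam_mono (V : Submodule F2 M) {W W' : Submodule F2 (ℕ → M)} (h : W ≤ W') (i : ℕ) : Lam V W i ≤ Lam V W' i :=
  Submodule.map_mono (inf_le_inf_right _ h)

/-- the dimension is the sum of the dimensions of the leading terms -/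
theorem rd_eq_sum_Lam (V : Submodule F2 M) {W W₀ : Submodule F2 (ℕ → M)} (h : W₀ ≤ W) (N : ℕ) :
    rd W W₀ = ∑ i ∈ Finset.range N, rd (Lam V W i) (Lam V W₀ i ⊔ V) + rd (W ⊓ Fl V N) W₀ := by
  induction N with
  | zero => simp [Fl_zero]
  | succ N ih =>
    rw [Finset.sum_range_succ, ih, add_assoc]
    congr 1
    have e1 : W ⊓ Fl V N = (W ⊓ Fl V N) ⊔ (W ⊓ Fl V (N + 1)) :=
      (sup_eq_left.2 (inf_le_inf_left W (Fl_anti V (Nat.le_succ N)))).symm
    rw [e1, rd_sup_left]
    congr 1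
    unfold Lam
    rw [rd_map]
    apply rd_congr
    rintro z ⟨hzW, hz⟩
    constructor
    · intro h1
      obtain ⟨a, ha, b, hb, rfl⟩ := Submodule.mem_sup.1 h1
      rw [Submodule.mem_comap, map_add, add_comm]
      refine Submodule.add_mem_sup ⟨b, ⟨hb, ?_⟩, rfl⟩ (ha.2 N (Nat.lt_succ_self N))
      have e : b = (a + b) + a := by linear_combination (norm := abel1) -two a
      rw [e]
      exact (Fl V N).add_mem hz (Fl_anti V (Nat.le_succ N) ha.2)
    · intro h1
      obtain ⟨_, ⟨b, ⟨hb, hb'⟩, rfl⟩, v, hv, h2⟩ := Submodule.mem_sup.1 h1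
      have e : z = (z + b) + b := by linear_combination (norm := abel1) -two b
      rw [e]
      refine Submodule.add_mem_sup ⟨W.add_mem hzW (h hb), fun k hk => ?_⟩ hb
      rcases Nat.lt_succ_iff_lt_or_eq.1 hk with hk | rfl
      · exact V.add_mem (hz k hk) (hb' k hk)
      · have h3 : b k + v = z k := h2
        have e2 : (z + b) k = v := by
          rw [Pi.add_apply, ← h3]
          linear_combination (norm := abel1) two (b k)
        rw [e2]
        exact hv

end Crest.Agent.R231.Alg
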