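import Crest.Agent.R231.Alg.Count

/-! # R231/Alg: the Smith inequality (A3) and `K* = Lead (j K'*)` (A4) -/

set_option autoImplicit false
open Submodule

noncomputable section
namespace Crest.Agent.R231.Alg

variable {n : ℕ} {A : Alg n}

/-- number of dying classes of G-parity -/
def NG (A : Alg n) (l : ℝ) : ℕ∞ := ∑ᶠ i, if (i + (n + 1)) % 2 = 0 then A.kd l i else 0

theorem Kk_le (l : ℝ) (i : ℕ) : A.Kk l i ≤ A.cy (A.F l) ⊥ i := inf_le_left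

theorem NG_eq {l : ℝ} {N : ℕ} (hN : A.Top (A.F l) ⊥ N) : A.NG l = sm (n + 1) N (A.kd l) := by
  rw [sm_eq_ite]
  apply finsum_eq_sum_of_support_subset
  intro i hi
  rw [Finset.coe_range, Set.mem_Iio]
  by_contra h
  apply hi
  have : A.kd l i = 0 := rd_eq_zero.2 ((Kk_le l i).trans (hN i (not_lt.1 h)))
  simp [this]

theorem top_abs (A : Alg n) (l : ℝ) : ∃ N, A.Top (A.F l) ⊥ N := (gp_abs l).exists_top (fin_abs l)

theorem top_pair (A : Alg n) {l l' : ℝ} (h : l ≤ l') : ∃ N, A.Top (A.F l') (A.F l) N :=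
  (gp_pair h).exists_top (fin_pair h)

theorem NG_bound (A : Alg n) : ∃ M : ℕ, ∀ l, 0 < l → A.NG l ≤ M := by
  obtain ⟨M, hM⟩ := A.kd_bound
  refine ⟨M, fun l hl => ?_⟩
  obtain ⟨N, hN⟩ := A.top_abs l
  rw [NG_eq hN]
  exact hM l hl _

theorem NG_ne_top (l : ℝ) : A.NG l ≠ ⊤ := by
  obtain ⟨N, hN⟩ := A.top_abs l
  rw [NG_eq hN]
  exact (gp_abs l).sm_ne_top (fin_abs l) (fun i => le_sup_of_le_left (Kk_le l i)) _ _

/-- "full" at level `2l` -/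
def Full (A : Alg n) (l : ℝ) : Prop := ∀ i, (i + (n + 1)) % 2 = 0 →
  A.Kk (2 * l) i ≤ A.Ld (A.Kk l) (A.F (2 * l)) ⊥ i ⊔ Bd A.d (A.F (2 * l)) ⊥ ∧
    A.Kk (2 * l) i ⊓ (A.Bo (A.F (2 * l)) ⊥ i ⊔ Bd A.d (A.F (2 * l)) ⊥) ≤ Bd A.d (A.F (2 * l)) ⊥

theorem Ld_Kk_le {l : ℝ} (hl : 0 < l) (hs : A.Stab l) {i : ℕ} (hi : (i + (n + 1)) % 2 = 0) :
    A.Ld (A.Kk l) (A.F (2 * l)) ⊥ i ≤ A.Kk (2 * l) i ⊔ A.Bo (A.F (2 * l)) ⊥ i := by
  have hC := A.Cg_pos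
  have h1 : A.WS (A.Kk l) (A.F (2 * l)) ⊥ i ≤ A.TB (A.F (2 * (l + A.Cg))) ⊥ i := by
    refine sup_le ?_ (TB_mono (A.F_mono (by linarith)) le_rfl i)
    rintro _ ⟨y, hy, rfl⟩
    refine jj_TB (good_F (l + A.Cg)) good_bot (A.j_F _) (fun c hc => by simp [(mem_bot F2).1 hc]) fun k =>
      ⟨⟨(hy k).1.1.1, ?_⟩, (hy k).2⟩
    obtain ⟨w, hw, h⟩ := A.bars l _ (hy k).1.1.2.1 (hy k).1.2
    rw [← h]
    exact d_mem_Bd _ hw
  intro x hx
  have hxc : x ∈ A.cy (A.F (2 * l)) ⊥ i := (gp_abs _).Lam_le_cy ((loc_abs hl).WS_le_TC (Kk_le l) i) i hx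
  obtain ⟨b, hb, ρ, hρ, rfl⟩ := Submodule.mem_sup.1 (hs (l + A.Cg) (by linarith) i hi (Lam_mono ⊥ h1 i hx))
  rw [add_comm]
  refine Submodule.add_mem_sup ⟨?_, hρ⟩ hb
  have := add_mem ((gp_abs _).Bo_le_cy i hb) hxc
  rwa [← add_assoc, two, zero_add] at this

theorem smith {l : ℝ} (hl : 0 < l) (hs : A.Stab l) : A.NG l ≤ A.NG (2 * l) ∧ (A.NG (2 * l) ≤ A.NG l → A.Full l) := by
  obtain ⟨N₁, h₁⟩ := A.top_abs (2 * l)
  obtain ⟨N₂, h₂⟩ := A.top_abs l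
  replace h₁ := h₁.mono (le_max_left N₁ N₂)
  replace h₂ := h₂.mono (le_max_right N₁ N₂)
  set N := max N₁ N₂
  set B := Bd A.d (A.F (2 * l)) ⊥ with hB
  have h3 := (loc_abs hl).tate3 h₁ h₂ (Kk_le l) (n + 1)
  change _ = _ + sm (n + 1) N (A.kd l) at h3
  rw [← NG_eq h₂] at h3
  have h4 : sm (n + 1) N (fun i => rd (A.Kk (2 * l) i ⊔ A.Bo (A.F (2 * l)) ⊥ i) B) +
      sm (n + 1) N (fun i => rd (A.Kk (2 * l) i ⊓ (A.Bo (A.F (2 * l)) ⊥ i ⊔ B)) B) =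
      A.NG (2 * l) + sm (n + 1) N (A.bo (A.F (2 * l)) ⊥) := by
    rw [NG_eq h₁, ← sm_add, ← sm_add]
    exact sm_congr fun i _ _ => rd_sup_add_inf _ _ _
  have h5 : ∀ i < N, (i + (n + 1)) % 2 = 0 →
      rd (A.Ld (A.Kk l) (A.F (2 * l)) ⊥ i) B ≤ rd (A.Kk (2 * l) i ⊔ A.Bo (A.F (2 * l)) ⊥ i) B :=
    fun i _ hi => rd_mono_left (Ld_Kk_le hl hs hi) B
  have hbo : sm (n + 1) N (A.bo (A.F (2 * l)) ⊥) ≠ ⊤ :=
    (gp_abs _).sm_ne_top (fin_abs _) (fun i => le_sup_of_le_left ((gp_abs _).Bo_le_cy i)) _ _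
  have h6 : A.NG l + sm (n + 1) N (fun i => rd (A.Kk (2 * l) i ⊓ (A.Bo (A.F (2 * l)) ⊥ i ⊔ B)) B) ≤ A.NG (2 * l) := by
    have := (add_le_add (sm_le h5) le_rfl).trans h4.le
    rw [h3, add_assoc, add_comm] at this
    exact (ENat.add_le_add_iff_right hbo).1 this
  refine ⟨le_self_add.trans h6, fun h7 i hi => ?_⟩
  rcases le_or_gt N i with hN | hN
  · exact ⟨le_sup_of_le_right ((Kk_le _ i).trans (h₁ i hN)), inf_le_left.trans ((Kk_le _ i).trans (h₁ i hN))⟩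
  have h8 : sm (n + 1) N (fun i => rd (A.Kk (2 * l) i ⊓ (A.Bo (A.F (2 * l)) ⊥ i ⊔ B)) B) ≤ 0 :=
    (ENat.add_le_add_iff_left (NG_ne_top l)).1 (h6.trans (h7.trans (add_zero _).ge))
  have hfin : sm (n + 1) N (fun i => rd (A.Ld (A.Kk l) (A.F (2 * l)) ⊥ i) B) ≠ ⊤ := by
    rw [h3]
    exact WithTop.add_ne_top.2 ⟨hbo, NG_ne_top l⟩
  refine ⟨le_sup_left.trans (le_sup_of_rd_le (le_sup_of_le_left (Ld_Kk_le hl hs hi)) ?_ ?_), rd_eq_zero.1 ?_⟩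
  · refine eq_of_sm_le h5 ?_ hfin i hN hi
    rw [h3]
    exact le_self_add.trans (h4.le.trans ((add_le_add h7 le_rfl).trans (add_comm _ _).le))
  · exact ne_top_of_le_ne_top hfin (le_sm (fun i => rd (A.Ld (A.Kk l) (A.F (2 * l)) ⊥ i) B) hN hi)
  · exact le_antisymm ((le_sm (fun i => rd (A.Kk (2 * l) i ⊓ (A.Bo (A.F (2 * l)) ⊥ i ⊔ B)) B) hN hi).trans h8) zero_le

/-- representatives of `K*` -/
def KS (A : Alg n) (l : ℝ) (i : ℕ) : Submodule F2 A.C := if (i + (n + 1)) % 2 = 0 then A.Kk l i else A.cy (A.F l) ⊥ i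

theorem KS_le (l : ℝ) (i : ℕ) : A.KS l i ≤ A.cy (A.F l) ⊥ i := by
  unfold KS
  split_ifs
  · exact inf_le_left
  · exact le_rfl

theorem KS_G (l : ℝ) {i : ℕ} (hi : (i + (n + 1)) % 2 = 0) : A.KS l i = A.Kk l i := if_pos hi
theorem KS_B (l : ℝ) {i : ℕ} (hi : (i + n) % 2 = 0) : A.KS l i = A.cy (A.F l) ⊥ i := if_neg (by omega)

/-- a homogeneous cycle of `F l'` which is a relative boundary is homologous to a cycle of `F l` -/
theorem cy_Bd_split {l l' : ℝ} {i : ℕ} {x : A.C} (hx : x ∈ A.cy (A.F l') ⊥ i) (hb : x ∈ Bd A.d (A.F l') (A.F l)) :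
    ∃ w, w ∈ A.Hm (i + 1) ∧ w ∈ A.F l' ∧ x + A.d w ∈ A.cy (A.F l) ⊥ i := by
  obtain ⟨w, h1, h2, h3⟩ := hom_Bd (good_F l') (good_F l) hx.1 hb
  refine ⟨w, h1, h2, add_mem hx.1 (d_mem_Hm h1), h3, ?_⟩
  change A.d (x + A.d w) = 0
  rw [map_add, A.d_d, add_zero]
  exact hx.2.2

/-- the rank of the connecting map `H_{i+1}(F l', F l) → H_i(F l)` -/
theorem rd_del {l l' : ℝ} (h : l ≤ l') (i : ℕ) :
    (A.cy (A.F l') (A.F l) (i + 1)).map A.d = A.cy (A.F l) ⊥ i ⊓ Bd A.d (A.F l') ⊥ := by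
  apply le_antisymm
  · rintro _ ⟨w, hw, rfl⟩
    exact ⟨⟨d_mem_Hm hw.1, hw.2.2, A.d_d w⟩, d_mem_Bd _ hw.2.1⟩
  · intro x hx
    obtain ⟨w, h1, h2, h3⟩ := hom_Bd (good_F l') good_bot hx.1.1 hx.2
    have e : x = A.d w := add_eq_zero_iff.1 h3
    exact ⟨w, ⟨h1, h2, by change A.d w ∈ A.F l; rw [← e]; exact hx.1.2.1⟩, e.symm⟩

theorem ker_del {l l' : ℝ} (h : l ≤ l') {i : ℕ} {x : A.C} (hx : x ∈ A.cy (A.F l') (A.F l) (i + 1)) :
    A.d x ∈ Bd A.d (A.F l) ⊥ ↔ x ∈ A.cy (A.F l') ⊥ (i + 1) ⊔ Bd A.d (A.F l') (A.F l) := by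
  constructor
  · intro hb
    obtain ⟨w, h1, h2, h3⟩ := hom_Bd (good_F l) good_bot (d_mem_Hm hx.1) hb
    have e : x = (x + w) + w := by rw [add_assoc, two, add_zero]
    rw [e]
    refine Submodule.add_mem_sup ⟨add_mem hx.1 h1, add_mem hx.2.1 (A.F_mono h h2), ?_⟩ (le_Bd _ _ h2)
    change A.d (x + w) ∈ (⊥ : Submodule F2 A.C)
    rwa [map_add]
  · intro hb'
    obtain ⟨y, hy, b, hb, rfl⟩ := Submodule.mem_sup.1 hb'
    obtain ⟨w, hw, h1⟩ := mem_Bd.1 hb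
    have e : A.d (y + b) = A.d (b + A.d w) := by
      rw [map_add, map_add, A.d_d, add_zero, show A.d y = 0 from hy.2.2, zero_add]
    rw [e]
    exact d_mem_Bd _ h1

/-- degreewise: births and deaths of dying classes -/
theorem kd_step {l l' : ℝ} (h : l ≤ l') (i : ℕ) :
    A.kd l' i + rd (A.cy (A.F l') (A.F l) (i + 1)) (A.cy (A.F l') ⊥ (i + 1) ⊔ Bd A.d (A.F l') (A.F l)) =
      rd (A.Kk l' i) (Bd A.d (A.F l') (A.F l)) + A.kd l i := by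
  have e1 : rd (A.Kk l' i ⊓ Bd A.d (A.F l') (A.F l)) (Bd A.d (A.F l') ⊥) = rd (A.Kk l i) (Bd A.d (A.F l') ⊥) := by
    apply rd_eq_of_le_sup
    · intro x hx
      obtain ⟨w, h1, h2, h3⟩ := cy_Bd_split hx.1.1 hx.2
      have e : x = (x + A.d w) + A.d w := by rw [add_assoc, two, add_zero]
      rw [e]
      exact Submodule.add_mem_sup ⟨h3, add_mem hx.1.2 ⟨w, rfl⟩⟩ (d_mem_Bd _ h2)
    · intro x hx
      exact Submodule.mem_sup_left ⟨⟨cy_mono (A.F_mono h) le_rfl i hx.1, hx.2⟩, le_Bd _ _ hx.1.2.1⟩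
  have e2 : rd (A.Kk l i ⊓ Bd A.d (A.F l') ⊥) (Bd A.d (A.F l) ⊥) =
      rd (A.cy (A.F l') (A.F l) (i + 1)) (A.cy (A.F l') ⊥ (i + 1) ⊔ Bd A.d (A.F l') (A.F l)) := by
    have : A.Kk l i ⊓ Bd A.d (A.F l') ⊥ = A.cy (A.F l) ⊥ i ⊓ Bd A.d (A.F l') ⊥ :=
      le_antisymm (inf_le_inf_right _ (Kk_le l i)) fun x hx => ⟨⟨hx.1, Bd_bot_le_range _ hx.2⟩, hx.2⟩
    rw [this, ← rd_del h, rd_map]
    exact rd_congr fun x hx => ker_del h hx
  unfold kd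
  rw [rd_add_inf (A.Kk l' i) (Bd_mono le_rfl bot_le : Bd A.d (A.F l') ⊥ ≤ Bd A.d (A.F l') (A.F l)), e1,
    rd_add_inf (A.Kk l i) (Bd_mono (A.F_mono h) le_rfl : Bd A.d (A.F l) ⊥ ≤ Bd A.d (A.F l') ⊥), e2, add_assoc]

theorem kd_const {l l' : ℝ} (h : l ≤ l') (hc : Cy A.d (A.F l') (A.F l) ≤ Bd A.d (A.F l') (A.F l)) (i : ℕ) :
    A.kd l i = A.kd l' i := by
  have := kd_step (A := A) h i
  have hc' : ∀ k, A.cy (A.F l') (A.F l) k ≤ Bd A.d (A.F l') (A.F l) := fun k => inf_le_right.trans hc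
  rw [rd_eq_zero.2 (le_sup_of_le_right (hc' _)),
    rd_eq_zero.2 ((Kk_le l' i).trans ((cy_mono le_rfl bot_le i).trans (hc' _))), add_zero,
    zero_add] at this
  exact this.symm

theorem NG_const {l l' : ℝ} (h : l ≤ l') (hc : Cy A.d (A.F l') (A.F l) ≤ Bd A.d (A.F l') (A.F l)) : A.NG l = A.NG l' := by
  unfold NG
  simp only [kd_const h hc]

theorem sm_shift (e N : ℕ) (f : ℕ → ℕ∞) (h0 : f 0 = 0) : sm (e + 1) N (fun i => f (i + 1)) = sm e (N + 1) f := by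
  rw [sm_eq_ite, sm_eq_ite, Finset.sum_range_succ', h0, ite_self, add_zero]
  exact Finset.sum_congr rfl fun i _ => if_congr (by omega) rfl rfl

theorem KS_count {l l' : ℝ} (h : l ≤ l') (hNG : A.NG l = A.NG l') {N : ℕ} (h1 : A.Top (A.F l') (A.F l) N)
    (h2 : A.Top (A.F l) ⊥ N) (h3 : A.Top (A.F l') ⊥ N) :
    sm (n + 1) N (fun i => rd (A.KS l' i) (Bd A.d (A.F l') (A.F l))) +
      sm n N (fun i => rd (A.KS l' i) (Bd A.d (A.F l') (A.F l))) = sm n N (A.hd (A.F l') (A.F l)) := by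
  set del : ℕ → ℕ∞ := fun i => rd (A.cy (A.F l') (A.F l) i) (A.cy (A.F l') ⊥ i ⊔ Bd A.d (A.F l') (A.F l)) with hdel
  have e1 : A.NG l' + sm (n + 1) N (fun i => del (i + 1)) =
      sm (n + 1) N (fun i => rd (A.KS l' i) (Bd A.d (A.F l') (A.F l))) + A.NG l := by
    rw [NG_eq h2, NG_eq h3, ← sm_add, ← sm_add]
    exact sm_congr fun i _ hi => by rw [KS_G l' hi]; exact kd_step h i
  have h0 : del 0 = 0 := rd_eq_zero.2 (le_sup_of_le_left fun x hx => ⟨hx.1, hx.2.1, d_Hm_zero hx.1⟩)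
  rw [sm_shift n N del h0, sm_stable (Nat.le_succ N) (fun i hi _ => rd_eq_zero.2 (le_sup_of_le_right (h1 i hi))),
    hNG, add_comm] at e1
  rw [← (WithTop.add_right_inj (NG_ne_top l')).1 e1, ← sm_add]
  refine sm_congr fun i _ hi => ?_
  rw [KS_B l' hi, ← rd_sup_left, sup_eq_left.2 (cy_mono le_rfl bot_le i)]
  rfl

theorem KS_le' {l l' : ℝ} (i : ℕ) : A.KS l' i ≤ A.cy (A.F l') (A.F l) i := (KS_le l' i).trans (cy_mono le_rfl bot_le i)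

/-- (a) -/
theorem lead_a {l l' : ℝ} (hl : 0 < l) (h : l ≤ l') (hF : A.Full l) {i : ℕ} (hi : (i + n) % 2 = 0) :
    A.Ld (A.KS l') (A.F (2 * l')) (A.F (2 * l)) i ≤ A.KS (2 * l') i ⊔ Bd A.d (A.F (2 * l')) (A.F (2 * l)) := by
  intro x hx
  have hL := loc_pair (A := A) hl h
  have hxc := hL.gp.Lam_le_cy (hL.WS_le_TC KS_le' i) i hx
  rw [KS_B _ hi]
  cases i with
  | zero => exact Submodule.mem_sup_left ⟨hxc.1, hxc.2.1, d_Hm_zero hxc.1⟩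
  | succ t =>
    rw [← ker_del (by linarith) hxc]
    obtain ⟨z, hz, hzF, rfl⟩ := mem_Lam.1 hx
    have hzP := (hL.WS_le_TC KS_le' _ hz).1
    obtain ⟨_, ⟨y, hy, rfl⟩, b, hb, e1⟩ := Submodule.mem_sup.1 hz
    obtain ⟨_, ⟨η, hη, rfl⟩, u, hu, rfl⟩ := Submodule.mem_sup.1 hb
    have hD : A.Dl z = A.Dl u := by
      rw [← e1, map_add, map_add, Dl_Dl' hη, zero_add, add_eq_right]
      funext k
      rw [Dl_jj, show A.d (y (k + 1)) = 0 from (KS_le _ _ (hy _).1).2.2, map_zero, Pi.zero_apply]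
    let z' : ℕ → A.C := fun k => if k < t + 1 then z k else 0
    have hz' : z' ∈ A.PP (A.F (2 * l)) (t + 1) := by
      intro k
      simp only [z']
      split_ifs with hk
      · exact ⟨⟨(hzP k).1.1, hzF k hk⟩, (hzP k).2⟩
      · exact ⟨zero_mem _, fun _ => rfl⟩
    have hF' : z + z' ∈ Fl ⊥ (t + 1) := by
      intro k hk
      simp only [z', Pi.add_apply, if_pos hk, two]
      exact zero_mem _
    have e2 : A.Dl (u + z') = A.Dl (z + z') := by rw [map_add, map_add, hD]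
    have e3 : A.Dl (u + z') t = A.d (z (t + 1)) := by
      have := Dl_lead (A := A) good_bot (Fl_anti _ (Nat.le_succ t) hF')
      rw [mem_bot, add_eq_zero_iff, ← e2] at this
      simpa [z'] using this
    refine (hF t (by omega)).2 ⟨⟨⟨d_mem_Hm hxc.1, hxc.2.2, A.d_d _⟩, ⟨_, rfl⟩⟩, Submodule.mem_sup_left ?_⟩
    exact mem_Lam.2 ⟨_, Submodule.mem_sup_left ⟨_, add_mem hu hz', rfl⟩, e2 ▸ Dl_Fl good_bot hF', e3⟩

/-- (a'') -/
theorem lead_a' {l l' : ℝ} (hl : 0 < l) (h : l ≤ l') (hF : A.Full l') (hs : A.Stab l) {i : ℕ} (hi : (i + n) % 2 = 0) :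
    A.KS (2 * l') i ≤ A.Ld (A.KS l') (A.F (2 * l')) (A.F (2 * l)) i ⊔ Bd A.d (A.F (2 * l')) (A.F (2 * l)) := by
  rw [KS_B _ hi]
  intro x hx
  set U := A.F (2 * l') with hU
  set V := A.F (2 * l) with hV
  have hVU : V ≤ U := A.F_mono (by linarith)
  have key : ∀ t, ∃ z ∈ A.PP U i, z ∈ Fl V i ∧ z i + x ∈ V ∧ A.Dl z ∈ Fl ⊥ (i + 1 + t) := by
    intro t
    induction t with
    | zero =>
      exact ⟨Pi.single i x, single_mem_PP hx.1 hx.2.1 (by omega), single_mem_Fl V i x, by simp [two],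
        Dl_single_Fl good_bot hx.2.2⟩
    | succ t ih =>
      obtain ⟨z, hz, hzF, hzx, hD⟩ := ih
      set q := i + 1 + t with hq
      have hDP := Dl_mem_PP' (good_F _) hz
      by_cases hp : (q + (i + 1)) % 2 = 1
      · exact ⟨z, hz, hzF, hzx, Fl_succ (i := q) hD (by rw [(hDP q).2 hp]; exact zero_mem _)⟩
      have hPq : ∀ W, A.PP W (q + 1) = A.PP W i := fun W => PP_congr W (by omega)
      have h1 : A.Dl z q ∈ A.Bo U ⊥ q := mem_Lam.2 ⟨_, Submodule.mem_sup_left ⟨z, by rwa [hPq], rfl⟩, hD, rfl⟩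
      obtain ⟨b, hb, ρ, hρ, e1⟩ := Submodule.mem_sup.1 (hs l' h q (by omega) h1)
      obtain ⟨_, hb1, hb2, rfl⟩ := mem_Lam.1 hb
      obtain ⟨u, hu, rfl⟩ := mem_TB_bot hb1
      rw [hPq] at hu
      have hzu : z + u ∈ A.PP U i := add_mem hz (PP_mono hVU i hu)
      have hF2 : A.Dl (z + u) ∈ Fl ⊥ q := by rw [map_add]; exact add_mem hD hb2
      have e2 : A.Dl (z + u) q = ρ := by rw [map_add, Pi.add_apply, ← e1, add_right_comm, two, zero_add]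
      have h2 : A.Dl (z + u) q ∈ A.Bo U ⊥ q := mem_Lam.2 ⟨_, Submodule.mem_sup_left ⟨_, by rwa [hPq], rfl⟩, hF2, rfl⟩
      have h3 := (hF q (by omega)).2 ⟨⟨(gp_abs _).Bo_le_cy q h2, e2 ▸ hρ⟩, Submodule.mem_sup_left h2⟩
      have hDP' := Dl_mem_PP' (good_F _) hzu
      obtain ⟨w, hw, hw'⟩ := kill_Bd (good_F _) good_bot (e := i + 1) (hDP' q).1.1 (hDP' q).2 hF2 h3
      rw [PP_congr _ (e' := i) (by omega)] at hw
      refine ⟨z + u + Pi.single (q + 1) w, add_mem hzu hw,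
        add_mem (add_mem hzF (PP_le_Fl V _ _ hu)) (Fl_anti V (by omega) (single_mem_Fl V _ w)), ?_, by rwa [map_add]⟩
      rw [Pi.add_apply, Pi.single_eq_of_ne (by omega), add_zero, Pi.add_apply, add_right_comm]
      exact add_mem hzx (hu i).1.2
  obtain ⟨N, hN⟩ := A.top_abs (2 * l')
  obtain ⟨z, hz, hzF, hzx, hD⟩ := key N
  obtain ⟨_, ⟨η, hη, rfl⟩, v, hv, e1⟩ := Submodule.mem_sup.1 ((gp_abs _).comp (hN.mono (show N ≤ i + 1 + N by omega)) (i + 1)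
    ⟨mem_TC_bot (Dl_mem_PP' (good_F _) hz) (Dl_Dl' hz), hD⟩)
  rw [PP_bot hv, add_zero] at e1
  have hηP : η ∈ A.PP U i := by have := hη.1; rwa [PP_congr _ (e' := i) (by omega)] at this
  have h1 : z + η ∈ A.TC U ⊥ i := mem_TC_bot (add_mem hz hηP) (by rw [map_add, e1, two])
  have h2 : A.WS (A.cy (A.F l') ⊥) U ⊥ i ≤ A.WS (A.KS l') U V i :=
    sup_le_sup (Submodule.map_mono (PS_mono' fun k hk => (KS_B l' (by omega)).ge)) (TB_mono le_rfl bot_le i)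
  have e2 : x = (z + η) i + (z i + x) := by
    rw [Pi.add_apply, show η i = 0 from hη.2 i (by omega), add_zero, ← add_assoc, two, zero_add]
  rw [e2]
  refine Submodule.add_mem_sup (mem_Lam.2 ⟨_, h2 ((loc_abs (hl.trans_le h)).surj i h1), ?_, rfl⟩) (le_Bd _ _ hzx)
  exact add_mem hzF (Fl_mono bot_le i (Fl_anti _ (by omega) hη.2))

/-- (b) -/
theorem lead_b {l l' : ℝ} (hl : 0 < l) (h : l ≤ l') (hF : A.Full l') {i : ℕ} (hi : (i + (n + 1)) % 2 = 0) :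
    A.KS (2 * l') i ≤ A.Ld (A.KS l') (A.F (2 * l')) (A.F (2 * l)) i ⊔ Bd A.d (A.F (2 * l')) (A.F (2 * l)) := by
  rw [KS_G _ hi]
  refine (hF i hi).1.trans (sup_le_sup ?_ (Bd_mono le_rfl bot_le))
  exact Submodule.map_mono (inf_le_inf (sup_le_sup (Submodule.map_mono (PS_mono' fun k hk => (KS_G l' (by omega)).ge))
    (TB_mono le_rfl bot_le i)) (Fl_mono bot_le i))

theorem lead_eq {l l' : ℝ} (hl : 0 < l) (h : l ≤ l') (hF : A.Full l) (hF' : A.Full l') (hs : A.Stab l)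
    (h1 : A.NG l = A.NG l') (h2 : A.NG (2 * l) = A.NG (2 * l')) (i : ℕ) :
    A.Ld (A.KS l') (A.F (2 * l')) (A.F (2 * l)) i ≤ A.KS (2 * l') i ⊔ Bd A.d (A.F (2 * l')) (A.F (2 * l)) ∧
      A.KS (2 * l') i ≤ A.Ld (A.KS l') (A.F (2 * l')) (A.F (2 * l)) i ⊔ Bd A.d (A.F (2 * l')) (A.F (2 * l)) := by
  by_cases hi : (i + n) % 2 = 0
  · exact ⟨lead_a hl h hF hi, lead_a' hl h hF' hs hi⟩
  have hi' : (i + (n + 1)) % 2 = 0 := by omega
  refine ⟨?_, lead_b hl h hF' hi'⟩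
  have h' : 2 * l ≤ 2 * l' := by linarith
  have hL := loc_pair (A := A) hl h
  obtain ⟨N₁, t₁⟩ := A.top_pair h
  obtain ⟨N₂, t₂⟩ := A.top_pair h'
  obtain ⟨N₃, t₃⟩ := A.top_abs l
  obtain ⟨N₄, t₄⟩ := A.top_abs l'
  obtain ⟨N₅, t₅⟩ := A.top_abs (2 * l)
  obtain ⟨N₆, t₆⟩ := A.top_abs (2 * l')
  set N := N₁ + N₂ + N₃ + N₄ + N₅ + N₆ + i + 1 with hN
  replace t₁ := t₁.mono (show N₁ ≤ N by omega)
  replace t₂ := t₂.mono (show N₂ ≤ N by omega)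
  replace t₃ := t₃.mono (show N₃ ≤ N by omega)
  replace t₄ := t₄.mono (show N₄ ≤ N by omega)
  replace t₅ := t₅.mono (show N₅ ≤ N by omega)
  replace t₆ := t₆.mono (show N₆ ≤ N by omega)
  have c1 := KS_count h h1 t₁ t₃ t₄
  have c2 := KS_count h' h2 t₂ t₅ t₆
  have c3 := hL.tate3 t₂ t₁ (S := A.KS l') KS_le' n
  have c4 := hL.tate3 t₂ t₁ (S := A.KS l') KS_le' (n + 1)
  have c5 := hL.tate4 t₂ t₁ n
  have c6 : sm n N (fun i => rd (A.KS (2 * l') i) (Bd A.d (A.F (2 * l')) (A.F (2 * l)))) =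
      sm n N (fun i => rd (A.Ld (A.KS l') (A.F (2 * l')) (A.F (2 * l)) i) (Bd A.d (A.F (2 * l')) (A.F (2 * l)))) :=
    sm_congr fun k _ hk => rd_eq_of_le_sup (lead_a' hl h hF' hs hk) (lead_a hl h hF hk)
  have hfin : ∀ e, sm e N (fun i => rd (A.KS (2 * l') i) (Bd A.d (A.F (2 * l')) (A.F (2 * l)))) ≠ ⊤ :=
    fun e => (gp_pair h').sm_ne_top (fin_pair h') (fun k => le_sup_of_le_left (KS_le' k)) e N
  have c7 : sm (n + 1) N (fun i => rd (A.KS (2 * l') i) (Bd A.d (A.F (2 * l')) (A.F (2 * l)))) =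
      sm (n + 1) N (fun i => rd (A.Ld (A.KS l') (A.F (2 * l')) (A.F (2 * l)) i) (Bd A.d (A.F (2 * l')) (A.F (2 * l)))) := by
    refine (WithTop.add_right_inj (hfin n)).1 (c2.trans (?_ : _ = (_ + _ : ℕ∞)))
    rw [c5, c6, c3, c4, ← c1]
    ac_rfl
  refine le_sup_of_rd_le (lead_b hl h hF' hi') ?_ (ne_top_of_le_ne_top (hfin (n + 1))
    (le_sm (fun i => rd (A.KS (2 * l') i) (Bd A.d (A.F (2 * l')) (A.F (2 * l)))) (show i < N by omega) hi'))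
  exact eq_of_sm_le (fun k _ hk => rd_le_of_le_sup (lead_b hl h hF' hk)) c7.ge (hfin _) i (by omega) hi'

end Crest.Agent.R231.Alg
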