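import Crest.Agent.R231.Alg.Basic

/-! # R231/Alg: dimension counts in the Tate complex of a good pair -/

set_option autoImplicit false
open Submodule

noncomputable section
namespace Crest.Agent.R231.Alg

variable {n : ℕ} {A : Alg n}

theorem mem_PP_of {U V : Submodule F2 A.C} {e : ℕ} {z : ℕ → A.C} (h : z ∈ A.PP U e) (hV : ∀ k, z k ∈ V) :
    z ∈ A.PP V e := fun k => ⟨⟨(h k).1.1, hV k⟩, (h k).2⟩

/-- kill a leading term which is a boundary -/
theorem kill_Bd {U V : Submodule F2 A.C} (hU : A.Good U) (hV : A.Good V) {e i : ℕ} {z : ℕ → A.C}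
    (h0 : z i ∈ A.Hm i) (hpar : (i + e) % 2 = 1 → z i = 0) (hz : z ∈ Fl V i) (hb : z i ∈ Bd A.d U V) :
    ∃ w, (Pi.single (i + 1) w : ℕ → A.C) ∈ A.PP U (e + 1) ∧ z + A.Dl (Pi.single (i + 1) w) ∈ Fl V (i + 1) := by
  by_cases hi : (i + e) % 2 = 1
  · refine ⟨0, by simp, ?_⟩
    simp only [Pi.single_zero, map_zero, add_zero]
    exact Fl_succ hz (by rw [hpar hi]; exact V.zero_mem)
  · obtain ⟨w, hw1, hw2, hw⟩ := hom_Bd hU hV h0 hb
    refine ⟨w, single_mem_PP hw1 hw2 (by omega), Fl_succ (add_mem hz (Dl_Fl hV (single_mem_Fl V _ w))) ?_⟩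
    rwa [Pi.add_apply, Dl_single]

/-- completeness -/
theorem GP.comp {U V : Submodule F2 A.C} (h : A.GP U V) {N : ℕ} (hN : A.Top U V N) (e : ℕ) :
    A.TC U V e ⊓ Fl V N ≤ (A.PP U (e + 1) ⊓ Fl V (N + 1)).map A.Dl ⊔ A.PP V e := by
  intro z hz
  have step : ∀ (i : ℕ) (z : ℕ → A.C), N ≤ i → z ∈ A.TC U V e ⊓ Fl V i → ∃ w, (Pi.single (i + 1) w : ℕ → A.C) ∈ A.PP U (e + 1) ∧
      z + A.Dl (Pi.single (i + 1) w) ∈ A.TC U V e ⊓ Fl V (i + 1) := by
    intro i z hi hz
    obtain ⟨w, hw, hw'⟩ := kill_Bd h.gU h.gV (e := e) (hz.1.1 i).1.1 (hz.1.1 i).2 hz.2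
      (hN i hi (h.Lam_le_cy le_rfl i (mem_Lam.2 ⟨z, hz.1, hz.2, rfl⟩)))
    exact ⟨w, hw, add_mem hz.1 (h.TB_le_TC e (Submodule.mem_sup_left ⟨_, hw, rfl⟩)), hw'⟩
  choose! f hf using step
  let Z : ℕ → ℕ → A.C := fun t => Nat.rec z (fun t Zt => Zt + A.Dl (Pi.single (N + t + 1) (f (N + t) Zt))) t
  have hZs : ∀ t, Z (t + 1) = Z t + A.Dl (Pi.single (N + t + 1) (f (N + t) (Z t))) := fun _ => rfl
  have hZ : ∀ t, Z t ∈ A.TC U V e ⊓ Fl V (N + t) := by
    intro t
    induction t with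
    | zero => exact hz
    | succ t ih => exact (hf (N + t) (Z t) (Nat.le_add_right _ _) ih).2
  let η : ℕ → A.C := fun k => if N < k then f (k - 1) (Z (k - 1 - N)) else 0
  have hη : ∀ t, η (N + t + 1) = f (N + t) (Z t) := by
    intro t
    simp only [η]
    rw [if_pos (by omega), Nat.add_sub_cancel, Nat.add_sub_cancel_left]
  have hηP : η ∈ A.PP U (e + 1) := by
    intro k
    by_cases hk : N < k
    · obtain ⟨t, rfl⟩ : ∃ t, k = N + t + 1 := ⟨k - 1 - N, by omega⟩
      have := (hf (N + t) (Z t) (Nat.le_add_right _ _) (hZ t)).1 (N + t + 1)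
      rwa [Pi.single_eq_same, ← hη] at this
    · have : η k = 0 := if_neg hk
      rw [this]
      exact ⟨zero_mem _, fun _ => rfl⟩
  have hηF : η ∈ Fl V (N + 1) := by
    intro k hk
    have : η k = 0 := if_neg (by omega)
    rw [this]
    exact V.zero_mem
  have hZe : ∀ t, Z t = z + A.Dl (fun k => if k ≤ N + t then η k else 0) := by
    intro t
    induction t with
    | zero =>
      have : (fun k => if k ≤ N + 0 then η k else 0) = 0 := by
        funext k
        split_ifs with hk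
        · exact if_neg (by omega)
        · rfl
      rw [this, map_zero, add_zero]
      rfl
    | succ t ih =>
      rw [hZs, ← hη, ih, add_assoc, ← map_add]
      congr 2
      funext k
      rw [Pi.add_apply]
      by_cases hk : k = N + t + 1
      · subst hk
        rw [if_neg (by omega), if_pos (by omega), Pi.single_eq_same, zero_add]
      · rw [Pi.single_eq_of_ne hk, add_zero]
        exact if_congr (by omega) rfl rfl
  have e1 : z = A.Dl η + (z + A.Dl η) := by rw [add_comm z, ← add_assoc, two, zero_add]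
  rw [e1]
  refine Submodule.add_mem_sup ⟨η, ⟨hηP, hηF⟩, rfl⟩ (mem_PP_of (add_mem hz.1.1 (Dl_mem_PP h.gU hηP)) fun k => ?_)
  have := (hZ (k + 1)).2 k (by omega)
  rw [hZe (k + 1), Pi.add_apply, Dl_congr (z' := η) (fun a ha => if_pos (by omega))] at this
  exact this

theorem GP.tate1 {U V : Submodule F2 A.C} (h : A.GP U V) {N : ℕ} (hN : A.Top U V N) (e : ℕ)
    {W : Submodule F2 (ℕ → A.C)} (h1 : A.TB U V e ≤ W) (h2 : W ≤ A.TC U V e) :
    sm e N (fun i => rd (Lam V W i) (Bd A.d U V)) = rd W (A.TB U V e) + sm e N (A.bo U V) := by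
  have h0 : rd (W ⊓ Fl V N) (A.TB U V e) = 0 :=
    rd_eq_zero.2 ((inf_le_inf_right _ h2).trans ((h.comp hN e).trans
      (sup_le_sup_right (Submodule.map_mono inf_le_left) _)))
  rw [rd_eq_sum_Lam V h1 N, h0, add_zero, sm_eq_ite, sm_eq_ite, ← Finset.sum_add_distrib]
  refine Finset.sum_congr rfl fun i _ => ?_
  split_ifs with hi
  · have e1 : Lam V (A.TB U V e) i = A.Bo U V i := by rw [TB_congr U V (e := e) (e' := i) (by omega)]; rfl
    have h3 : A.Bo U V i ≤ Lam V W i := e1 ▸ Lam_mono V h1 i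
    rw [e1]
    calc rd (Lam V W i) (Bd A.d U V) = rd (Lam V W i ⊔ A.Bo U V i) (Bd A.d U V) := by rw [sup_eq_left.2 h3]
      _ = rd (Lam V W i) (A.Bo U V i ⊔ Bd A.d U V) + A.bo U V i := rd_sup_left _ _ _
      _ = _ := by
        congr 1
        apply rd_congr
        intro x hx
        refine ⟨fun hb' => ?_, fun hb => sup_le_sup_left (le_Bd U V) _ hb⟩
        obtain ⟨a, ha, b, hb, rfl⟩ := Submodule.mem_sup.1 hb'
        have hbH : b ∈ A.Hm i := by
          have := add_mem (h.Bo_le_cy i ha).1 (h.Lam_le_cy h2 i hx).1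
          rwa [← add_assoc, two, zero_add] at this
        exact add_mem (Submodule.mem_sup_left ha) (h.Bd_le_Bo hbH hb)
  · rw [Lam_eq_bot (h2.trans inf_le_left) (by omega), rd_eq_zero.2 bot_le, add_zero]

theorem GP.tate2 {U V : Submodule F2 A.C} (h : A.GP U V) {N : ℕ} (hN : A.Top U V N) (e : ℕ) :
    sm e N (fun i => rd (A.cy U V i) (A.Zz U V i ⊔ Bd A.d U V)) = sm (e + 1) N (A.bo U V) := by
  have hP : A.PP U (e + 1 + 1) = A.PP U e := PP_congr U (by omega)
  set a : ℕ → Submodule F2 (ℕ → A.C) := fun t => A.TB U V (e + 1) ⊓ Fl V t with ha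
  set b : ℕ → Submodule F2 (ℕ → A.C) := fun i => (A.PP U e ⊓ Fl V i).map A.Dl ⊔ A.PP V (e + 1) with hb
  have hbT : ∀ i, b i ≤ A.TB U V (e + 1) := fun i =>
    sup_le_sup_right (Submodule.map_mono (inf_le_left.trans hP.ge)) _
  have hba : ∀ t, b (t + 1) ≤ a t := by
    intro t
    refine le_inf (hbT _) (sup_le ?_ (PP_le_Fl V _ t))
    rintro _ ⟨z, hz, rfl⟩
    exact Dl_Fl h.gV hz.2
  have hbb : ∀ t, b (t + 1) ≤ b t := fun t =>
    sup_le_sup_right (Submodule.map_mono (inf_le_inf_left _ (Fl_anti V (Nat.le_succ t)))) _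
  have haa : ∀ t, a (t + 1) ≤ a t := fun t => inf_le_inf_left _ (Fl_anti V (Nat.le_succ t))
  have hbo : ∀ t, rd (a t) (a (t + 1) ⊔ b (t + 1)) = if (t + (e + 1)) % 2 = 0 then A.bo U V t else 0 := by
    intro t
    split_ifs with ht
    · have e1 : A.Bo U V t = (a t).map (LinearMap.proj t) := by
        unfold Bo Lam
        rw [TB_congr U V (e := t) (e' := e + 1) (by omega)]
      unfold bo
      rw [e1, rd_map]
      apply rd_congr
      intro z hz
      constructor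
      · intro hs
        obtain ⟨x, hx, y, hy, rfl⟩ := Submodule.mem_sup.1 hs
        obtain ⟨_, ⟨η, hη, rfl⟩, v, hv, rfl⟩ := Submodule.mem_sup.1 hy
        change x t + (A.Dl η t + v t) ∈ Bd A.d U V
        refine add_mem (le_Bd U V (hx.2 t (Nat.lt_succ_self t))) (add_mem ?_ (le_Bd U V (hv t).1.2))
        exact mem_Bd.2 ⟨η (t + 1), (hη.1 _).1.2, Dl_lead h.gV (Fl_anti V (Nat.le_succ t) hη.2)⟩
      · intro hs
        have hzP := h.TB_le_PP _ hz.1
        obtain ⟨w, hw, hw'⟩ := kill_Bd h.gU h.gV (e := e + 1) (hzP t).1.1 (hzP t).2 hz.2 hs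
        have hwb : A.Dl (Pi.single (t + 1) w) ∈ b (t + 1) :=
          Submodule.mem_sup_left ⟨_, ⟨hP ▸ hw, single_mem_Fl V _ w⟩, rfl⟩
        have e2 : z = (z + A.Dl (Pi.single (t + 1) w)) + A.Dl (Pi.single (t + 1) w) := by rw [add_assoc, two, add_zero]
        rw [e2]
        exact Submodule.add_mem_sup ⟨add_mem hz.1 (hbT _ hwb), hw'⟩ hwb
    · refine rd_eq_zero.2 (le_sup_of_le_left fun z hz => ⟨hz.1, Fl_succ hz.2 ?_⟩)
      rw [(h.TB_le_PP _ hz.1 t).2 (by omega)]
      exact V.zero_mem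
  have hhz : ∀ i, rd (a i ⊓ b i) (b (i + 1)) =
      if (i + e) % 2 = 0 then rd (A.cy U V i) (A.Zz U V i ⊔ Bd A.d U V) else 0 := by
    intro i
    set Y : Submodule F2 (ℕ → A.C) := A.PP U e ⊓ Fl V i ⊓ (Fl V i).comap A.Dl with hY
    have e1 : rd (a i ⊓ b i) (b (i + 1)) = rd Y ((b (i + 1)).comap A.Dl) := by
      rw [← rd_map]
      apply rd_eq_of_le_sup
      · rintro z ⟨hz1, hz2⟩
        obtain ⟨_, ⟨η, hη, rfl⟩, v, hv, rfl⟩ := Submodule.mem_sup.1 hz2
        refine Submodule.add_mem_sup ⟨η, ⟨hη, ?_⟩, rfl⟩ (Submodule.mem_sup_right hv)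
        have := add_mem hz1.2 (PP_le_Fl V _ i hv)
        rwa [add_assoc, two, add_zero] at this
      · rintro _ ⟨η, hη, rfl⟩
        have : A.Dl η ∈ b i := Submodule.mem_sup_left ⟨η, hη.1, rfl⟩
        exact Submodule.mem_sup_left ⟨⟨hbT _ this, hη.2⟩, this⟩
    rw [e1]
    split_ifs with hi
    · have e2 : A.cy U V i = Y.map (LinearMap.proj i) := by
        apply le_antisymm
        · intro c hc
          exact ⟨Pi.single i c, ⟨⟨single_mem_PP hc.1 hc.2.1 hi, single_mem_Fl V i c⟩,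
            Fl_anti V (Nat.le_succ i) (Dl_single_Fl h.gV hc.2.2)⟩, by simp⟩
        · rintro _ ⟨η, hη, rfl⟩
          exact ⟨(hη.1.1 i).1.1, (hη.1.1 i).1.2, d_lead_mem h.gV (hη.1.1 i).1.1 hη.1.2 hη.2⟩
      have e3 : A.Zz U V i = Lam V (A.TC U V e) i := by
        unfold Zz
        rw [TC_congr U V (e := i) (e' := e) (by omega)]
      rw [e2, rd_map, e3]
      apply rd_congr
      intro η hη
      constructor
      · intro hs
        obtain ⟨_, ⟨θ, hθ, rfl⟩, v, hv, h3⟩ := Submodule.mem_sup.1 hs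
        have h4 : η + θ ∈ A.TC U V e := by
          refine ⟨add_mem hη.1.1 hθ.1, ?_⟩
          change A.Dl (η + θ) ∈ A.PP V (e + 1)
          rw [map_add, ← h3, add_right_comm, two, zero_add]
          exact hv
        have e4 : η i = (η + θ) i + θ i := by rw [Pi.add_apply, add_assoc, two, add_zero]
        change η i ∈ Lam V (A.TC U V e) i ⊔ Bd A.d U V
        rw [e4]
        exact Submodule.add_mem_sup (mem_Lam.2 ⟨_, h4, add_mem hη.1.2 (Fl_anti V (Nat.le_succ i) hθ.2), rfl⟩)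
          (le_Bd U V (hθ.2 i (Nat.lt_succ_self i)))
      · intro hs
        obtain ⟨x, hx, y, hy, h3⟩ := Submodule.mem_sup.1 hs
        obtain ⟨z, hz, hz', rfl⟩ := mem_Lam.1 hx
        have h3' : z i + y = η i := h3
        have hP1 : η + z ∈ A.PP U e := add_mem hη.1.1 hz.1
        have h4 : (η + z) i ∈ Bd A.d U V := by
          rw [Pi.add_apply, ← h3', add_right_comm, two, zero_add]
          exact hy
        obtain ⟨w, hw, hw'⟩ := kill_Bd h.gU h.gV (e := e) (hP1 i).1.1 (hP1 i).2 (add_mem hη.1.2 hz') h4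
        have e4 : A.Dl η = A.Dl (η + z + A.Dl (Pi.single (i + 1) w)) + A.Dl z := by
          rw [map_add, map_add, Dl_Dl' hw, add_zero, add_assoc, two, add_zero]
        change A.Dl η ∈ b (i + 1)
        rw [e4]
        exact Submodule.add_mem_sup ⟨_, ⟨add_mem hP1 (Dl_mem_PP h.gU hw), hw'⟩, rfl⟩ hz.2
    · refine rd_eq_zero.2 fun η hη => Submodule.mem_sup_left ⟨η, ⟨hη.1.1, Fl_succ hη.1.2 ?_⟩, rfl⟩
      rw [(hη.1.1 i).2 (by omega)]
      exact V.zero_mem
  have key : ∀ T, sm e (T + 1) (fun i => rd (A.cy U V i) (A.Zz U V i ⊔ Bd A.d U V)) =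
      sm (e + 1) T (A.bo U V) + rd (a T) (b (T + 1)) := by
    intro T
    induction T with
    | zero =>
      rw [sm_succ, ← hhz]
      have : a 0 ⊓ b 0 = a 0 := by
        refine inf_eq_left.2 fun z hz => ?_
        obtain ⟨_, ⟨η, hη, rfl⟩, v, hv, rfl⟩ := Submodule.mem_sup.1 hz.1
        exact Submodule.add_mem_sup ⟨η, ⟨hP ▸ hη, by rw [Fl_zero]; trivial⟩, rfl⟩ hv
      rw [this]
      simp [sm]
    | succ T ih =>
      have e1 : rd (a T) (b (T + 1)) = rd (a T) (a (T + 1) ⊔ b (T + 1)) + rd (a (T + 1)) (b (T + 1)) := by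
        rw [← rd_sup_left, sup_eq_left.2 (haa T)]
      rw [sm_succ, ih, sm_succ, ← hhz, ← hbo, rd_add_inf (a (T + 1)) (hbb (T + 1)), e1]
      simp only [add_assoc]
  have h0 : rd (a N) (b (N + 1)) = 0 := by
    refine rd_eq_zero.2 ((inf_le_inf_right _ (h.TB_le_TC _)).trans ((h.comp hN (e + 1)).trans ?_))
    rw [hP]
  have h1 := key N
  rw [h0, add_zero, sm_stable (Nat.le_succ N)
    (fun i hi _ => rd_eq_zero.2 (le_sup_of_le_right (hN i hi)))] at h1
  exact h1

end Crest.Agent.R231.Alg
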